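import Vale.Agent.Lib.P371.S.Reduce

/-! The final form for orthonormal families and scalar potentials. -/

open MeasureTheory Set Filter Topology
open scoped ENNReal

namespace Vale.Agent.Lib.P371.S

/-- The pointwise Young inequality with the constants of the theorem. -/
lemma young_pt {W r : ℝ} (hW : 0 ≤ W) (hr : 0 ≤ r) :
    W * r ≤ (64 / 27 : ℝ) * r ^ 3 + (1 / 4 : ℝ) * W ^ (3 / 2 : ℝ) := by
  set w := Real.sqrt W with hw
  have hw0 : 0 ≤ w := Real.sqrt_nonneg W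
  have h2 : W = w ^ 2 := (Real.sq_sqrt hW).symm
  have h3 : W ^ (3 / 2 : ℝ) = w ^ 3 := by
    rw [hw, Real.sqrt_eq_rpow, ← Real.rpow_natCast, ← Real.rpow_mul hW]
    norm_num
  rw [h3, h2]
  have h := mul_nonneg (sq_nonneg (4 / 3 * r - w / 2)) (add_nonneg (mul_nonneg (by norm_num : (0 : ℝ) ≤ 4 / 3) hr) hw0)
  nlinarith [h]

lemma ii_of_memLp {f : ℝ → ℂ} (hf : MemLp f 2 volume) (a b : ℝ) :
    IntervalIntegrable f volume a b := by
  rw [intervalIntegrable_iff]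
  exact ((hf.locallyIntegrable (by norm_num)).integrableOn_isCompact isCompact_uIcc).mono_set
    Set.uIoc_subset_uIcc

lemma integrable_norm_sq' {f : ℝ → ℂ} (hf : MemLp f 2 volume) :
    Integrable fun x => ‖f x‖ ^ 2 :=
  (memLp_two_iff_integrable_sq_norm hf.1).mp hf

/-- Bessel inequality for a linear combination of an orthonormal family. -/
lemma bessel_family {N : ℕ} (φ : Fin N → ℝ → ℂ) (hφ : ∀ j, MemLp (φ j) 2 volume)
    (orth : ∀ i j, ∫ x, (starRingEnd ℂ) (φ i x) * φ j x = if i = j then (1 : ℂ) else 0)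
    (e : EuclideanSpace ℂ (Fin N)) (he : ‖e‖ = 1) :
    ∫⁻ x, ENNReal.ofReal
      ((inner ℝ e (WithLp.toLp 2 (fun j => φ j x) : EuclideanSpace ℂ (Fin N))) ^ 2) ≤ 1 := by
  set g : ℝ → ℂ := fun x => ∑ j, (starRingEnd ℂ) (e.ofLp j) * φ j x with hg
  have hgL : MemLp g 2 volume := memLp_finsetSum _ fun j _ => (hφ j).const_mul _
  have inner_real_eq : ∀ x, inner ℝ e (WithLp.toLp 2 (fun j => φ j x) : EuclideanSpace ℂ (Fin N))
      = (g x).re := by
    intro x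
    rw [PiLp.inner_apply]
    simp only [hg, Complex.re_sum]
    refine Finset.sum_congr rfl fun j _ => ?_
    rw [Complex.inner, mul_comm]
  have hint : ∀ i j, Integrable fun x => (starRingEnd ℂ) (φ i x) * φ j x := by
    intro i j
    have h1 : MemLp (fun x => (starRingEnd ℂ) (φ i x)) 2 volume := (hφ i).star
    exact h1.integrable_mul (hφ j)
  have hsq : ∫ x, ‖g x‖ ^ 2 = 1 := by
    have hexp : ∀ x, ((‖g x‖ ^ 2 : ℝ) : ℂ) =
        ∑ i, ∑ j, (e.ofLp i * (starRingEnd ℂ) (e.ofLp j)) *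
          ((starRingEnd ℂ) (φ i x) * φ j x) := by
      intro x
      push_cast
      rw [← Complex.conj_mul']
      simp only [hg, map_sum, map_mul, Complex.conj_conj]
      rw [Finset.sum_mul_sum]
      refine Finset.sum_congr rfl fun i _ => Finset.sum_congr rfl fun j _ => ?_
      ring
    have hc : (∫ x, ((‖g x‖ ^ 2 : ℝ) : ℂ)) = 1 := by
      simp only [hexp]
      rw [integral_finsetSum _ fun i _ => integrable_finsetSum _ fun j _ =>
        (hint i j).const_mul _]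
      simp only [integral_finsetSum _ fun j _ => (hint _ j).const_mul _,
        integral_const_mul, orth]
      have : ∀ i, ∑ j, (e.ofLp i * (starRingEnd ℂ) (e.ofLp j)) * (if i = j then (1 : ℂ) else 0)
          = ((‖e.ofLp i‖ ^ 2 : ℝ) : ℂ) := by
        intro i
        simp only [mul_ite, mul_one, mul_zero, Finset.sum_ite_eq, Finset.mem_univ, if_true]
        push_cast
        rw [Complex.mul_conj']
      simp only [this]
      rw [← Complex.ofReal_sum, ← EuclideanSpace.norm_sq_eq, he]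
      norm_num
    have := integral_ofReal (μ := volume) (𝕜 := ℂ) (f := fun x => ‖g x‖ ^ 2)
    rw [show (fun x => (((‖g x‖ ^ 2 : ℝ) : ℂ))) = fun x => (((‖g x‖ ^ 2 : ℝ) : ℂ)) from rfl] at hc
    have h2 : ((∫ x, ‖g x‖ ^ 2 : ℝ) : ℂ) = 1 := by
      rw [← hc]
      exact this.symm
    exact_mod_cast h2
  calc ∫⁻ x, ENNReal.ofReal
        ((inner ℝ e (WithLp.toLp 2 (fun j => φ j x) : EuclideanSpace ℂ (Fin N))) ^ 2)
      ≤ ∫⁻ x, ENNReal.ofReal (‖g x‖ ^ 2) := by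
        apply lintegral_mono
        intro x
        apply ENNReal.ofReal_le_ofReal
        rw [inner_real_eq]
        have h1 := Complex.abs_re_le_norm (g x)
        calc (g x).re ^ 2 = |(g x).re| ^ 2 := (sq_abs _).symm
          _ ≤ ‖g x‖ ^ 2 := by gcongr
    _ = ENNReal.ofReal (∫ x, ‖g x‖ ^ 2) :=
        (ofReal_integral_eq_lintegral_ofReal (integrable_norm_sq' hgL)
          (Eventually.of_forall fun x => by positivity)).symm
    _ = 1 := by rw [hsq]; simp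

/-- `∑ⱼ ∫ W |φⱼ|² ≤ ∑ⱼ ∫ |φⱼ'|² + (1/4) ∫ W^{3/2}` for orthonormal families in `H¹(ℝ)`. -/
theorem main_scalar {N : ℕ} (φ φ' : Fin N → ℝ → ℂ)
    (hφ : ∀ j, MemLp (φ j) 2 volume) (hφ' : ∀ j, MemLp (φ' j) 2 volume)
    (hftc : ∀ j, ∀ a b : ℝ, ∫ t in a..b, φ' j t = φ j b - φ j a)
    (orth : ∀ i j, ∫ x, (starRingEnd ℂ) (φ i x) * φ j x = if i = j then (1 : ℂ) else 0)
    (W : ℝ → ℝ) (hWm : Measurable W) (hW : ∀ x, 0 ≤ W x)
    (hWi : Integrable fun x => W x ^ (3 / 2 : ℝ)) :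
    (∀ j, Integrable fun x => W x * ‖φ j x‖ ^ 2) ∧
    ∑ j, ∫ x, W x * ‖φ j x‖ ^ 2 ≤
      (∑ j, ∫ x, ‖φ' j x‖ ^ 2) + (1 / 4 : ℝ) * ∫ x, W x ^ (3 / 2 : ℝ) := by
  set Φ : ℝ → EuclideanSpace ℂ (Fin N) := fun x => WithLp.toLp 2 (fun j => φ j x) with hΦdef
  set Φ' : ℝ → EuclideanSpace ℂ (Fin N) := fun x => WithLp.toLp 2 (fun j => φ' j x) with hΦ'def
  have hii : ∀ j a b, IntervalIntegrable (φ' j) volume a b := fun j a b => ii_of_memLp (hφ' j) a b
  have hcont : ∀ j, Continuous (φ j) := by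
    intro j
    have e : φ j = fun x => φ j 0 + ∫ t in (0 : ℝ)..x, φ' j t := by
      ext x
      rw [hftc]
      ring
    rw [e]
    exact continuous_const.add (intervalIntegral.continuous_primitive (hii j) 0)
  have hΦc : Continuous Φ := (PiLp.continuous_toLp 2 _).comp (continuous_pi hcont)
  have hΦn : ∀ x, ‖Φ x‖ ^ 2 = ∑ j, ‖φ j x‖ ^ 2 := fun x => EuclideanSpace.norm_sq_eq _
  have hΦ'n : ∀ x, ‖Φ' x‖ ^ 2 = ∑ j, ‖φ' j x‖ ^ 2 := fun x => EuclideanSpace.norm_sq_eq _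
  have hL2 : Integrable fun x => ‖Φ x‖ ^ 2 := by
    simp only [hΦn]
    exact integrable_finsetSum _ fun j _ => integrable_norm_sq' (hφ j)
  have hL2' : Integrable fun x => ‖Φ' x‖ ^ 2 := by
    simp only [hΦ'n]
    exact integrable_finsetSum _ fun j _ => integrable_norm_sq' (hφ' j)
  have hsum : ∀ x, Φ' x = ∑ j, φ' j x • (EuclideanSpace.single j (1 : ℂ)) := by
    intro x
    ext i
    simp [hΦ'def, Finset.sum_apply, Pi.single_apply]
  have hsmulint : ∀ j a b, IntervalIntegrable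
      (fun x => φ' j x • (EuclideanSpace.single j (1 : ℂ) : EuclideanSpace ℂ (Fin N))) volume a b :=
    fun j a b => ⟨(hii j a b).1.smul_const _, (hii j a b).2.smul_const _⟩
  have hftc' : ∀ a b : ℝ, IntervalIntegrable Φ' volume a b ∧ ∫ t in a..b, Φ' t = Φ b - Φ a := by
    intro a b
    have e1 : Φ' = ∑ j, fun x => φ' j x • (EuclideanSpace.single j (1 : ℂ) : EuclideanSpace ℂ (Fin N)) := by
      ext x : 1
      rw [hsum, Finset.sum_apply]
    constructor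
    · rw [e1]
      exact IntervalIntegrable.sum _ fun j _ => hsmulint j a b
    · simp only [hsum]
      rw [intervalIntegral.integral_finsetSum fun j _ => hsmulint j a b]
      simp only [intervalIntegral.integral_smul_const, hftc]
      ext i
      simp [hΦdef, Finset.sum_apply, Pi.single_apply]
  have hbes : ∀ e : EuclideanSpace ℂ (Fin N), ‖e‖ = 1 →
      ∫⁻ x, ENNReal.ofReal ((inner ℝ e (Φ x)) ^ 2) ≤ 1 :=
    fun e he => bessel_family φ hφ orth e he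
  have hcore := core_H1 hΦc hftc' hL2 hL2' hbes
  have hT0 : 0 ≤ ∫ x, ‖Φ' x‖ ^ 2 := integral_nonneg fun x => by positivity
  have hρ3 : Integrable fun x => ‖Φ x‖ ^ 6 := by
    refine ⟨(hΦc.norm.pow 6).aestronglyMeasurable, ?_⟩
    rw [hasFiniteIntegral_iff_ofReal (Eventually.of_forall fun x => by positivity)]
    exact hcore.trans_lt ENNReal.ofReal_lt_top
  have hρ3le : ∫ x, ‖Φ x‖ ^ 6 ≤ (27 / 64) * ∫ x, ‖Φ' x‖ ^ 2 := by
    rw [← ofReal_integral_eq_lintegral_ofReal hρ3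
      (Eventually.of_forall fun x => by positivity)] at hcore
    exact (ENNReal.ofReal_le_ofReal_iff (by positivity)).mp hcore
  have hyoung : ∀ x, W x * ‖Φ x‖ ^ 2 ≤ (64 / 27 : ℝ) * ‖Φ x‖ ^ 6 + (1 / 4 : ℝ) * W x ^ (3 / 2 : ℝ) := by
    intro x
    have := young_pt (hW x) (sq_nonneg ‖Φ x‖)
    calc W x * ‖Φ x‖ ^ 2 ≤ (64 / 27 : ℝ) * (‖Φ x‖ ^ 2) ^ 3 + (1 / 4 : ℝ) * W x ^ (3 / 2 : ℝ) := this
      _ = _ := by ring
  have hdom : Integrable fun x => (64 / 27 : ℝ) * ‖Φ x‖ ^ 6 + (1 / 4 : ℝ) * W x ^ (3 / 2 : ℝ) :=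
    (hρ3.const_mul _).add (hWi.const_mul _)
  have hle : ∀ j x, ‖φ j x‖ ^ 2 ≤ ‖Φ x‖ ^ 2 := by
    intro j x
    rw [hΦn]
    exact Finset.single_le_sum (f := fun j => ‖φ j x‖ ^ 2) (fun i _ => by positivity)
      (Finset.mem_univ j)
  have hintj : ∀ j, Integrable fun x => W x * ‖φ j x‖ ^ 2 := by
    intro j
    refine hdom.mono' ?_ (Eventually.of_forall fun x => ?_)
    · exact (hWm.mul (((hcont j).norm.pow 2).measurable)).aestronglyMeasurable
    · rw [Real.norm_of_nonneg (mul_nonneg (hW x) (by positivity))]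
      exact (mul_le_mul_of_nonneg_left (hle j x) (hW x)).trans (hyoung x)
  refine ⟨hintj, ?_⟩
  have hsumW : ∑ j, ∫ x, W x * ‖φ j x‖ ^ 2 = ∫ x, W x * ‖Φ x‖ ^ 2 := by
    rw [← integral_finsetSum _ fun j _ => hintj j]
    congr 1
    ext x
    rw [hΦn, Finset.mul_sum]
  have hsumT : ∑ j, ∫ x, ‖φ' j x‖ ^ 2 = ∫ x, ‖Φ' x‖ ^ 2 := by
    rw [← integral_finsetSum _ fun j _ => integrable_norm_sq' (hφ' j)]
    congr 1
    ext x
    rw [hΦ'n]
  have hintW : Integrable fun x => W x * ‖Φ x‖ ^ 2 := by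
    have : (fun x => W x * ‖Φ x‖ ^ 2) = fun x => ∑ j, W x * ‖φ j x‖ ^ 2 := by
      ext x
      rw [hΦn, Finset.mul_sum]
    rw [this]
    exact integrable_finsetSum _ fun j _ => hintj j
  rw [hsumW, hsumT]
  calc ∫ x, W x * ‖Φ x‖ ^ 2
      ≤ ∫ x, ((64 / 27 : ℝ) * ‖Φ x‖ ^ 6 + (1 / 4 : ℝ) * W x ^ (3 / 2 : ℝ)) :=
        integral_mono hintW hdom hyoung
    _ = (64 / 27 : ℝ) * (∫ x, ‖Φ x‖ ^ 6) + (1 / 4 : ℝ) * ∫ x, W x ^ (3 / 2 : ℝ) := by
        rw [integral_add (hρ3.const_mul _) (hWi.const_mul _), integral_const_mul, integral_const_mul]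
    _ ≤ (∫ x, ‖Φ' x‖ ^ 2) + (1 / 4 : ℝ) * ∫ x, W x ^ (3 / 2 : ℝ) := by
        have : (64 / 27 : ℝ) * (∫ x, ‖Φ x‖ ^ 6) ≤ ∫ x, ‖Φ' x‖ ^ 2 := by
          linarith [hρ3le]
        linarith

end Vale.Agent.Lib.P371.S
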