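import Mathlib

/-!
Scalar 1D Lieb-Thirring at gamma = 1: definitions for the window proof.
-/

open MeasureTheory Set Filter Topology
open scoped ENNReal

namespace Vale.Agent.Lib.P371.S

/-- The truncated kernel `cos² z` on `|z| < π/2`. -/
noncomputable def C (z : ℝ) : ℝ := if |z| < Real.pi / 2 then Real.cos z ^ 2 else 0

/-- The constant `J = ∫_{-π/4}^{π/4} cos(2u)^{4/3} du`. -/
noncomputable def J : ℝ := ∫ u in (-(Real.pi / 4))..(Real.pi / 4), (Real.cos (2 * u)) ^ (4 / 3 : ℝ)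

/-- Scalar data: `ρ = ‖Φ‖²`, `a = ‖n'‖`, `s` an arclength, in the coordinates of the line. -/
structure ScalarData (ρ ρ' a s : ℝ → ℝ) : Prop where
  hρ : ∀ x, HasDerivAt ρ (ρ' x) x
  hρ'c : Continuous ρ'
  pos : ∀ x, 0 < ρ x
  ha : Continuous a
  ha0 : ∀ x, 0 ≤ a x
  hs : ∀ x, HasDerivAt s (a x) x
  int : Integrable ρ
  top : Tendsto ρ atTop (𝓝 0)
  bot : Tendsto ρ atBot (𝓝 0)
  energy : Integrable fun x => (ρ' x) ^ 2 / (4 * ρ x) + ρ x * (a x) ^ 2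
  bessel : ∀ x, ∫⁻ y, ENNReal.ofReal (ρ y * C (s y - s x)) ≤ 1

end Vale.Agent.Lib.P371.S
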