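import Vale.Agent.Lib.P371.S.Defs

/-! Trigonometric integrals on the window `|u| < π/4`. -/

open MeasureTheory Set Filter Topology
open scoped ENNReal

namespace Vale.Agent.Lib.P371.S

/-- `∫_{|u|<π/4} (A cos 2u - B sin 2u)² du = (π/4)(A² + B²)`. -/
theorem integral_window_sq (A B : ℝ) :
    ∫ u in (-(Real.pi / 4))..(Real.pi / 4), (A * Real.cos (2 * u) - B * Real.sin (2 * u)) ^ 2
      = Real.pi / 4 * (A ^ 2 + B ^ 2) := by
  -- explicit antiderivative
  have hd : ∀ u ∈ Set.uIcc (-(Real.pi / 4)) (Real.pi / 4),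
      HasDerivAt (fun u => (A ^ 2 + B ^ 2) / 2 * u + (A ^ 2 - B ^ 2) / 8 * Real.sin (4 * u)
          + A * B / 4 * Real.cos (4 * u))
        ((A * Real.cos (2 * u) - B * Real.sin (2 * u)) ^ 2) u := by
    intro u _
    have h0 : HasDerivAt (fun u : ℝ => 4 * u) 4 u := by
      simpa using (hasDerivAt_id u).const_mul (4 : ℝ)
    have h1 := h0.sin
    have h2 := h0.cos
    have hl : HasDerivAt (fun u : ℝ => (A ^ 2 + B ^ 2) / 2 * u) ((A ^ 2 + B ^ 2) / 2) u := by
      simpa using (hasDerivAt_id u).const_mul ((A ^ 2 + B ^ 2) / 2)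
    have h3 := (hl.fun_add (h1.const_mul ((A ^ 2 - B ^ 2) / 8))).fun_add (h2.const_mul (A * B / 4))
    refine h3.congr_deriv ?_
    have e1 : Real.cos (4 * u) = Real.cos (2 * u) ^ 2 - Real.sin (2 * u) ^ 2 := by
      rw [show 4 * u = 2 * (2 * u) by ring, Real.cos_two_mul]
      nlinarith [Real.sin_sq_add_cos_sq (2 * u)]
    have e2 : Real.sin (4 * u) = 2 * Real.sin (2 * u) * Real.cos (2 * u) := by
      rw [show 4 * u = 2 * (2 * u) by ring, Real.sin_two_mul]
    rw [e1, e2]
    have e3 := Real.sin_sq_add_cos_sq (2 * u)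
    have e4 : (A ^ 2 + B ^ 2) / 2 * (Real.sin (2 * u) ^ 2 + Real.cos (2 * u) ^ 2) =
        (A ^ 2 + B ^ 2) / 2 := by rw [e3, mul_one]
    nlinarith [e4]
  rw [intervalIntegral.integral_eq_sub_of_hasDerivAt hd ((by fun_prop : Continuous _).intervalIntegrable _ _)]
  have e1 : Real.sin (4 * (Real.pi / 4)) = 0 := by
    rw [show 4 * (Real.pi / 4) = Real.pi by ring, Real.sin_pi]
  have e2 : Real.cos (4 * (Real.pi / 4)) = -1 := by
    rw [show 4 * (Real.pi / 4) = Real.pi by ring, Real.cos_pi]
  have e3 : Real.sin (4 * (-(Real.pi / 4))) = 0 := by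
    rw [show 4 * (-(Real.pi / 4)) = -Real.pi by ring, Real.sin_neg, Real.sin_pi, neg_zero]
  have e4 : Real.cos (4 * (-(Real.pi / 4))) = -1 := by
    rw [show 4 * (-(Real.pi / 4)) = -Real.pi by ring, Real.cos_neg, Real.cos_pi]
  simp only [e1, e2, e3, e4]
  ring

/-- box-cos convolution is exactly `cos²`. -/
theorem lintegral_kernel (z : ℝ) :
    ∫⁻ u, ({u : ℝ | |u| < Real.pi / 4 ∧ |z + u| < Real.pi / 4}.indicator
      (fun u => ENNReal.ofReal (Real.cos (2 * u))) u) = ENNReal.ofReal (C z) := by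
  have hpi := Real.pi_pos
  have hS : {u : ℝ | |u| < Real.pi / 4 ∧ |z + u| < Real.pi / 4} =
      Ioo (max (-(Real.pi / 4)) (-(Real.pi / 4) - z)) (min (Real.pi / 4) (Real.pi / 4 - z)) := by
    ext u
    simp only [Set.mem_ofPred_eq, abs_lt, mem_Ioo, max_lt_iff, lt_min_iff]
    constructor
    · rintro ⟨⟨h1, h2⟩, h3, h4⟩
      exact ⟨⟨h1, by linarith⟩, h2, by linarith⟩
    · rintro ⟨⟨h1, h2⟩, h3, h4⟩
      exact ⟨⟨h1, h3⟩, by linarith, by linarith⟩
  rw [hS, lintegral_indicator measurableSet_Ioo]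
  set a := max (-(Real.pi / 4)) (-(Real.pi / 4) - z) with ha
  set b := min (Real.pi / 4) (Real.pi / 4 - z) with hb
  by_cases hz : |z| < Real.pi / 2
  · have hz' := abs_lt.1 hz
    have hlt : a < b := by
      rw [ha, hb]
      simp only [max_lt_iff, lt_min_iff]
      refine ⟨⟨by linarith, by linarith⟩, by linarith, by linarith⟩
    have h_a : -(Real.pi / 4) ≤ a := le_max_left _ _
    have h_b : b ≤ Real.pi / 4 := min_le_left _ _
    have hcos : ∀ u ∈ Ioo a b, 0 ≤ Real.cos (2 * u) := fun u hu =>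
      (Real.cos_pos_of_mem_Ioo ⟨by linarith [hu.1], by linarith [hu.2]⟩).le
    have hI : ENNReal.ofReal (∫ u in Ioo a b, Real.cos (2 * u)) =
        ∫⁻ u in Ioo a b, ENNReal.ofReal (Real.cos (2 * u)) := by
      apply ofReal_integral_eq_lintegral_ofReal
      · exact ((by fun_prop : Continuous fun u => Real.cos (2 * u)).integrableOn_Icc
          (a := a) (b := b)).mono_set Ioo_subset_Icc_self
      · exact (ae_restrict_iff' measurableSet_Ioo).2 (Eventually.of_forall hcos)
    rw [← hI, ← integral_Ioc_eq_integral_Ioo, ← intervalIntegral.integral_of_le hlt.le]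
    have hval : ∫ u in a..b, Real.cos (2 * u) = Real.cos z ^ 2 := by
      have := intervalIntegral.integral_comp_mul_left (a := a) (b := b) (c := 2)
        (f := Real.cos) (by norm_num)
      rw [this, integral_cos]
      rcases le_total 0 z with h0 | h0
      · have ea : a = -(Real.pi / 4) := max_eq_left (by linarith)
        have eb : b = Real.pi / 4 - z := min_eq_right (by linarith)
        rw [ea, eb]
        have e1 : 2 * (Real.pi / 4 - z) = Real.pi / 2 - 2 * z := by ring
        have e2 : 2 * (-(Real.pi / 4)) = -(Real.pi / 2) := by ring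
        rw [e1, e2, Real.sin_pi_div_two_sub, Real.sin_neg, Real.sin_pi_div_two, Real.cos_two_mul]
        simp only [smul_eq_mul]
        ring
      · have ea : a = -(Real.pi / 4) - z := max_eq_right (by linarith)
        have eb : b = Real.pi / 4 := min_eq_left (by linarith)
        rw [ea, eb]
        have e1 : 2 * (Real.pi / 4) = Real.pi / 2 := by ring
        have e2 : 2 * (-(Real.pi / 4) - z) = -(Real.pi / 2 + 2 * z) := by ring
        have e3 : Real.sin (Real.pi / 2 + 2 * z) = Real.cos (2 * z) := by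
          rw [add_comm, Real.sin_add_pi_div_two]
        rw [e1, e2, Real.sin_neg, e3, Real.sin_pi_div_two, Real.cos_two_mul]
        simp only [smul_eq_mul]
        ring
    rw [hval, C, if_pos hz]
  · have hle : b ≤ a := by
      rw [not_lt] at hz
      rcases le_abs.1 hz with h | h
      · have eb : b = Real.pi / 4 - z := min_eq_right (by linarith)
        rw [eb]
        exact le_trans (by linarith) (le_max_left _ _)
      · have ea : a = -(Real.pi / 4) - z := max_eq_right (by linarith)
        rw [ea]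
        exact le_trans (min_le_left _ _) (by linarith)
    rw [Ioo_eq_empty (not_lt.2 hle), C, if_neg hz]
    simp

end Vale.Agent.Lib.P371.S
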