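import Vale.Agent.Lib.P371.S.Defs

/-! Weighted Wirtinger inequality on compact intervals and on the windows. -/

open MeasureTheory Set Filter Topology

namespace Vale.Agent.Lib.P371.S

/-- Elementary: `κ cot(κ δ) ≤ 1/δ` in the form used below. -/
lemma mul_cos_le_sin_of_mem {y : ℝ} (h0 : 0 < y) (h1 : y ≤ Real.pi / 2) :
    y * Real.cos y ≤ Real.sin y := by
  rcases lt_or_eq_of_le h1 with h | h
  · have hc : 0 < Real.cos y := Real.cos_pos_of_mem_Ioo ⟨by linarith, h⟩
    have ht := Real.lt_tan h0 h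
    rw [Real.tan_eq_sin_div_cos, lt_div_iff₀ hc] at ht
    exact ht.le
  · subst h
    simp

/-- Weighted Wirtinger inequality on a compact interval with a boundary error, for any `δ > 0`. -/
theorem wirtinger_compact {ρ g g' : ℝ → ℝ} {X Y δ : ℝ} (hXY : X ≤ Y) (hδ : 0 < δ)
    (hρc : Continuous ρ) (hρ : ∀ x, 0 < ρ x)
    (hg : ∀ x, HasDerivAt g (g' x) x) (hg' : Continuous g') :
    (Real.pi / ((∫ x in X..Y, ρ x) + 2 * δ)) ^ 2 * (∫ x in X..Y, ρ x * g x ^ 2) ≤
      (∫ x in X..Y, g' x ^ 2 / ρ x) + (g X ^ 2 + g Y ^ 2) / δ := by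
  set m : ℝ := ∫ x in X..Y, ρ x with hm
  have hm0 : 0 ≤ m := intervalIntegral.integral_nonneg hXY (fun x _ => (hρ x).le)
  have hpos : 0 < m + 2 * δ := by linarith
  set κ : ℝ := Real.pi / (m + 2 * δ) with hκ
  have hκ0 : 0 < κ := div_pos Real.pi_pos hpos
  have hgc : Continuous g := continuous_iff_continuousAt.2 (fun x => (hg x).continuousAt)
  -- the phase
  let M : ℝ → ℝ := fun x => ∫ t in X..x, ρ t
  have hM : ∀ x, HasDerivAt M (ρ x) x := fun x =>
    (hρc.integral_hasStrictDerivAt X x).hasDerivAt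
  let θ : ℝ → ℝ := fun x => κ * (δ + M x)
  have hθ : ∀ x, HasDerivAt θ (κ * ρ x) x := fun x =>
    ((hM x).const_add δ).const_mul κ
  have hκm : κ * (m + 2 * δ) = Real.pi := by
    rw [hκ]; field_simp
  have hMX : M X = 0 := intervalIntegral.integral_same
  have hMY : M Y = m := rfl
  have hMmono : ∀ x ∈ Icc X Y, 0 ≤ M x ∧ M x ≤ m := by
    intro x hx
    constructor
    · exact intervalIntegral.integral_nonneg hx.1 (fun u _ => (hρ u).le)
    · have hsplit : M x + ∫ t in x..Y, ρ t = m := by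
        simpa [M] using intervalIntegral.integral_add_adjacent_intervals
          (hρc.intervalIntegrable X x) (hρc.intervalIntegrable x Y)
      have : 0 ≤ ∫ t in x..Y, ρ t :=
        intervalIntegral.integral_nonneg hx.2 (fun u _ => (hρ u).le)
      linarith
  have hθI : ∀ x ∈ Icc X Y, 0 < θ x ∧ θ x < Real.pi := by
    intro x hx
    obtain ⟨h1, h2⟩ := hMmono x hx
    constructor
    · exact mul_pos hκ0 (by linarith)
    · have : κ * (δ + M x) < κ * (m + 2 * δ) :=
        mul_lt_mul_of_pos_left (by linarith) hκ0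
      simpa [θ, hκm] using this
  have hsin : ∀ x ∈ Icc X Y, 0 < Real.sin (θ x) := fun x hx =>
    Real.sin_pos_of_pos_of_lt_pi (hθI x hx).1 (hθI x hx).2
  -- the Riccati function and its derivative
  let F : ℝ → ℝ := fun x => κ * (Real.cos (θ x) / Real.sin (θ x)) * g x ^ 2
  let F' : ℝ → ℝ := fun x =>
    κ * ((-(Real.sin (θ x)) * (κ * ρ x) * Real.sin (θ x) -
        Real.cos (θ x) * (Real.cos (θ x) * (κ * ρ x))) / Real.sin (θ x) ^ 2) * g x ^ 2 +
      κ * (Real.cos (θ x) / Real.sin (θ x)) * (2 * g x * g' x)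
  have hF : ∀ x ∈ uIcc X Y, HasDerivAt F (F' x) x := by
    intro x hx
    rw [uIcc_of_le hXY] at hx
    have hs := (hsin x hx).ne'
    have h1 : HasDerivAt (fun x => Real.cos (θ x)) (-(Real.sin (θ x)) * (κ * ρ x)) x :=
      (hθ x).cos
    have h2 : HasDerivAt (fun x => Real.sin (θ x)) (Real.cos (θ x) * (κ * ρ x)) x :=
      (hθ x).sin
    have h3 := h1.div h2 hs
    have h4 : HasDerivAt (fun x => g x ^ 2) (2 * g x * g' x) x := by
      simpa using (hg x).fun_pow 2
    have h5 := (h3.const_mul κ).mul h4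
    exact h5
  have hθc : Continuous θ := continuous_iff_continuousAt.2 (fun x => (hθ x).continuousAt)
  have hF'c : ContinuousOn F' (uIcc X Y) := by
    rw [uIcc_of_le hXY]
    have hs : ∀ x ∈ Icc X Y, Real.sin (θ x) ≠ 0 := fun x hx => (hsin x hx).ne'
    have hs2 : ∀ x ∈ Icc X Y, Real.sin (θ x) ^ 2 ≠ 0 := fun x hx => pow_ne_zero _ (hs x hx)
    have c1 : Continuous fun x => Real.sin (θ x) := Real.continuous_sin.comp hθc
    have c2 : Continuous fun x => Real.cos (θ x) := Real.continuous_cos.comp hθc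
    refine ContinuousOn.add ?_ ?_
    · refine ContinuousOn.mul (ContinuousOn.mul continuousOn_const ?_)
        (hgc.pow 2).continuousOn
      refine ContinuousOn.div (Continuous.continuousOn (by fun_prop)) (c1.pow 2).continuousOn hs2
    · refine ContinuousOn.mul (ContinuousOn.mul continuousOn_const ?_) (Continuous.continuousOn
        (by fun_prop))
      exact ContinuousOn.div c2.continuousOn c1.continuousOn hs
  have hFTC : ∫ x in X..Y, F' x = F Y - F X :=
    intervalIntegral.integral_eq_sub_of_hasDerivAt hF (hF'c.intervalIntegrable)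
  -- pointwise inequality
  have hpt : ∀ x ∈ Icc X Y, F' x ≤ g' x ^ 2 / ρ x - κ ^ 2 * (ρ x * g x ^ 2) := by
    intro x hx
    have hs := hsin x hx
    have hr := hρ x
    have hid : g' x ^ 2 / ρ x - κ ^ 2 * (ρ x * g x ^ 2) - F' x =
        (g' x - κ * (Real.cos (θ x) / Real.sin (θ x)) * ρ x * g x) ^ 2 / ρ x := by
      have hsc : Real.sin (θ x) ^ 2 + Real.cos (θ x) ^ 2 = 1 := Real.sin_sq_add_cos_sq _
      simp only [F']
      field_simp
      nlinarith [hsc]
    have : 0 ≤ (g' x - κ * (Real.cos (θ x) / Real.sin (θ x)) * ρ x * g x) ^ 2 / ρ x :=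
      div_nonneg (sq_nonneg _) hr.le
    linarith
  have hi1 : IntervalIntegrable (fun x => g' x ^ 2 / ρ x) MeasureTheory.volume X Y :=
    (Continuous.div (hg'.pow 2) hρc (fun x => (hρ x).ne')).intervalIntegrable _ _
  have hi2 : IntervalIntegrable (fun x => ρ x * g x ^ 2) MeasureTheory.volume X Y :=
    (hρc.mul (hgc.pow 2)).intervalIntegrable _ _
  have hmono : ∫ x in X..Y, F' x ≤ ∫ x in X..Y, (g' x ^ 2 / ρ x - κ ^ 2 * (ρ x * g x ^ 2)) :=
    intervalIntegral.integral_mono_on hXY hF'c.intervalIntegrable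
      (hi1.sub (hi2.const_mul _)) hpt
  have hsplit : ∫ x in X..Y, (g' x ^ 2 / ρ x - κ ^ 2 * (ρ x * g x ^ 2)) =
      (∫ x in X..Y, g' x ^ 2 / ρ x) - κ ^ 2 * ∫ x in X..Y, ρ x * g x ^ 2 := by
    rw [intervalIntegral.integral_sub hi1 (hi2.const_mul _), intervalIntegral.integral_const_mul]
  -- boundary values
  set y : ℝ := κ * δ with hy
  have hy0 : 0 < y := mul_pos hκ0 hδ
  have hy1 : y ≤ Real.pi / 2 := by
    have : y * (m + 2 * δ) = Real.pi * δ := by
      rw [hy]; calc κ * δ * (m + 2 * δ) = κ * (m + 2 * δ) * δ := by ring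
        _ = Real.pi * δ := by rw [hκm]
    have h2 : y * (2 * δ) ≤ Real.pi * δ := by
      rw [← this]; exact mul_le_mul_of_nonneg_left (by linarith) hy0.le
    have : y * 2 ≤ Real.pi := by
      have := (mul_le_mul_iff_left₀ hδ).1 (by nlinarith : y * 2 * δ ≤ Real.pi * δ)
      exact this
    linarith
  have hθX : θ X = y := by simp [θ, hMX, hy]
  have hθY : θ Y = Real.pi - y := by
    have : κ * (δ + m) = κ * (m + 2 * δ) - κ * δ := by ring
    simp only [θ, hMY]
    rw [this, hκm]
  have hsy : 0 < Real.sin y := Real.sin_pos_of_pos_of_lt_pi hy0 (by linarith [Real.pi_pos])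
  have hcot : κ * (Real.cos y / Real.sin y) ≤ 1 / δ := by
    have h := mul_cos_le_sin_of_mem hy0 hy1
    rw [← mul_div_assoc, div_le_div_iff₀ hsy hδ]
    have h' : κ * δ * Real.cos y ≤ Real.sin y := h
    nlinarith
  have hFX : F X = κ * (Real.cos y / Real.sin y) * g X ^ 2 := by
    simp only [F, hθX]
  have hFY : F Y = -(κ * (Real.cos y / Real.sin y) * g Y ^ 2) := by
    simp only [F, hθY, Real.cos_pi_sub, Real.sin_pi_sub]
    ring
  have hmain : κ ^ 2 * (∫ x in X..Y, ρ x * g x ^ 2) ≤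
      (∫ x in X..Y, g' x ^ 2 / ρ x) + κ * (Real.cos y / Real.sin y) * (g X ^ 2 + g Y ^ 2) := by
    have := hmono
    rw [hFTC, hsplit, hFX, hFY] at this
    linarith
  have hbd : κ * (Real.cos y / Real.sin y) * (g X ^ 2 + g Y ^ 2) ≤ (g X ^ 2 + g Y ^ 2) / δ := by
    have h0 : 0 ≤ g X ^ 2 + g Y ^ 2 := by positivity
    calc κ * (Real.cos y / Real.sin y) * (g X ^ 2 + g Y ^ 2)
        ≤ (1 / δ) * (g X ^ 2 + g Y ^ 2) := mul_le_mul_of_nonneg_right hcot h0
      _ = (g X ^ 2 + g Y ^ 2) / δ := by ring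
  linarith

/-- The window at height `t`. -/
def window (s : ℝ → ℝ) (t : ℝ) : Set ℝ := {x | |s x - t| < Real.pi / 4}

/-- Weighted Wirtinger on a window. -/
theorem wirtinger_window {ρ ρ' a s : ℝ → ℝ} (h : ScalarData ρ ρ' a s) (t : ℝ) :
    (Real.pi / (∫ x in window s t, ρ x)) ^ 2 *
        (∫ x in window s t, ρ x * (ρ x * Real.cos (2 * (s x - t))) ^ 2) ≤
      ∫ x in window s t,
        (ρ' x * Real.cos (2 * (s x - t)) - 2 * ρ x * a x * Real.sin (2 * (s x - t))) ^ 2 / ρ x := by
  classical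
  -- regularity
  have hρc : Continuous ρ := continuous_iff_continuousAt.2 (fun x => (h.hρ x).continuousAt)
  have hsc : Continuous s := continuous_iff_continuousAt.2 (fun x => (h.hs x).continuousAt)
  have hρ'c := h.hρ'c
  have hac := h.ha
  have hpos := h.pos
  have hmono : Monotone s :=
    monotone_of_hasDerivAt_nonneg h.hs (fun x => h.ha0 x)
  set W := window s t with hW
  have hWo : IsOpen W := isOpen_lt (by fun_prop) continuous_const
  have hWm : MeasurableSet W := hWo.measurableSet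
  -- the function and its derivative
  let G : ℝ → ℝ := fun x => ρ x * Real.cos (2 * (s x - t))
  let G' : ℝ → ℝ := fun x =>
    ρ' x * Real.cos (2 * (s x - t)) - 2 * ρ x * a x * Real.sin (2 * (s x - t))
  have hGd : ∀ x, HasDerivAt G (G' x) x := by
    intro x
    have h1 : HasDerivAt (fun x => 2 * (s x - t)) (2 * a x) x := by
      simpa using ((h.hs x).sub_const t).const_mul 2
    have h2 := h1.cos
    have h3 := (h.hρ x).fun_mul h2
    refine HasDerivAt.congr_deriv h3 ?_
    show _ = ρ' x * Real.cos (2 * (s x - t)) - 2 * ρ x * a x * Real.sin (2 * (s x - t))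
    ring
  have hG'c : Continuous G' := by fun_prop
  have hGc : Continuous G := by fun_prop
  -- boundedness of ρ
  obtain ⟨C, hC⟩ : ∃ C, ∀ x, ρ x ≤ C := by
    obtain ⟨R1, hR1⟩ := (eventually_atTop.1 (h.top.eventually (gt_mem_nhds one_pos)))
    obtain ⟨R2, hR2⟩ := (eventually_atBot.1 (h.bot.eventually (gt_mem_nhds one_pos)))
    obtain ⟨C, hC⟩ := (isCompact_Icc (a := R2) (b := R1)).image_of_continuousOn
      hρc.continuousOn |>.bddAbove
    refine ⟨max C 1, fun x => ?_⟩
    by_cases h1 : R1 ≤ x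
    · exact le_max_of_le_right (hR1 x h1).le
    by_cases h2 : x ≤ R2
    · exact le_max_of_le_right (hR2 x h2).le
    · rw [not_le] at h1 h2
      exact le_max_of_le_left (hC ⟨x, ⟨h2.le, h1.le⟩, rfl⟩)
  have hC0 : 0 ≤ C := (hpos 0).le.trans (hC 0)
  -- integrability
  have hint1 : Integrable (fun x => ρ x * G x ^ 2) := by
    refine Integrable.mono' (h.int.const_mul (C ^ 2))
      ((hρc.mul (hGc.pow 2)).aestronglyMeasurable) (Filter.Eventually.of_forall fun x => ?_)
    have hr := hpos x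
    have hcos : Real.cos (2 * (s x - t)) ^ 2 ≤ 1 := Real.cos_sq_le_one _
    have hGsq : G x ^ 2 ≤ C ^ 2 := by
      simp only [G, mul_pow]
      have : ρ x ^ 2 ≤ C ^ 2 := pow_le_pow_left₀ hr.le (hC x) 2
      nlinarith [sq_nonneg (ρ x)]
    rw [Real.norm_of_nonneg (by positivity)]
    nlinarith
  have hint2 : Integrable (fun x => G' x ^ 2 / ρ x) := by
    refine Integrable.mono' (h.energy.const_mul 8)
      ((Continuous.div (hG'c.pow 2) hρc (fun x => (hpos x).ne')).aestronglyMeasurable)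
      (Filter.Eventually.of_forall fun x => ?_)
    have hr := hpos x
    rw [Real.norm_of_nonneg (by positivity), div_le_iff₀ hr]
    have hid : 8 * ((ρ' x) ^ 2 / (4 * ρ x) + ρ x * a x ^ 2) * ρ x =
        2 * ρ' x ^ 2 + 8 * ρ x ^ 2 * a x ^ 2 := by
      field_simp
      ring
    rw [hid]
    set c := Real.cos (2 * (s x - t))
    set σ := Real.sin (2 * (s x - t))
    have hc1 : c ^ 2 ≤ 1 := Real.cos_sq_le_one _
    have hs1 : σ ^ 2 ≤ 1 := Real.sin_sq_le_one _
    have h1 : (ρ' x * c - 2 * ρ x * a x * σ) ^ 2 ≤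
        2 * (ρ' x * c) ^ 2 + 2 * (2 * ρ x * a x * σ) ^ 2 := by
      nlinarith [sq_nonneg (ρ' x * c + 2 * ρ x * a x * σ)]
    have h2 : (ρ' x * c) ^ 2 ≤ ρ' x ^ 2 := by
      rw [mul_pow]; nlinarith [sq_nonneg (ρ' x)]
    have h3 : (2 * ρ x * a x * σ) ^ 2 ≤ 4 * ρ x ^ 2 * a x ^ 2 := by
      have : (2 * ρ x * a x * σ) ^ 2 = 4 * ρ x ^ 2 * a x ^ 2 * σ ^ 2 := by ring
      rw [this]
      have : 0 ≤ 4 * ρ x ^ 2 * a x ^ 2 := by positivity
      nlinarith
    simp only [G']
    nlinarith
  have hintρ : IntegrableOn ρ W := h.int.integrableOn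
  set m : ℝ := ∫ x in W, ρ x with hm
  set A : ℝ := ∫ x in W, ρ x * G x ^ 2 with hA
  set B : ℝ := ∫ x in W, G' x ^ 2 / ρ x with hB
  have hm0 : 0 ≤ m := setIntegral_nonneg hWm (fun x _ => (hpos x).le)
  have hA0 : 0 ≤ A := setIntegral_nonneg hWm (fun x _ => by have := hpos x; positivity)
  have hB0 : 0 ≤ B := setIntegral_nonneg hWm (fun x _ => by have := hpos x; positivity)
  change (Real.pi / m) ^ 2 * A ≤ B
  rcases hm0.eq_or_lt with hm1 | hmpos
  · rw [← hm1]; simpa using hB0
  -- the window is nonempty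
  have hWne : W.Nonempty := by
    by_contra hne
    rw [Set.not_nonempty_iff_eq_empty] at hne
    have : m = 0 := by simp [hm, hne]
    linarith
  obtain ⟨x0, hx0⟩ := hWne
  -- cut the window
  let K : ℕ → Set ℝ := fun n => W ∩ Icc (-(n : ℝ)) n
  have hKm : ∀ n, MeasurableSet (K n) := fun n => hWm.inter measurableSet_Icc
  have hKmono : Monotone K := by
    intro n n' hn x hx
    have hn' : (n : ℝ) ≤ n' := by exact_mod_cast hn
    exact ⟨hx.1, by linarith [hx.2.1], by linarith [hx.2.2]⟩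
  have hKU : ⋃ n, K n = W := by
    ext x
    simp only [mem_iUnion]
    constructor
    · rintro ⟨n, hn⟩; exact hn.1
    · intro hx
      obtain ⟨n, hn⟩ := exists_nat_ge |x|
      exact ⟨n, hx, by linarith [neg_abs_le x], by linarith [le_abs_self x]⟩
  -- main step for fixed δ
  have hδstep : ∀ δ : ℝ, 0 < δ → (Real.pi / (m + 2 * δ)) ^ 2 * A ≤ B := by
    intro δ hδ
    have hstep : ∀ n : ℕ, |x0| ≤ n →
        (Real.pi / (m + 2 * δ)) ^ 2 * (∫ x in K n, ρ x * G x ^ 2) ≤
          B + (ρ (-(n : ℝ)) ^ 2 + ρ (n : ℝ) ^ 2) / δ := by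
      intro n hn
      have hx0K : x0 ∈ K n := ⟨hx0, by linarith [neg_abs_le x0], by linarith [le_abs_self x0]⟩
      have hKbdd : BddBelow (K n) ∧ BddAbove (K n) :=
        ⟨⟨-(n : ℝ), fun x hx => hx.2.1⟩, ⟨(n : ℝ), fun x hx => hx.2.2⟩⟩
      set X := sInf (K n) with hX
      set Y := sSup (K n) with hY
      have hXcl : X ∈ closure (K n) := csInf_mem_closure ⟨x0, hx0K⟩ hKbdd.1
      have hYcl : Y ∈ closure (K n) := csSup_mem_closure ⟨x0, hx0K⟩ hKbdd.2
      have hXY : X ≤ Y := (csInf_le hKbdd.1 hx0K).trans (le_csSup hKbdd.2 hx0K)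
      have hsubIcc : K n ⊆ Icc X Y := fun x hx => ⟨csInf_le hKbdd.1 hx, le_csSup hKbdd.2 hx⟩
      have hIoo : Ioo X Y ⊆ W := by
        intro z hz
        obtain ⟨u, hu, huz⟩ := exists_lt_of_csInf_lt ⟨x0, hx0K⟩ hz.1
        obtain ⟨v, hv, hzv⟩ := exists_lt_of_lt_csSup ⟨x0, hx0K⟩ hz.2
        have h1 := abs_lt.1 (show |s u - t| < Real.pi / 4 from hu.1)
        have h2 := abs_lt.1 (show |s v - t| < Real.pi / 4 from hv.1)
        have h3 : s u ≤ s z := hmono huz.le
        have h4 : s z ≤ s v := hmono hzv.le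
        show |s z - t| < Real.pi / 4
        exact abs_lt.2 ⟨by linarith [h1.1], by linarith [h2.2]⟩
      -- closure facts
      have hclosed : IsClosed {x | |s x - t| ≤ Real.pi / 4} :=
        isClosed_le (by fun_prop) continuous_const
      have hcl1 : closure (K n) ⊆ {x | |s x - t| ≤ Real.pi / 4} :=
        closure_minimal (fun x hx => le_of_lt (show |s x - t| < Real.pi / 4 from hx.1)) hclosed
      have hcl2 : closure (K n) ⊆ Icc (-(n : ℝ)) n :=
        closure_minimal (fun x hx => hx.2) isClosed_Icc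
      -- boundary values
      have hcos0 : ∀ x, |s x - t| = Real.pi / 4 → Real.cos (2 * (s x - t)) = 0 := by
        intro x hx
        rcases abs_eq (by positivity) |>.1 hx with h1 | h1
        · rw [h1]; have : 2 * (Real.pi / 4) = Real.pi / 2 := by ring
          rw [this, Real.cos_pi_div_two]
        · rw [h1]; have : 2 * (-(Real.pi / 4)) = -(Real.pi / 2) := by ring
          rw [this, Real.cos_neg, Real.cos_pi_div_two]
      have hGle : ∀ x, G x ^ 2 ≤ ρ x ^ 2 := by
        intro x
        simp only [G, mul_pow]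
        have := Real.cos_sq_le_one (2 * (s x - t))
        nlinarith [sq_nonneg (ρ x)]
      have hXb : G X ^ 2 ≤ ρ (-(n : ℝ)) ^ 2 := by
        by_cases hXe : X = -(n : ℝ)
        · rw [← hXe]; exact hGle X
        by_cases hXW : X ∈ W
        · exfalso
          have hXlt : -(n : ℝ) < X := lt_of_le_of_ne (hcl2 hXcl).1 (Ne.symm hXe)
          obtain ⟨ε, hε, hball⟩ := Metric.isOpen_iff.1 hWo X hXW
          set X' := max (-(n : ℝ)) (X - ε / 2) with hX'
          have h1 : X' < X := max_lt hXlt (by linarith)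
          have h2 : X' ∈ W := by
            apply hball
            rw [Metric.mem_ball, Real.dist_eq, abs_of_neg (by linarith)]
            have : X - ε / 2 ≤ X' := le_max_right _ _
            linarith
          have h3 : X' ∈ K n := ⟨h2, le_max_left _ _, by
            have := (hcl2 hXcl).2; linarith⟩
          have := csInf_le hKbdd.1 h3
          linarith
        · have h1 : |s X - t| ≤ Real.pi / 4 := hcl1 hXcl
          have h2 : ¬ |s X - t| < Real.pi / 4 := hXW
          have h3 : |s X - t| = Real.pi / 4 := le_antisymm h1 (not_lt.1 h2)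
          simp only [G]
          rw [hcos0 X h3]
          simpa using sq_nonneg (ρ (-(n : ℝ)))
      have hYb : G Y ^ 2 ≤ ρ (n : ℝ) ^ 2 := by
        by_cases hYe : Y = (n : ℝ)
        · rw [← hYe]; exact hGle Y
        by_cases hYW : Y ∈ W
        · exfalso
          have hYlt : Y < (n : ℝ) := lt_of_le_of_ne (hcl2 hYcl).2 hYe
          obtain ⟨ε, hε, hball⟩ := Metric.isOpen_iff.1 hWo Y hYW
          set Y' := min (n : ℝ) (Y + ε / 2) with hY'
          have h1 : Y < Y' := lt_min hYlt (by linarith)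
          have h2 : Y' ∈ W := by
            apply hball
            rw [Metric.mem_ball, Real.dist_eq, abs_of_pos (by linarith)]
            have : Y' ≤ Y + ε / 2 := min_le_right _ _
            linarith
          have h3 : Y' ∈ K n := ⟨h2, by
            have := (hcl2 hYcl).1; linarith, min_le_left _ _⟩
          have := le_csSup hKbdd.2 h3
          linarith
        · have h1 : |s Y - t| ≤ Real.pi / 4 := hcl1 hYcl
          have h2 : ¬ |s Y - t| < Real.pi / 4 := hYW
          have h3 : |s Y - t| = Real.pi / 4 := le_antisymm h1 (not_lt.1 h2)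
          simp only [G]
          rw [hcos0 Y h3]
          simpa using sq_nonneg (ρ (n : ℝ))
      -- compact Wirtinger
      have hcomp := wirtinger_compact (ρ := ρ) (g := G) (g' := G') hXY hδ hρc hpos hGd hG'c
      -- compare integrals
      have hIoc : ∀ f : ℝ → ℝ, (∫ x in X..Y, f x) = ∫ x in Ioo X Y, f x := by
        intro f
        rw [intervalIntegral.integral_of_le hXY, integral_Ioc_eq_integral_Ioo]
      have hmn : (∫ x in X..Y, ρ x) ≤ m := by
        rw [hIoc]
        exact setIntegral_mono_set hintρ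
          (Filter.Eventually.of_forall fun x => (hpos x).le) (LE.le.eventuallyLE hIoo)
      have hmn0 : 0 ≤ ∫ x in X..Y, ρ x :=
        intervalIntegral.integral_nonneg hXY (fun x _ => (hpos x).le)
      have hBn : (∫ x in X..Y, G' x ^ 2 / ρ x) ≤ B := by
        rw [hIoc]
        exact setIntegral_mono_set hint2.integrableOn
          (Filter.Eventually.of_forall fun x => by have := hpos x; positivity)
          (LE.le.eventuallyLE hIoo)
      have hAn : (∫ x in K n, ρ x * G x ^ 2) ≤ ∫ x in X..Y, ρ x * G x ^ 2 := by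
        rw [intervalIntegral.integral_of_le hXY, ← integral_Icc_eq_integral_Ioc]
        exact setIntegral_mono_set hint1.integrableOn
          (Filter.Eventually.of_forall fun x => by have := hpos x; positivity)
          (LE.le.eventuallyLE hsubIcc)
      have hAn0 : 0 ≤ ∫ x in K n, ρ x * G x ^ 2 :=
        setIntegral_nonneg (hKm n) (fun x _ => by have := hpos x; positivity)
      have hcoef : (Real.pi / (m + 2 * δ)) ^ 2 ≤ (Real.pi / ((∫ x in X..Y, ρ x) + 2 * δ)) ^ 2 := by
        apply pow_le_pow_left₀ (by positivity)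
        apply div_le_div_of_nonneg_left Real.pi_pos.le (by positivity) (by linarith)
      have hδinv : (G X ^ 2 + G Y ^ 2) / δ ≤ (ρ (-(n : ℝ)) ^ 2 + ρ (n : ℝ) ^ 2) / δ :=
        div_le_div_of_nonneg_right (by linarith) hδ.le
      calc (Real.pi / (m + 2 * δ)) ^ 2 * (∫ x in K n, ρ x * G x ^ 2)
          ≤ (Real.pi / ((∫ x in X..Y, ρ x) + 2 * δ)) ^ 2 * (∫ x in X..Y, ρ x * G x ^ 2) :=
            mul_le_mul hcoef hAn hAn0 (by positivity)
        _ ≤ (∫ x in X..Y, G' x ^ 2 / ρ x) + (G X ^ 2 + G Y ^ 2) / δ := hcomp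
        _ ≤ B + (ρ (-(n : ℝ)) ^ 2 + ρ (n : ℝ) ^ 2) / δ := by linarith
    -- limit in n
    have hlimL : Tendsto (fun n => (Real.pi / (m + 2 * δ)) ^ 2 * (∫ x in K n, ρ x * G x ^ 2))
        atTop (𝓝 ((Real.pi / (m + 2 * δ)) ^ 2 * A)) := by
      apply Tendsto.const_mul
      have := tendsto_setIntegral_of_monotone (μ := volume) hKm hKmono
        (f := fun x => ρ x * G x ^ 2) (by rw [hKU]; exact hint1.integrableOn)
      rwa [hKU] at this
    have hn1 : Tendsto (fun n : ℕ => ρ (-(n : ℝ))) atTop (𝓝 0) :=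
      h.bot.comp (tendsto_neg_atTop_atBot.comp tendsto_natCast_atTop_atTop)
    have hn2 : Tendsto (fun n : ℕ => ρ (n : ℝ)) atTop (𝓝 0) :=
      h.top.comp tendsto_natCast_atTop_atTop
    have hlimR : Tendsto (fun n : ℕ => B + (ρ (-(n : ℝ)) ^ 2 + ρ (n : ℝ) ^ 2) / δ)
        atTop (𝓝 B) := by
      have := ((hn1.pow 2).add (hn2.pow 2)).div_const δ
      have h2 := this.const_add B
      simpa using h2
    refine le_of_tendsto_of_tendsto hlimL hlimR ?_
    filter_upwards [eventually_ge_atTop ⌈|x0|⌉₊] with n hn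
    exact hstep n ((Nat.le_ceil _).trans (by exact_mod_cast hn))
  -- limit in δ
  have hcont : ContinuousAt (fun δ : ℝ => (Real.pi / (m + 2 * δ)) ^ 2 * A) 0 := by
    have hne : m + 2 * (0 : ℝ) ≠ 0 := by simpa using hmpos.ne'
    fun_prop (disch := assumption)
  have hlim : Tendsto (fun δ : ℝ => (Real.pi / (m + 2 * δ)) ^ 2 * A) (𝓝[>] 0)
      (𝓝 ((Real.pi / m) ^ 2 * A)) := by
    have := hcont.tendsto
    simp only [mul_zero, add_zero] at this
    exact this.mono_left nhdsWithin_le_nhds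
  refine le_of_tendsto hlim ?_
  filter_upwards [self_mem_nhdsWithin] with δ hδ
  exact hδstep δ hδ

end Vale.Agent.Lib.P371.S
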