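import Vale.Agent.Lib.P371.S.Num
import Vale.Agent.Lib.P371.S.Trig
import Vale.Agent.Lib.P371.S.Wirt

/-! Integration over the window parameter `t`. -/

open MeasureTheory Set Filter Topology
open scoped ENNReal

namespace Vale.Agent.Lib.P371.S

theorem ScalarData.continuous_rho {ρ ρ' a s : ℝ → ℝ} (h : ScalarData ρ ρ' a s) : Continuous ρ :=
  continuous_iff_continuousAt.2 fun x => (h.hρ x).continuousAt

theorem ScalarData.continuous_s {ρ ρ' a s : ℝ → ℝ} (h : ScalarData ρ ρ' a s) : Continuous s :=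
  continuous_iff_continuousAt.2 fun x => (h.hs x).continuousAt

/-- `ρ` is bounded for scalar data. -/
theorem ScalarData.exists_bound {ρ ρ' a s : ℝ → ℝ} (h : ScalarData ρ ρ' a s) :
    ∃ B : ℝ, 0 < B ∧ ∀ x, ρ x ≤ B := by
  have hc := h.continuous_rho
  obtain ⟨R1, hR1⟩ := (eventually_atTop.1 (h.top.eventually (gt_mem_nhds (zero_lt_one))))
  obtain ⟨R2, hR2⟩ := (eventually_atBot.1 (h.bot.eventually (gt_mem_nhds (zero_lt_one))))
  have hne : (Icc (min R2 R1) (max R1 R2)).Nonempty :=
    ⟨R1, min_le_right _ _, le_max_left _ _⟩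
  obtain ⟨x0, -, hx0⟩ := (isCompact_Icc (a := min R2 R1) (b := max R1 R2)).exists_isMaxOn hne
    hc.continuousOn
  refine ⟨max (ρ x0) 1, lt_of_lt_of_le zero_lt_one (le_max_right _ _), fun x => ?_⟩
  by_cases hx : x ∈ Icc (min R2 R1) (max R1 R2)
  · exact (hx0 hx).trans (le_max_left _ _)
  · rw [mem_Icc, not_and_or, not_le, not_le] at hx
    rcases hx with hx | hx
    · have : x ≤ R2 := (lt_of_lt_of_le hx (min_le_left _ _)).le
      exact (hR2 x this).le.trans (le_max_right _ _)
    · have : R1 ≤ x := ((le_max_left _ _).trans_lt hx).le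
      exact (hR1 x this).le.trans (le_max_right _ _)

/-- `ρ³` is integrable for scalar data. -/
theorem ScalarData.integrable_cube {ρ ρ' a s : ℝ → ℝ} (h : ScalarData ρ ρ' a s) :
    Integrable fun x => ρ x ^ 3 := by
  obtain ⟨B, hB, hle⟩ := h.exists_bound
  refine Integrable.mono' (h.int.const_mul (B ^ 2)) (h.continuous_rho.pow 3).aestronglyMeasurable
    (Eventually.of_forall fun x => ?_)
  have h0 := (h.pos x).le
  rw [Real.norm_of_nonneg (pow_nonneg h0 3)]
  have : ρ x ^ 2 ≤ B ^ 2 := pow_le_pow_left₀ h0 (hle x) 2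
  nlinarith

/-- Shear substitution for Tonelli. -/
theorem lintegral_shear {s : ℝ → ℝ} (hs : Measurable s) {F : ℝ → ℝ → ℝ≥0∞}
    (hF : Measurable (Function.uncurry F)) :
    ∫⁻ t, ∫⁻ x, F x (s x - t) = ∫⁻ x, ∫⁻ u, F x u := by
  have hm : Measurable (Function.uncurry fun t x => F x (s x - t)) := by
    have : (Function.uncurry fun t x => F x (s x - t)) =
        (Function.uncurry F) ∘ fun p : ℝ × ℝ => (p.2, s p.2 - p.1) := by
      ext p; rfl
    rw [this]
    exact hF.comp (measurable_snd.prodMk ((hs.comp measurable_snd).sub measurable_fst))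
  rw [lintegral_lintegral_swap hm.aemeasurable]
  refine lintegral_congr fun x => ?_
  exact lintegral_sub_left_eq_self (fun u => F x u) (s x)

/-- Integrating a continuous nonnegative function over the window. -/
theorem lintegral_window (f : ℝ → ℝ) (hf : Continuous f)
    (h0 : ∀ u, |u| < Real.pi / 4 → 0 ≤ f u) :
    ∫⁻ u, ({u : ℝ | |u| < Real.pi / 4}.indicator (fun u => ENNReal.ofReal (f u)) u) =
      ENNReal.ofReal (∫ u in (-(Real.pi / 4))..(Real.pi / 4), f u) := by
  have hpi : -(Real.pi / 4) ≤ Real.pi / 4 := by linarith [Real.pi_pos]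
  have hset : {u : ℝ | |u| < Real.pi / 4} = Ioo (-(Real.pi / 4)) (Real.pi / 4) := by
    ext u; simp [abs_lt]
  rw [hset, lintegral_indicator measurableSet_Ioo,
    intervalIntegral.integral_of_le hpi, integral_Ioc_eq_integral_Ioo,
    ofReal_integral_eq_lintegral_ofReal]
  · exact (hf.integrableOn_Icc (a := -(Real.pi / 4)) (b := Real.pi / 4)).mono_set Ioo_subset_Icc_self
  · refine (ae_restrict_iff' measurableSet_Ioo).2 (Eventually.of_forall fun u hu => ?_)
    exact h0 u (by rw [← hset] at hu; exact hu)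

theorem window_isOpen {s : ℝ → ℝ} (hs : Continuous s) (t : ℝ) : IsOpen (window s t) :=
  isOpen_lt ((hs.sub continuous_const).abs) continuous_const

theorem cos_pos_on_window {s : ℝ → ℝ} {t x : ℝ} (hx : x ∈ window s t) :
    0 < Real.cos (2 * (s x - t)) := by
  have hx' : |s x - t| < Real.pi / 4 := hx
  rw [abs_lt] at hx'
  exact Real.cos_pos_of_mem_Ioo ⟨by linarith [hx'.1], by linarith [hx'.2]⟩

/-- The inequality at fixed height `t`. -/
theorem per_t {ρ ρ' a s : ℝ → ℝ} (h : ScalarData ρ ρ' a s) {A : ℝ} (hA : 0 < A) (t : ℝ) :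
    3 * Real.pi ^ 2 * A ^ 2 *
        (∫ x in window s t, ρ x ^ 3 * (Real.cos (2 * (s x - t))) ^ (4 / 3 : ℝ)) ≤
      (∫ x in window s t,
        (ρ' x * Real.cos (2 * (s x - t)) - 2 * ρ x * a x * Real.sin (2 * (s x - t))) ^ 2 / ρ x) +
      2 * Real.pi ^ 2 * A ^ 3 *
        ((∫ x in window s t, ρ x) * ∫ x in window s t, ρ x ^ 3 * Real.cos (2 * (s x - t))) := by
  have hsc := h.continuous_s
  have hρc := h.continuous_rho
  have hI := window_isOpen hsc t
  set I := window s t with hIdef
  by_cases hne : I.Nonempty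
  · have hm : 0 < ∫ x in I, ρ x := by
      rw [setIntegral_pos_iff_support_of_nonneg_ae
        (Eventually.of_forall fun x => (h.pos x).le) (h.int.integrableOn)]
      have hsupp : Function.support ρ = univ := by
        ext x; simp [(h.pos x).ne']
      rw [hsupp, univ_inter]
      exact hI.measure_pos volume hne
    set m := ∫ x in I, ρ x with hmdef
    have hc : Continuous fun x => Real.cos (2 * (s x - t)) := by fun_prop
    have hcube := h.integrable_cube.integrableOn (s := I)
    have hcle : ∀ x, |Real.cos (2 * (s x - t))| ≤ 1 := fun x => Real.abs_cos_le_one _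
    have hρ3 : Continuous fun x => ρ x ^ 3 := hρc.pow 3
    have hint1 : IntegrableOn (fun x => ρ x ^ 3 * (Real.cos (2 * (s x - t))) ^ (4 / 3 : ℝ)) I := by
      refine Integrable.mono' hcube
        (hρ3.mul (hc.rpow_const fun x => Or.inr (by norm_num))).aestronglyMeasurable.restrict ?_
      refine (ae_restrict_iff' hI.measurableSet).2 (Eventually.of_forall fun x hx => ?_)
      have hc0 := (cos_pos_on_window hx).le
      have h3 := pow_nonneg (h.pos x).le 3
      rw [Real.norm_of_nonneg (mul_nonneg h3 (Real.rpow_nonneg hc0 _))]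
      have : (Real.cos (2 * (s x - t))) ^ (4 / 3 : ℝ) ≤ 1 :=
        Real.rpow_le_one hc0 (Real.cos_le_one _) (by norm_num)
      nlinarith
    have hint2 : IntegrableOn (fun x => ρ x ^ 3 * Real.cos (2 * (s x - t))) I := by
      refine Integrable.mono' hcube (hρ3.mul hc).aestronglyMeasurable.restrict
        (Eventually.of_forall fun x => ?_)
      have h3 := pow_nonneg (h.pos x).le 3
      rw [norm_mul, Real.norm_of_nonneg h3, Real.norm_eq_abs]
      nlinarith [hcle x]
    have hint3 : IntegrableOn (fun x => ρ x * (ρ x * Real.cos (2 * (s x - t))) ^ 2) I := by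
      refine Integrable.mono' hcube (hρc.mul ((hρc.mul hc).pow 2)).aestronglyMeasurable.restrict
        (Eventually.of_forall fun x => ?_)
      have h3 := pow_nonneg (h.pos x).le 3
      have h0 := (h.pos x).le
      rw [Real.norm_of_nonneg (mul_nonneg h0 (sq_nonneg _))]
      have : Real.cos (2 * (s x - t)) ^ 2 ≤ 1 := Real.cos_sq_le_one _
      nlinarith
    have hw := wirtinger_window h t
    rw [← hIdef] at hw
    have hmain : ∫ x in I, 3 * Real.pi ^ 2 * A ^ 2 *
          (ρ x ^ 3 * (Real.cos (2 * (s x - t))) ^ (4 / 3 : ℝ)) ≤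
        ∫ x in I, ((Real.pi / m) ^ 2 * (ρ x * (ρ x * Real.cos (2 * (s x - t))) ^ 2) +
          2 * Real.pi ^ 2 * A ^ 3 * m * (ρ x ^ 3 * Real.cos (2 * (s x - t)))) := by
      refine setIntegral_mono_on (hint1.const_mul _)
        ((hint3.const_mul _).add (hint2.const_mul _)) hI.measurableSet fun x hx => ?_
      have hc0 := (cos_pos_on_window hx).le
      have hT := tangent_ineq hc0 hm hA
      have h3 := pow_nonneg (h.pos x).le 3
      have hpi2 : 0 ≤ Real.pi ^ 2 := sq_nonneg _
      have := mul_le_mul_of_nonneg_left hT (mul_nonneg hpi2 h3)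
      calc 3 * Real.pi ^ 2 * A ^ 2 * (ρ x ^ 3 * Real.cos (2 * (s x - t)) ^ (4 / 3 : ℝ))
          = Real.pi ^ 2 * ρ x ^ 3 * (3 * A ^ 2 * Real.cos (2 * (s x - t)) ^ (4 / 3 : ℝ)) := by ring
        _ ≤ _ := this
        _ = _ := by
          field_simp
    rw [integral_const_mul, integral_add (hint3.const_mul _) (hint2.const_mul _),
      integral_const_mul, integral_const_mul] at hmain
    have : 2 * Real.pi ^ 2 * A ^ 3 * m * ∫ x in I, ρ x ^ 3 * Real.cos (2 * (s x - t)) =
        2 * Real.pi ^ 2 * A ^ 3 * (m * ∫ x in I, ρ x ^ 3 * Real.cos (2 * (s x - t))) := by ring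
    linarith
  · rw [not_nonempty_iff_eq_empty] at hne
    simp [hne]

/-- The energy integrand with direction. -/
noncomputable def f1 (ρ ρ' a : ℝ → ℝ) (x u : ℝ) : ℝ :=
  (ρ' x * Real.cos (2 * u) - 2 * ρ x * a x * Real.sin (2 * u)) ^ 2 / ρ x

theorem ScalarData.continuous_f1 {ρ ρ' a s : ℝ → ℝ} (h : ScalarData ρ ρ' a s) :
    Continuous (Function.uncurry (f1 ρ ρ' a)) := by
  have hρc := h.continuous_rho
  have h1 := h.hρ'c
  have h2 := h.ha
  unfold f1
  have : Function.uncurry (fun x u =>
      (ρ' x * Real.cos (2 * u) - 2 * ρ x * a x * Real.sin (2 * u)) ^ 2 / ρ x) =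
      fun p : ℝ × ℝ => (ρ' p.1 * Real.cos (2 * p.2) -
        2 * ρ p.1 * a p.1 * Real.sin (2 * p.2)) ^ 2 / ρ p.1 := rfl
  rw [this]
  refine Continuous.div ?_ (hρc.comp continuous_fst) fun p => (h.pos _).ne'
  fun_prop

theorem ScalarData.f1_le {ρ ρ' a s : ℝ → ℝ} (h : ScalarData ρ ρ' a s) (x u : ℝ) :
    f1 ρ ρ' a x u ≤ 4 * ((ρ' x) ^ 2 / (4 * ρ x) + ρ x * (a x) ^ 2) := by
  unfold f1
  have hp := h.pos x
  have e : 4 * ((ρ' x) ^ 2 / (4 * ρ x) + ρ x * (a x) ^ 2) =
      ((ρ' x) ^ 2 + (2 * ρ x * a x) ^ 2) / ρ x := by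
    field_simp
    ring
  rw [e]
  apply div_le_div_of_nonneg_right _ hp.le
  have h1 := Real.sin_sq_add_cos_sq (2 * u)
  nlinarith [sq_nonneg (ρ' x * Real.sin (2 * u) + 2 * ρ x * a x * Real.cos (2 * u))]

theorem ScalarData.f1_nonneg {ρ ρ' a s : ℝ → ℝ} (h : ScalarData ρ ρ' a s) (x u : ℝ) :
    0 ≤ f1 ρ ρ' a x u :=
  div_nonneg (sq_nonneg _) (h.pos x).le

theorem ScalarData.integral_f1 {ρ ρ' a s : ℝ → ℝ} (h : ScalarData ρ ρ' a s) (x : ℝ) :
    ∫ u in (-(Real.pi / 4))..(Real.pi / 4), f1 ρ ρ' a x u =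
      Real.pi * ((ρ' x) ^ 2 / (4 * ρ x) + ρ x * (a x) ^ 2) := by
  unfold f1
  rw [intervalIntegral.integral_div, integral_window_sq]
  have hp := h.pos x
  field_simp
  ring

/-- Tonelli for windows. -/
theorem lintegral_window_swap {s : ℝ → ℝ} (hs : Continuous s) {f : ℝ → ℝ → ℝ}
    (hf : Continuous (Function.uncurry f)) (h0 : ∀ x u, |u| < Real.pi / 4 → 0 ≤ f x u) :
    ∫⁻ t, ∫⁻ x in window s t, ENNReal.ofReal (f x (s x - t)) =
      ∫⁻ x, ENNReal.ofReal (∫ u in (-(Real.pi / 4))..(Real.pi / 4), f x u) := by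
  have hset : MeasurableSet {u : ℝ | |u| < Real.pi / 4} :=
    (isOpen_lt continuous_abs continuous_const).measurableSet
  have hm : Measurable (Function.uncurry fun x u =>
      ({u : ℝ | |u| < Real.pi / 4}.indicator (fun u => ENNReal.ofReal (f x u)) u)) := by
    have : (Function.uncurry fun x u =>
        ({u : ℝ | |u| < Real.pi / 4}.indicator (fun u => ENNReal.ofReal (f x u)) u)) =
        ({p : ℝ × ℝ | |p.2| < Real.pi / 4}.indicator
          (fun p => ENNReal.ofReal (Function.uncurry f p))) := by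
      ext p
      simp [Function.uncurry, indicator]
    rw [this]
    refine Measurable.indicator (ENNReal.measurable_ofReal.comp hf.measurable) ?_
    exact (isOpen_lt (continuous_abs.comp continuous_snd) continuous_const).measurableSet
  have := lintegral_shear hs.measurable hm
  have e1 : ∀ t, ∫⁻ x in window s t, ENNReal.ofReal (f x (s x - t)) =
      ∫⁻ x, ({u : ℝ | |u| < Real.pi / 4}.indicator (fun u => ENNReal.ofReal (f x u)) (s x - t)) := by
    intro t
    rw [← lintegral_indicator (window_isOpen hs t).measurableSet]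
    refine lintegral_congr fun x => ?_
    by_cases hx : x ∈ window s t
    · have hx' : s x - t ∈ {u : ℝ | |u| < Real.pi / 4} := hx
      rw [indicator_of_mem hx, indicator_of_mem hx']
    · have hx' : s x - t ∉ {u : ℝ | |u| < Real.pi / 4} := hx
      rw [indicator_of_notMem hx, indicator_of_notMem hx']
  simp_rw [e1]
  rw [this]
  refine lintegral_congr fun x => ?_
  exact lintegral_window (f x) (hf.comp (Continuous.prodMk_right x)) (h0 x)

/-- The kernel bound. -/
theorem ScalarData.tone3 {ρ ρ' a s : ℝ → ℝ} (h : ScalarData ρ ρ' a s) :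
    ∫⁻ t, (∫⁻ y in window s t, ENNReal.ofReal (ρ y)) *
        (∫⁻ x in window s t, ENNReal.ofReal (ρ x ^ 3 * Real.cos (2 * (s x - t)))) ≤
      ∫⁻ x, ENNReal.ofReal (ρ x ^ 3) := by
  have hsc := h.continuous_s
  have hρc := h.continuous_rho
  -- indicators as functions on the product
  let W : ℝ → ℝ → ℝ≥0∞ := fun x t => if |s x - t| < Real.pi / 4 then 1 else 0
  have hW : Measurable (Function.uncurry W) := by
    refine Measurable.ite ?_ measurable_const measurable_const
    exact (isOpen_lt (((hsc.comp continuous_fst).sub continuous_snd).abs)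
      continuous_const).measurableSet
  let F : ℝ → ℝ → ℝ≥0∞ := fun x t =>
    W x t * ENNReal.ofReal (ρ x ^ 3 * Real.cos (2 * (s x - t)))
  let G : ℝ → ℝ → ℝ≥0∞ := fun y t => W y t * ENNReal.ofReal (ρ y)
  have hF : Measurable (Function.uncurry F) := by
    have hc : Continuous fun p : ℝ × ℝ => ρ p.1 ^ 3 * Real.cos (2 * (s p.1 - p.2)) := by fun_prop
    exact hW.mul (ENNReal.measurable_ofReal.comp hc.measurable)
  have hG : Measurable (Function.uncurry G) := by
    have hc : Continuous fun p : ℝ × ℝ => ρ p.1 := by fun_prop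
    exact hW.mul (ENNReal.measurable_ofReal.comp hc.measurable)
  have eL : ∀ (g : ℝ → ℝ≥0∞) t, ∫⁻ x in window s t, g x = ∫⁻ x, W x t * g x := by
    intro g t
    rw [← lintegral_indicator (window_isOpen hsc t).measurableSet]
    refine lintegral_congr fun x => ?_
    by_cases hx : x ∈ window s t
    · have hx' : |s x - t| < Real.pi / 4 := hx
      simp [W, indicator_of_mem hx, hx']
    · have hx' : ¬ |s x - t| < Real.pi / 4 := hx
      simp [W, indicator_of_notMem hx, hx']
  simp_rw [eL]
  -- separate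
  have hFx : ∀ t, Measurable fun x => F x t := fun t => hF.comp (measurable_id.prodMk measurable_const)
  have hGy : ∀ t, Measurable fun y => G y t := fun t => hG.comp (measurable_id.prodMk measurable_const)
  have hFt : ∀ x, Measurable fun t => F x t := fun x => hF.comp (measurable_const.prodMk measurable_id)
  have hGt : ∀ y, Measurable fun t => G y t := fun y => hG.comp (measurable_const.prodMk measurable_id)
  have hM : Measurable fun t => ∫⁻ y, G y t :=
    (hG.comp measurable_swap).lintegral_prod_right'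
  have step1 : ∀ t, (∫⁻ y, G y t) * (∫⁻ x, F x t) = ∫⁻ x, F x t * ∫⁻ y, G y t := by
    intro t
    rw [mul_comm, lintegral_mul_const _ (hFx t)]
  have hswap1 : ∫⁻ t, ∫⁻ x, F x t * ∫⁻ y, G y t = ∫⁻ x, ∫⁻ t, F x t * ∫⁻ y, G y t := by
    refine lintegral_lintegral_swap ?_
    have : Measurable (Function.uncurry fun t x => F x t * ∫⁻ y, G y t) :=
      (hF.comp measurable_swap).mul (hM.comp measurable_fst)
    exact this.aemeasurable
  calc ∫⁻ t, (∫⁻ y, W y t * ENNReal.ofReal (ρ y)) *
        (∫⁻ x, W x t * ENNReal.ofReal (ρ x ^ 3 * Real.cos (2 * (s x - t))))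
      = ∫⁻ t, ∫⁻ x, F x t * ∫⁻ y, G y t := lintegral_congr step1
    _ = ∫⁻ x, ∫⁻ t, F x t * ∫⁻ y, G y t := hswap1
    _ ≤ ∫⁻ x, ENNReal.ofReal (ρ x ^ 3) := by
        refine lintegral_mono fun x => ?_
        -- fixed x
        have hstep : ∀ t, F x t * ∫⁻ y, G y t = ∫⁻ y, F x t * G y t := by
          intro t
          rw [lintegral_const_mul _ (hGy t)]
        simp_rw [hstep]
        have hswap2 : ∫⁻ t, ∫⁻ y, F x t * G y t = ∫⁻ y, ∫⁻ t, F x t * G y t := by
          refine lintegral_lintegral_swap ?_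
          have : Measurable (Function.uncurry fun t y => F x t * G y t) :=
            ((hFt x).comp measurable_fst).mul (hG.comp measurable_swap)
          exact this.aemeasurable
        rw [hswap2]
        have hkey : ∀ y, ∫⁻ t, F x t * G y t =
            ENNReal.ofReal (ρ x ^ 3) * ENNReal.ofReal (ρ y * C (s y - s x)) := by
          intro y
          have hmeas : Measurable fun t => F x t * G y t := (hFt x).mul (hGt y)
          have e := lintegral_sub_left_eq_self (μ := (volume : Measure ℝ))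
            (fun t => F x (s x - t) * G y (s x - t)) (s x)
          have e2 : (fun t => F x (s x - (s x - t)) * G y (s x - (s x - t))) =
              fun t => F x t * G y t := by
            funext t
            simp
          rw [e2] at e
          rw [e]
          have hpt : ∀ u, F x (s x - u) * G y (s x - u) =
              ENNReal.ofReal (ρ x ^ 3) * ENNReal.ofReal (ρ y) *
                ({u : ℝ | |u| < Real.pi / 4 ∧ |(s y - s x) + u| < Real.pi / 4}.indicator
                  (fun u => ENNReal.ofReal (Real.cos (2 * u))) u) := by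
            intro u
            have e3 : s x - (s x - u) = u := by ring
            have e4 : s y - (s x - u) = (s y - s x) + u := by ring
            simp only [F, G, W, e3, e4]
            by_cases h1 : |u| < Real.pi / 4
            · by_cases h2 : |(s y - s x) + u| < Real.pi / 4
              · have hmem : u ∈ {u : ℝ | |u| < Real.pi / 4 ∧ |(s y - s x) + u| < Real.pi / 4} :=
                  ⟨h1, h2⟩
                rw [indicator_of_mem hmem, if_pos h1, if_pos h2,
                  ENNReal.ofReal_mul (pow_nonneg (h.pos x).le 3)]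
                ring
              · have hmem : u ∉ {u : ℝ | |u| < Real.pi / 4 ∧ |(s y - s x) + u| < Real.pi / 4} :=
                  fun hh => h2 hh.2
                rw [indicator_of_notMem hmem, if_neg h2]
                simp
            · have hmem : u ∉ {u : ℝ | |u| < Real.pi / 4 ∧ |(s y - s x) + u| < Real.pi / 4} :=
                fun hh => h1 hh.1
              rw [indicator_of_notMem hmem, if_neg h1]
              simp
          simp_rw [hpt]
          rw [lintegral_const_mul' _ _ (ENNReal.mul_ne_top ENNReal.ofReal_ne_top ENNReal.ofReal_ne_top),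
            lintegral_kernel, mul_assoc, ENNReal.ofReal_mul (h.pos y).le]
        simp_rw [hkey]
        rw [lintegral_const_mul' _ _ ENNReal.ofReal_ne_top]
        calc ENNReal.ofReal (ρ x ^ 3) * ∫⁻ y, ENNReal.ofReal (ρ y * C (s y - s x))
            ≤ ENNReal.ofReal (ρ x ^ 3) * 1 := by gcongr; exact h.bessel x
          _ = _ := mul_one _

theorem ScalarData.integrableOn_mul {ρ ρ' a s : ℝ → ℝ} (h : ScalarData ρ ρ' a s) (t : ℝ)
    {b : ℝ → ℝ} (hb : Continuous b) (hb1 : ∀ x ∈ window s t, |b x| ≤ 1) :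
    IntegrableOn (fun x => ρ x ^ 3 * b x) (window s t) := by
  have hI := window_isOpen h.continuous_s t
  refine Integrable.mono' (h.integrable_cube.integrableOn (s := window s t))
    ((h.continuous_rho.pow 3).mul hb).aestronglyMeasurable.restrict ?_
  refine (ae_restrict_iff' hI.measurableSet).2 (Eventually.of_forall fun x hx => ?_)
  have h3 := pow_nonneg (h.pos x).le 3
  rw [norm_mul, Real.norm_of_nonneg h3, Real.norm_eq_abs]
  nlinarith [hb1 x hx]

theorem ScalarData.integrable_f1 {ρ ρ' a s : ℝ → ℝ} (h : ScalarData ρ ρ' a s) (t : ℝ) :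
    Integrable fun x => f1 ρ ρ' a x (s x - t) := by
  refine Integrable.mono' (h.energy.const_mul 4) ?_ (Eventually.of_forall fun x => ?_)
  · have := h.continuous_f1.comp
      ((continuous_id (X := ℝ)).prodMk (h.continuous_s.sub (continuous_const (y := t))))
    exact this.aestronglyMeasurable
  · rw [Real.norm_of_nonneg (h.f1_nonneg _ _)]
    exact h.f1_le _ _

theorem measurable_window_lintegral {s : ℝ → ℝ} (hs : Continuous s) {f : ℝ → ℝ → ℝ}
    (hf : Continuous (Function.uncurry f)) :
    Measurable fun t => ∫⁻ x in window s t, ENNReal.ofReal (f x (s x - t)) := by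
  let W : ℝ → ℝ → ℝ≥0∞ := fun x t => if |s x - t| < Real.pi / 4 then 1 else 0
  have hW : Measurable (Function.uncurry W) := by
    refine Measurable.ite ?_ measurable_const measurable_const
    exact (isOpen_lt (((hs.comp continuous_fst).sub continuous_snd).abs)
      continuous_const).measurableSet
  have eL : ∀ t, ∫⁻ x in window s t, ENNReal.ofReal (f x (s x - t)) =
      ∫⁻ x, W x t * ENNReal.ofReal (f x (s x - t)) := by
    intro t
    rw [← lintegral_indicator (window_isOpen hs t).measurableSet]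
    refine lintegral_congr fun x => ?_
    by_cases hx : x ∈ window s t
    · have hx' : |s x - t| < Real.pi / 4 := hx
      simp [W, indicator_of_mem hx, hx']
    · have hx' : ¬ |s x - t| < Real.pi / 4 := hx
      simp [W, indicator_of_notMem hx, hx']
  simp_rw [eL]
  have hc : Continuous fun p : ℝ × ℝ => f p.1 (s p.1 - p.2) :=
    hf.comp (continuous_fst.prodMk ((hs.comp continuous_fst).sub continuous_snd))
  have : Measurable (Function.uncurry fun x t => W x t * ENNReal.ofReal (f x (s x - t))) :=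
    hW.mul (ENNReal.measurable_ofReal.comp hc.measurable)
  exact (this).lintegral_prod_left'

theorem ofReal_setIntegral {f : ℝ → ℝ} {S : Set ℝ} (hS : MeasurableSet S) (hf : IntegrableOn f S)
    (h0 : ∀ x ∈ S, 0 ≤ f x) :
    ENNReal.ofReal (∫ x in S, f x) = ∫⁻ x in S, ENNReal.ofReal (f x) := by
  apply ofReal_integral_eq_lintegral_ofReal hf
  exact (ae_restrict_iff' hS).2 (Eventually.of_forall h0)

/-- Core inequality for scalar data. -/
theorem scalar_core {ρ ρ' a s : ℝ → ℝ} (h : ScalarData ρ ρ' a s) :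
    (64 / 27 : ℝ) * ∫ x, ρ x ^ 3 ≤ ∫ x, ((ρ' x) ^ 2 / (4 * ρ x) + ρ x * (a x) ^ 2) := by
  have hsc := h.continuous_s
  have hρc := h.continuous_rho
  have hpi := Real.pi_pos
  set A : ℝ := 0.9104 with hAdef
  have hA : 0 < A := by norm_num [hAdef]
  set G := ∫ x, ρ x ^ 3 with hG
  set T := ∫ x, ((ρ' x) ^ 2 / (4 * ρ x) + ρ x * (a x) ^ 2) with hT
  have hG0 : 0 ≤ G := integral_nonneg fun x => pow_nonneg (h.pos x).le 3
  have hT0 : 0 ≤ T := integral_nonneg fun x =>
    add_nonneg (div_nonneg (sq_nonneg _) (mul_pos (by norm_num) (h.pos x)).le)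
      (mul_nonneg (h.pos x).le (sq_nonneg _))
  let L1 : ℝ → ℝ≥0∞ := fun t => ∫⁻ x in window s t, ENNReal.ofReal (f1 ρ ρ' a x (s x - t))
  let L2 : ℝ → ℝ≥0∞ := fun t =>
    ∫⁻ x in window s t, ENNReal.ofReal (ρ x ^ 3 * (Real.cos (2 * (s x - t))) ^ (4 / 3 : ℝ))
  let L3 : ℝ → ℝ≥0∞ := fun t =>
    ∫⁻ x in window s t, ENNReal.ofReal (ρ x ^ 3 * Real.cos (2 * (s x - t)))
  let M : ℝ → ℝ≥0∞ := fun t => ∫⁻ y in window s t, ENNReal.ofReal (ρ y)
  have key : ∀ t, ENNReal.ofReal (3 * Real.pi ^ 2 * A ^ 2) * L2 t ≤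
      L1 t + ENNReal.ofReal (2 * Real.pi ^ 2 * A ^ 3) * (M t * L3 t) := by
    intro t
    have hI := (window_isOpen hsc t).measurableSet
    have hp := per_t h hA t
    have hc : Continuous fun x => Real.cos (2 * (s x - t)) := by fun_prop
    have hcw : ∀ x ∈ window s t, 0 < Real.cos (2 * (s x - t)) := fun x hx => cos_pos_on_window hx
    have i2 : IntegrableOn (fun x => ρ x ^ 3 * (Real.cos (2 * (s x - t))) ^ (4 / 3 : ℝ))
        (window s t) := by
      refine h.integrableOn_mul t (hc.rpow_const fun x => Or.inr (by norm_num)) fun x hx => ?_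
      have hc0 := (hcw x hx).le
      rw [abs_of_nonneg (Real.rpow_nonneg hc0 _)]
      exact Real.rpow_le_one hc0 (Real.cos_le_one _) (by norm_num)
    have i3 : IntegrableOn (fun x => ρ x ^ 3 * Real.cos (2 * (s x - t))) (window s t) :=
      h.integrableOn_mul t hc fun x _ => Real.abs_cos_le_one _
    have i1 : IntegrableOn (fun x => f1 ρ ρ' a x (s x - t)) (window s t) :=
      (h.integrable_f1 t).integrableOn
    have iM : IntegrableOn ρ (window s t) := h.int.integrableOn
    have e2 : L2 t = ENNReal.ofReal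
        (∫ x in window s t, ρ x ^ 3 * (Real.cos (2 * (s x - t))) ^ (4 / 3 : ℝ)) :=
      (ofReal_setIntegral hI i2 fun x hx =>
        mul_nonneg (pow_nonneg (h.pos x).le 3) (Real.rpow_nonneg (hcw x hx).le _)).symm
    have e3 : L3 t = ENNReal.ofReal (∫ x in window s t, ρ x ^ 3 * Real.cos (2 * (s x - t))) :=
      (ofReal_setIntegral hI i3 fun x hx =>
        mul_nonneg (pow_nonneg (h.pos x).le 3) (hcw x hx).le).symm
    have e1 : L1 t = ENNReal.ofReal (∫ x in window s t, f1 ρ ρ' a x (s x - t)) :=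
      (ofReal_setIntegral hI i1 fun x _ => h.f1_nonneg _ _).symm
    have eM : M t = ENNReal.ofReal (∫ x in window s t, ρ x) :=
      (ofReal_setIntegral hI iM fun x _ => (h.pos x).le).symm
    have n3 : 0 ≤ ∫ x in window s t, ρ x ^ 3 * Real.cos (2 * (s x - t)) :=
      setIntegral_nonneg hI fun x hx => mul_nonneg (pow_nonneg (h.pos x).le 3) (hcw x hx).le
    have nM : 0 ≤ ∫ x in window s t, ρ x := integral_nonneg fun x => (h.pos x).le
    have n1 : 0 ≤ ∫ x in window s t, f1 ρ ρ' a x (s x - t) :=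
      integral_nonneg fun x => h.f1_nonneg _ _
    have n2 : 0 ≤ ∫ x in window s t, ρ x ^ 3 * (Real.cos (2 * (s x - t))) ^ (4 / 3 : ℝ) :=
      setIntegral_nonneg hI fun x hx =>
        mul_nonneg (pow_nonneg (h.pos x).le 3) (Real.rpow_nonneg (hcw x hx).le _)
    have hc1 : (0 : ℝ) ≤ 3 * Real.pi ^ 2 * A ^ 2 := by positivity
    have hc2 : (0 : ℝ) ≤ 2 * Real.pi ^ 2 * A ^ 3 := by positivity
    rw [e1, e2, e3, eM, ← ENNReal.ofReal_mul hc1, ← ENNReal.ofReal_mul nM,
      ← ENNReal.ofReal_mul hc2, ← ENNReal.ofReal_add n1 (mul_nonneg hc2 (mul_nonneg nM n3))]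
    apply ENNReal.ofReal_le_ofReal
    simpa [f1] using hp
  have hL1m : Measurable L1 := measurable_window_lintegral hsc h.continuous_f1
  have hint : ∫⁻ t, ENNReal.ofReal (3 * Real.pi ^ 2 * A ^ 2) * L2 t ≤
      ∫⁻ t, (L1 t + ENNReal.ofReal (2 * Real.pi ^ 2 * A ^ 3) * (M t * L3 t)) :=
    lintegral_mono key
  rw [lintegral_const_mul' _ _ ENNReal.ofReal_ne_top, lintegral_add_left hL1m,
    lintegral_const_mul' _ _ ENNReal.ofReal_ne_top] at hint
  have hGe : ∫⁻ x, ENNReal.ofReal (ρ x ^ 3) = ENNReal.ofReal G :=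
    (ofReal_integral_eq_lintegral_ofReal h.integrable_cube
      (Eventually.of_forall fun x => pow_nonneg (h.pos x).le 3)).symm
  -- the three integrals
  have hT1 : ∫⁻ t, L1 t = ENNReal.ofReal (Real.pi * T) := by
    have := lintegral_window_swap hsc h.continuous_f1 (fun x u _ => h.f1_nonneg x u)
    simp only [L1]
    rw [this]
    simp_rw [h.integral_f1]
    rw [hT, ← integral_const_mul, ofReal_integral_eq_lintegral_ofReal (h.energy.const_mul _)]
    exact Eventually.of_forall fun x => mul_nonneg hpi.le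
      (add_nonneg (div_nonneg (sq_nonneg _) (mul_pos (by norm_num) (h.pos x)).le)
        (mul_nonneg (h.pos x).le (sq_nonneg _)))
  have hJ0 : 0 ≤ J := by
    have := J_ge
    linarith
  have hT2 : ∫⁻ t, L2 t = ENNReal.ofReal J * ENNReal.ofReal G := by
    have hcf : Continuous (Function.uncurry fun (x u : ℝ) =>
        ρ x ^ 3 * (Real.cos (2 * u)) ^ (4 / 3 : ℝ)) := by
      have : Continuous fun p : ℝ × ℝ => ρ p.1 ^ 3 * (Real.cos (2 * p.2)) ^ (4 / 3 : ℝ) := by
        refine ((hρc.comp continuous_fst).pow 3).mul ?_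
        exact Continuous.rpow_const (by fun_prop) fun x => Or.inr (by norm_num)
      exact this
    have := lintegral_window_swap hsc hcf (fun x u hu => by
      have hu' := abs_lt.1 hu
      exact mul_nonneg (pow_nonneg (h.pos x).le 3) (Real.rpow_nonneg
        (Real.cos_pos_of_mem_Ioo ⟨by linarith [hu'.1], by linarith [hu'.2]⟩).le _))
    simp only [L2]
    rw [this]
    simp_rw [intervalIntegral.integral_const_mul]
    rw [← hGe, ← lintegral_const_mul' _ _ ENNReal.ofReal_ne_top]
    refine lintegral_congr fun x => ?_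
    have eJ : (∫ u in (-(Real.pi / 4))..(Real.pi / 4), Real.cos (2 * u) ^ (4 / 3 : ℝ)) = J := rfl
    rw [mul_comm, ← ENNReal.ofReal_mul hJ0, eJ]
  have hT3 : ∫⁻ t, M t * L3 t ≤ ENNReal.ofReal G := by
    rw [← hGe]
    exact h.tone3
  rw [hT1, hT2] at hint
  have hfinal : ENNReal.ofReal (3 * Real.pi ^ 2 * A ^ 2) * (ENNReal.ofReal J * ENNReal.ofReal G) ≤
      ENNReal.ofReal (Real.pi * T) + ENNReal.ofReal (2 * Real.pi ^ 2 * A ^ 3) * ENNReal.ofReal G :=
    hint.trans (by gcongr)
  have hc1 : (0 : ℝ) ≤ 3 * Real.pi ^ 2 * A ^ 2 := by positivity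
  have hc2 : (0 : ℝ) ≤ 2 * Real.pi ^ 2 * A ^ 3 := by positivity
  rw [← ENNReal.ofReal_mul hJ0, ← ENNReal.ofReal_mul hc1, ← ENNReal.ofReal_mul hc2,
    ← ENNReal.ofReal_add (mul_nonneg hpi.le hT0) (mul_nonneg hc2 hG0),
    ENNReal.ofReal_le_ofReal_iff (add_nonneg (mul_nonneg hpi.le hT0) (mul_nonneg hc2 hG0))] at hfinal
  have hJA : A ≤ J := J_ge
  have hcon := const_ok
  -- divide by π
  have h1 : Real.pi * (Real.pi * A ^ 3 * G) ≤ Real.pi * T := by
    have : 3 * Real.pi ^ 2 * A ^ 2 * (A * G) ≤ 3 * Real.pi ^ 2 * A ^ 2 * (J * G) := by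
      apply mul_le_mul_of_nonneg_left _ hc1
      exact mul_le_mul_of_nonneg_right hJA hG0
    nlinarith
  have h2 : Real.pi * A ^ 3 * G ≤ T := le_of_mul_le_mul_left h1 hpi
  calc (64 / 27 : ℝ) * G ≤ Real.pi * A ^ 3 * G := mul_le_mul_of_nonneg_right hcon hG0
    _ ≤ T := h2

end Vale.Agent.Lib.P371.S
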