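import Vale.Agent.Lib.P371.S.Defs

/-! Arclength on the sphere bounds the angle. -/

open MeasureTheory Set Filter Topology

namespace Vale.Agent.Lib.P371.S

variable {E : Type*} [NormedAddCommGroup E] [InnerProductSpace ℝ E]

/-- A differentiable unit curve is orthogonal to its velocity. -/
theorem inner_deriv_eq_zero {n n' : ℝ → E}
    (hn : ∀ x, HasDerivAt n (n' x) x) (hunit : ∀ x, ‖n x‖ = 1) (z : ℝ) :
    inner ℝ (n z) (n' z) = 0 := by
  have h1 : HasDerivAt (fun t => ‖n t‖ ^ 2) (2 * inner ℝ (n z) (n' z)) z := (hn z).norm_sq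
  have h2 : (fun t => ‖n t‖ ^ 2) = fun _ => (1 : ℝ) := by
    funext t; rw [hunit t]; norm_num
  rw [h2] at h1
  have h3 := h1.unique (hasDerivAt_const z (1 : ℝ))
  linarith

/-- The derivative of `⟨v, n⟩` is controlled by `‖n'‖ √(1 - ⟨v,n⟩²)`. -/
theorem sq_inner_deriv_le {n n' : ℝ → E}
    (hn : ∀ x, HasDerivAt n (n' x) x) (hunit : ∀ x, ‖n x‖ = 1) (v : E) (hv : ‖v‖ = 1) (z : ℝ) :
    (inner ℝ v (n' z)) ^ 2 ≤ (1 - (inner ℝ v (n z)) ^ 2) * ‖n' z‖ ^ 2 := by
  have h0 := inner_deriv_eq_zero hn hunit z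
  set f := inner ℝ v (n z) with hf
  have h1 : inner ℝ v (n' z) = inner ℝ (v - f • n z) (n' z) := by
    rw [inner_sub_left, inner_smul_left, h0]; simp
  have h2 : ‖v - f • n z‖ ^ 2 = 1 - f ^ 2 := by
    have : ‖v - f • n z‖ ^ 2 = ‖v‖ ^ 2 - 2 * inner ℝ v (f • n z) + ‖f • n z‖ ^ 2 :=
      norm_sub_sq_real _ _
    rw [this, inner_smul_right, hv, norm_smul, hunit z, ← hf]
    simp only [Real.norm_eq_abs, mul_one, one_pow, sq_abs]
    ring
  have h3 : |inner ℝ (v - f • n z) (n' z)| ≤ ‖v - f • n z‖ * ‖n' z‖ :=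
    abs_real_inner_le_norm _ _
  have h4 : (inner ℝ v (n' z)) ^ 2 ≤ (‖v - f • n z‖ * ‖n' z‖) ^ 2 := by
    rw [h1, ← sq_abs]
    exact pow_le_pow_left₀ (abs_nonneg _) h3 2
  rw [mul_pow, h2] at h4
  exact h4

/-- One-sided version, for `x ≤ y`, before passing to the limit in the regularisation. -/
theorem arccos_reg_le {n n' : ℝ → E} {s : ℝ → ℝ}
    (hn : ∀ x, HasDerivAt n (n' x) x) (hunit : ∀ x, ‖n x‖ = 1)
    (hs : ∀ x, HasDerivAt s (‖n' x‖) x) {x y : ℝ} (hxy : x ≤ y) {ε : ℝ} (hε : 0 < ε) :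
    Real.arccos (inner ℝ (n x) (n y) / (1 + ε)) ≤
      Real.arccos (1 / (1 + ε)) + (s y - s x) := by
  have hpos : (0 : ℝ) < 1 + ε := by linarith
  set v := n x with hv
  have hvn : ‖v‖ = 1 := hunit x
  -- the regularised ratio stays strictly inside `(-1, 1)`
  have hf_abs : ∀ z, |inner ℝ v (n z)| ≤ 1 := by
    intro z
    have := abs_real_inner_le_norm v (n z)
    rwa [hvn, hunit z, one_mul] at this
  have hr_lt : ∀ z, |inner ℝ v (n z) / (1 + ε)| < 1 := by
    intro z
    rw [abs_div, abs_of_pos hpos, div_lt_one hpos]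
    linarith [hf_abs z]
  -- derivative of the inner product
  have hfd : ∀ z, HasDerivAt (fun t => inner ℝ v (n t)) (inner ℝ v (n' z)) z := by
    intro z
    have := (hasDerivAt_const z v).inner ℝ (hn z)
    simpa using this
  -- the regularised angle
  let θ : ℝ → ℝ := fun z => Real.arccos (inner ℝ v (n z) / (1 + ε))
  let θ' : ℝ → ℝ := fun z =>
    (-(1 / √(1 - (inner ℝ v (n z) / (1 + ε)) ^ 2))) * (inner ℝ v (n' z) / (1 + ε))
  have hθ : ∀ z, HasDerivAt θ (θ' z) z := by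
    intro z
    have hr := hr_lt z
    have h1 : inner ℝ v (n z) / (1 + ε) ≠ -1 := by
      intro h; rw [h] at hr; simp at hr
    have h2 : inner ℝ v (n z) / (1 + ε) ≠ 1 := by
      intro h; rw [h] at hr; simp at hr
    have := (Real.hasDerivAt_arccos h1 h2).comp z ((hfd z).div_const (1 + ε))
    exact this
  have hθ'le : ∀ z, θ' z ≤ ‖n' z‖ := by
    intro z
    set r := inner ℝ v (n z) / (1 + ε) with hr
    have hrlt : r ^ 2 < 1 := by
      have := hr_lt z
      rw [← hr] at this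
      nlinarith [abs_nonneg r, sq_abs r]
    have hsqrt : 0 < √(1 - r ^ 2) := Real.sqrt_pos.mpr (by linarith)
    have hb := sq_inner_deriv_le hn hunit v hvn z
    have hkey : (inner ℝ v (n' z) / (1 + ε)) ^ 2 ≤ (‖n' z‖ * √(1 - r ^ 2)) ^ 2 := by
      rw [mul_pow, Real.sq_sqrt (by linarith), div_pow]
      rw [div_le_iff₀ (by positivity)]
      have hf : inner ℝ v (n z) = r * (1 + ε) := by
        rw [hr]; field_simp
      rw [hf] at hb
      have h1e : (1 : ℝ) ≤ (1 + ε) ^ 2 := by nlinarith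
      have hna : 0 ≤ ‖n' z‖ ^ 2 := by positivity
      have : (1 - (r * (1 + ε)) ^ 2) * ‖n' z‖ ^ 2 ≤ ‖n' z‖ ^ 2 * (1 - r ^ 2) * (1 + ε) ^ 2 := by
        have : ‖n' z‖ ^ 2 * (1 - r ^ 2) * (1 + ε) ^ 2 - (1 - (r * (1 + ε)) ^ 2) * ‖n' z‖ ^ 2
            = ‖n' z‖ ^ 2 * ((1 + ε) ^ 2 - 1) := by ring
        nlinarith
      linarith
    have habs : |inner ℝ v (n' z) / (1 + ε)| ≤ ‖n' z‖ * √(1 - r ^ 2) := by
      have hnn : 0 ≤ ‖n' z‖ * √(1 - r ^ 2) := by positivity
      exact abs_le_of_sq_le_sq' hkey hnn |>.2 |> fun h2 => by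
        have h1 := (abs_le_of_sq_le_sq' hkey hnn).1
        exact abs_le.mpr ⟨h1, h2⟩
    have hθ'eq : θ' z = (-(inner ℝ v (n' z) / (1 + ε))) / √(1 - r ^ 2) := by
      show (-(1 / √(1 - r ^ 2))) * (inner ℝ v (n' z) / (1 + ε)) = _
      field_simp
    rw [hθ'eq, div_le_iff₀ hsqrt]
    have := (abs_le.mp habs).1
    linarith
  -- the difference is antitone
  have hanti : Antitone (fun z => θ z - s z) := by
    apply antitone_of_deriv_nonpos
    · intro z; exact ((hθ z).sub (hs z)).differentiableAt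
    · intro z
      have hd : HasDerivAt (fun z => θ z - s z) (θ' z - ‖n' z‖) z := (hθ z).sub (hs z)
      rw [hd.deriv]
      linarith [hθ'le z]
  have h := hanti hxy
  have hxx : θ x = Real.arccos (1 / (1 + ε)) := by
    show Real.arccos (inner ℝ v (n x) / (1 + ε)) = _
    have : inner ℝ v (n x) = 1 := by
      rw [hv, real_inner_self_eq_norm_sq, hunit x]; norm_num
    rw [this]
  have hyy : θ y = Real.arccos (inner ℝ (n x) (n y) / (1 + ε)) := rfl
  simp only at h
  rw [hxx, hyy] at h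
  linarith

/-- The case `x ≤ y`. -/
theorem cos_le_inner_of_le {n n' : ℝ → E} {s : ℝ → ℝ}
    (hn : ∀ x, HasDerivAt n (n' x) x) (hunit : ∀ x, ‖n x‖ = 1)
    (hs : ∀ x, HasDerivAt s (‖n' x‖) x)
    {x y : ℝ} (hle : x ≤ y) (hxy : s y - s x < Real.pi / 2) :
    Real.cos (s y - s x) ≤ inner ℝ (n x) (n y) := by
  have hd0 : 0 ≤ s y - s x := by
    have hmono : Monotone s := monotone_of_deriv_nonneg
      (fun z => (hs z).differentiableAt) (fun z => by rw [(hs z).deriv]; exact norm_nonneg _)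
    linarith [hmono hle]
  set d := s y - s x with hd
  -- the limit of the regularised inequality
  have hlim1 : Tendsto (fun ε : ℝ => 1 / (1 + ε)) (𝓝[>] 0) (𝓝 1) := by
    have : Tendsto (fun ε : ℝ => 1 / (1 + ε)) (𝓝 0) (𝓝 (1 / (1 + 0))) :=
      Tendsto.div tendsto_const_nhds (tendsto_const_nhds.add tendsto_id) (by norm_num)
    simpa using this.mono_left nhdsWithin_le_nhds
  have hlim2 : Tendsto (fun ε : ℝ => Real.cos (Real.arccos (1 / (1 + ε)) + d)) (𝓝[>] 0)
      (𝓝 (Real.cos d)) := by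
    have h1 : Tendsto (fun ε : ℝ => Real.arccos (1 / (1 + ε))) (𝓝[>] 0) (𝓝 (Real.arccos 1)) :=
      (Real.continuous_arccos.tendsto 1).comp hlim1
    rw [Real.arccos_one] at h1
    have h2 := (h1.add_const d)
    rw [zero_add] at h2
    exact (Real.continuous_cos.tendsto d).comp h2
  have hlim3 : Tendsto (fun ε : ℝ => inner ℝ (n x) (n y) / (1 + ε)) (𝓝[>] 0)
      (𝓝 (inner ℝ (n x) (n y))) := by
    have : Tendsto (fun ε : ℝ => inner ℝ (n x) (n y) / (1 + ε)) (𝓝 0)
        (𝓝 (inner ℝ (n x) (n y) / (1 + 0))) :=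
      Tendsto.div tendsto_const_nhds (tendsto_const_nhds.add tendsto_id) (by norm_num)
    simpa using this.mono_left nhdsWithin_le_nhds
  refine le_of_tendsto_of_tendsto hlim2 hlim3 ?_
  -- eventually the sum of angles is below `π`
  have hev : ∀ᶠ ε : ℝ in 𝓝[>] 0, Real.arccos (1 / (1 + ε)) + d < Real.pi := by
    have h1 : Tendsto (fun ε : ℝ => Real.arccos (1 / (1 + ε)) + d) (𝓝[>] 0) (𝓝 d) := by
      have h1 : Tendsto (fun ε : ℝ => Real.arccos (1 / (1 + ε))) (𝓝[>] 0) (𝓝 (Real.arccos 1)) :=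
        (Real.continuous_arccos.tendsto 1).comp hlim1
      rw [Real.arccos_one] at h1
      have h2 := (h1.add_const d)
      rwa [zero_add] at h2
    exact h1.eventually (gt_mem_nhds (by linarith [Real.pi_pos]))
  filter_upwards [hev, self_mem_nhdsWithin] with ε hε hεpos
  have hεpos' : 0 < ε := hεpos
  have hpos : (0 : ℝ) < 1 + ε := by linarith
  have h := arccos_reg_le hn hunit hs hle hεpos'
  have hf_abs : |inner ℝ (n x) (n y)| ≤ 1 := by
    have := abs_real_inner_le_norm (n x) (n y)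
    rwa [hunit x, hunit y, one_mul] at this
  have hr1 : -1 ≤ inner ℝ (n x) (n y) / (1 + ε) := by
    rw [le_div_iff₀ hpos]
    linarith [(abs_le.mp hf_abs).1]
  have hr2 : inner ℝ (n x) (n y) / (1 + ε) ≤ 1 := by
    rw [div_le_one hpos]
    linarith [(abs_le.mp hf_abs).2]
  have := Real.cos_le_cos_of_nonneg_of_le_pi (Real.arccos_nonneg _) hε.le h
  rwa [Real.cos_arccos hr1 hr2] at this

/-- If `n` is a differentiable unit curve and `s' = ‖n'‖`, then the cosine of the arclength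
distance is at most the inner product, as long as the arclength distance is `< π/2`. -/
theorem cos_le_inner_of_arclength {n n' : ℝ → E} {s : ℝ → ℝ}
    (hn : ∀ x, HasDerivAt n (n' x) x) (hunit : ∀ x, ‖n x‖ = 1)
    (hs : ∀ x, HasDerivAt s (‖n' x‖) x)
    {x y : ℝ} (hxy : |s y - s x| < Real.pi / 2) :
    Real.cos (s y - s x) ≤ inner ℝ (n x) (n y) := by
  rcases le_total x y with hle | hle
  · exact cos_le_inner_of_le hn hunit hs hle (lt_of_le_of_lt (le_abs_self _) hxy)
  · have h := cos_le_inner_of_le hn hunit hs hle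
      (lt_of_le_of_lt (le_abs_self _) (by rwa [abs_sub_comm] at hxy))
    rw [real_inner_comm, ← Real.cos_neg]
    convert h using 2
    ring

end Vale.Agent.Lib.P371.S
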