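import Vale.Agent.Lib.P371.S.Defs

/-! Numerics: `J ≥ 0.9104`, and the arithmetic of the constant. -/

open MeasureTheory Set Filter Topology

namespace Vale.Agent.Lib.P371.S
/-- `z² + 2/z ≥ 3` in the form used: tangent inequality. -/
theorem tangent_ineq {c m A : ℝ} (hc : 0 ≤ c) (hm : 0 < m) (hA : 0 < A) :
    3 * A ^ 2 * c ^ (4 / 3 : ℝ) ≤ c ^ 2 / m ^ 2 + 2 * A ^ 3 * c * m := by
  rcases hc.eq_or_lt with rfl | hc
  · have : (0:ℝ) ^ (4 / 3 : ℝ) = 0 := Real.zero_rpow (by norm_num)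
    simp [this]
  set y := c ^ (1 / 3 : ℝ) with hy
  have hy0 : 0 < y := Real.rpow_pos_of_pos hc _
  have e3 : c = y ^ 3 := by
    rw [hy, ← Real.rpow_natCast, ← Real.rpow_mul hc.le]
    norm_num
  have e4 : c ^ (4 / 3 : ℝ) = y ^ 4 := by
    rw [hy, ← Real.rpow_natCast, ← Real.rpow_mul hc.le]
    norm_num
  rw [e4, e3]
  -- z = y / (m * A)... write everything over m²
  have hmul : 3 * A ^ 2 * y ^ 4 * m ^ 2 ≤ (y ^ 3) ^ 2 + 2 * A ^ 3 * y ^ 3 * m * m ^ 2 := by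
    -- with w = A m: y^6 + 2 w^3 y^3 - 3 w^2 y^4 = y^3 (y^3 - 3 w^2 y + 2 w^3) = y^3 (y-w)^2 (y+2w)
    have : (y ^ 3) ^ 2 + 2 * A ^ 3 * y ^ 3 * m * m ^ 2 - 3 * A ^ 2 * y ^ 4 * m ^ 2 =
        y ^ 3 * ((y - A * m) ^ 2 * (y + 2 * (A * m))) := by ring
    have hpos : 0 ≤ y ^ 3 * ((y - A * m) ^ 2 * (y + 2 * (A * m))) := by positivity
    linarith
  have hm2 : 0 < m ^ 2 := by positivity
  have : (y ^ 3) ^ 2 / m ^ 2 + 2 * A ^ 3 * y ^ 3 * m =
      ((y ^ 3) ^ 2 + 2 * A ^ 3 * y ^ 3 * m * m ^ 2) / m ^ 2 := by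
    field_simp
  rw [this, le_div_iff₀ hm2]
  exact hmul

theorem const_ok : (64 / 27 : ℝ) ≤ Real.pi * (0.9104 : ℝ) ^ 3 := by
  have := Real.pi_gt_d4
  norm_num at this ⊢
  nlinarith

/-- Nonnegativity from a nonnegative derivative. -/
theorem nonneg_of_deriv {F G : ℝ → ℝ} (hF : ∀ x, HasDerivAt F (G x) x) (h0 : F 0 = 0)
    (hG : ∀ x, 0 ≤ x → 0 ≤ G x) {x : ℝ} (hx : 0 ≤ x) : 0 ≤ F x := by
  have hc : Continuous F := continuous_iff_continuousAt.2 fun x => (hF x).continuousAt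
  have hm : MonotoneOn F (Ici 0) := by
    refine monotoneOn_of_deriv_nonneg (convex_Ici 0) hc.continuousOn
      (fun x _ => (hF x).differentiableAt.differentiableWithinAt) fun x hx => ?_
    rw [interior_Ici] at hx
    rw [(hF x).deriv]
    exact hG x (le_of_lt hx)
  have := hm (self_mem_Ici) (mem_Ici.2 hx) hx
  linarith

section chain
variable {x : ℝ}

theorem hd_pow (n : ℕ) (c : ℝ) (x : ℝ) :
    HasDerivAt (fun x : ℝ => x ^ (n + 1) / c) ((n + 1 : ℝ) * x ^ n / c) x := by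
  have := (hasDerivAt_pow (n + 1) x).div_const c
  simpa using this

end chain

theorem p1 {x : ℝ} (hx : 0 ≤ x) : 0 ≤ x - Real.sin x := by
  linarith [Real.sin_le hx]

theorem p2 {x : ℝ} : 0 ≤ Real.cos x - 1 + x ^ 2 / 2 := by
  linarith [Real.one_sub_sq_div_two_le_cos (x := x)]

theorem p3 {x : ℝ} (hx : 0 ≤ x) : 0 ≤ Real.sin x - x + x ^ 3 / 6 := by
  refine nonneg_of_deriv (F := fun x => Real.sin x - x + x ^ 3 / 6)
    (G := fun x => Real.cos x - 1 + x ^ 2 / 2) (fun x => ?_) (by simp) (fun x _ => p2) hx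
  have h := ((Real.hasDerivAt_sin x).fun_sub (hasDerivAt_id' x)).fun_add (hd_pow 2 6 x)
  refine h.congr_deriv ?_
  push_cast
  ring

theorem p4 {x : ℝ} (hx : 0 ≤ x) : 0 ≤ 1 - x ^ 2 / 2 + x ^ 4 / 24 - Real.cos x := by
  refine nonneg_of_deriv (F := fun x => 1 - x ^ 2 / 2 + x ^ 4 / 24 - Real.cos x)
    (G := fun x => Real.sin x - x + x ^ 3 / 6) (fun x => ?_) (by simp)
    (fun x hx => p3 hx) hx
  have h := (((hasDerivAt_const x (1 : ℝ)).fun_sub (hd_pow 1 2 x)).fun_add (hd_pow 3 24 x)).fun_sub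
    (Real.hasDerivAt_cos x)
  refine h.congr_deriv ?_
  push_cast
  ring

theorem p5 {x : ℝ} (hx : 0 ≤ x) : 0 ≤ x - x ^ 3 / 6 + x ^ 5 / 120 - Real.sin x := by
  refine nonneg_of_deriv (F := fun x => x - x ^ 3 / 6 + x ^ 5 / 120 - Real.sin x)
    (G := fun x => 1 - x ^ 2 / 2 + x ^ 4 / 24 - Real.cos x) (fun x => ?_)
    (by simp) (fun x hx => p4 hx) hx
  have h := (((hasDerivAt_id' x).fun_sub (hd_pow 2 6 x)).fun_add (hd_pow 4 120 x)).fun_sub
    (Real.hasDerivAt_sin x)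
  refine h.congr_deriv ?_
  push_cast
  ring

theorem p6 {x : ℝ} (hx : 0 ≤ x) : 0 ≤ Real.cos x - 1 + x ^ 2 / 2 - x ^ 4 / 24 + x ^ 6 / 720 := by
  refine nonneg_of_deriv (F := fun x => Real.cos x - 1 + x ^ 2 / 2 - x ^ 4 / 24 + x ^ 6 / 720)
    (G := fun x => x - x ^ 3 / 6 + x ^ 5 / 120 - Real.sin x) (fun x => ?_)
    (by simp) (fun x hx => p5 hx) hx
  have h := (((((Real.hasDerivAt_cos x).fun_sub (hasDerivAt_const x (1 : ℝ))).fun_add (hd_pow 1 2 x)).fun_sub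
    (hd_pow 3 24 x)).fun_add (hd_pow 5 720 x))
  refine h.congr_deriv ?_
  push_cast
  ring

theorem p7 {x : ℝ} (hx : 0 ≤ x) :
    0 ≤ Real.sin x - x + x ^ 3 / 6 - x ^ 5 / 120 + x ^ 7 / 5040 := by
  refine nonneg_of_deriv (F := fun x => Real.sin x - x + x ^ 3 / 6 - x ^ 5 / 120 + x ^ 7 / 5040)
    (G := fun x => Real.cos x - 1 + x ^ 2 / 2 - x ^ 4 / 24 + x ^ 6 / 720) (fun x => ?_)
    (by simp) (fun x hx => p6 hx) hx
  have h := ((((Real.hasDerivAt_sin x).fun_sub (hasDerivAt_id' x)).fun_add (hd_pow 2 6 x)).fun_sub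
    (hd_pow 4 120 x)).fun_add (hd_pow 6 5040 x)
  refine h.congr_deriv ?_
  push_cast
  ring

theorem p8 {x : ℝ} (hx : 0 ≤ x) :
    0 ≤ 1 - x ^ 2 / 2 + x ^ 4 / 24 - x ^ 6 / 720 + x ^ 8 / 40320 - Real.cos x := by
  refine nonneg_of_deriv (F := fun x => 1 - x ^ 2 / 2 + x ^ 4 / 24 - x ^ 6 / 720 + x ^ 8 / 40320 - Real.cos x)
    (G := fun x => Real.sin x - x + x ^ 3 / 6 - x ^ 5 / 120 + x ^ 7 / 5040) (fun x => ?_)
    (by simp) (fun x hx => p7 hx) hx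
  have h := ((((((hasDerivAt_const x (1 : ℝ)).fun_sub (hd_pow 1 2 x)).fun_add (hd_pow 3 24 x)).fun_sub
    (hd_pow 5 720 x)).fun_add (hd_pow 7 40320 x)).fun_sub (Real.hasDerivAt_cos x))
  refine h.congr_deriv ?_
  push_cast
  ring

theorem p9 {x : ℝ} (hx : 0 ≤ x) :
    0 ≤ x - x ^ 3 / 6 + x ^ 5 / 120 - x ^ 7 / 5040 + x ^ 9 / 362880 - Real.sin x := by
  refine nonneg_of_deriv (F := fun x => x - x ^ 3 / 6 + x ^ 5 / 120 - x ^ 7 / 5040 + x ^ 9 / 362880 - Real.sin x)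
    (G := fun x => 1 - x ^ 2 / 2 + x ^ 4 / 24 - x ^ 6 / 720 + x ^ 8 / 40320 - Real.cos x)
    (fun x => ?_) (by simp) (fun x hx => p8 hx) hx
  have h := ((((((hasDerivAt_id' x).fun_sub (hd_pow 2 6 x)).fun_add (hd_pow 4 120 x)).fun_sub
    (hd_pow 6 5040 x)).fun_add (hd_pow 8 362880 x)).fun_sub (Real.hasDerivAt_sin x))
  refine h.congr_deriv ?_
  push_cast
  ring

theorem p10 {x : ℝ} (hx : 0 ≤ x) :
    0 ≤ Real.cos x - 1 + x ^ 2 / 2 - x ^ 4 / 24 + x ^ 6 / 720 - x ^ 8 / 40320 + x ^ 10 / 3628800 := by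
  refine nonneg_of_deriv (F := fun x => Real.cos x - 1 + x ^ 2 / 2 - x ^ 4 / 24 + x ^ 6 / 720 - x ^ 8 / 40320 + x ^ 10 / 3628800)
    (G := fun x => x - x ^ 3 / 6 + x ^ 5 / 120 - x ^ 7 / 5040 + x ^ 9 / 362880 - Real.sin x)
    (fun x => ?_) (by simp) (fun x hx => p9 hx) hx
  have h := (((((((Real.hasDerivAt_cos x).fun_sub (hasDerivAt_const x (1 : ℝ))).fun_add (hd_pow 1 2 x)).fun_sub
    (hd_pow 3 24 x)).fun_add (hd_pow 5 720 x)).fun_sub (hd_pow 7 40320 x)).fun_add (hd_pow 9 3628800 x))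
  refine h.congr_deriv ?_
  push_cast
  ring

theorem p11 {x : ℝ} (hx : 0 ≤ x) :
    x - x ^ 3 / 6 + x ^ 5 / 120 - x ^ 7 / 5040 + x ^ 9 / 362880 - x ^ 11 / 39916800 ≤ Real.sin x := by
  have : 0 ≤ Real.sin x - x + x ^ 3 / 6 - x ^ 5 / 120 + x ^ 7 / 5040 - x ^ 9 / 362880
      + x ^ 11 / 39916800 := by
    refine nonneg_of_deriv (F := fun x => Real.sin x - x + x ^ 3 / 6 - x ^ 5 / 120 + x ^ 7 / 5040 - x ^ 9 / 362880
      + x ^ 11 / 39916800)
      (G := fun x => Real.cos x - 1 + x ^ 2 / 2 - x ^ 4 / 24 + x ^ 6 / 720 - x ^ 8 / 40320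
        + x ^ 10 / 3628800) (fun x => ?_) (by simp) (fun x hx => p10 hx) hx
    have h := ((((((Real.hasDerivAt_sin x).fun_sub (hasDerivAt_id' x)).fun_add (hd_pow 2 6 x)).fun_sub
      (hd_pow 4 120 x)).fun_add (hd_pow 6 5040 x)).fun_sub (hd_pow 8 362880 x)).fun_add (hd_pow 10 39916800 x)
    refine h.congr_deriv ?_
    push_cast
    ring
  linarith

/-- Tangent minorant of `x ^ (4/3)`. -/
theorem rpow43_ge {x t : ℝ} (hx : 0 ≤ x) (ht : 0 < t) :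
    t / 3 * (4 * x - t ^ 3) ≤ x ^ (4 / 3 : ℝ) := by
  set y := x ^ (1 / 3 : ℝ) with hy
  have hy0 : 0 ≤ y := Real.rpow_nonneg hx _
  have e3 : x = y ^ 3 := by
    rw [hy, ← Real.rpow_natCast, ← Real.rpow_mul hx]
    norm_num
  have e4 : x ^ (4 / 3 : ℝ) = y ^ 4 := by
    rw [hy, ← Real.rpow_natCast, ← Real.rpow_mul hx]
    norm_num
  rw [e4, e3]
  have : y ^ 4 - t / 3 * (4 * y ^ 3 - t ^ 3) = (y - t) ^ 2 * (3 * y ^ 2 + 2 * t * y + t ^ 2) / 3 := by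
    ring
  have hpos : 0 ≤ (y - t) ^ 2 * (3 * y ^ 2 + 2 * t * y + t ^ 2) / 3 := by positivity
  linarith

/-- The function `g = cos^{4/3}`. -/
noncomputable def g (v : ℝ) : ℝ := Real.cos v ^ (4 / 3 : ℝ)

theorem g_cont : Continuous g :=
  Real.continuous_cos.rpow_const fun _ => Or.inr (by norm_num)

theorem g_neg (v : ℝ) : g (-v) = g v := by
  simp [g]

/-- One cell. -/
theorem cell {a b t : ℝ} (ha : 0 ≤ a) (hab : a ≤ b) (hb : b ≤ Real.pi / 2) (ht : 0 < t) :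
    t / 3 * (4 * (Real.sin b - Real.sin a) - t ^ 3 * (b - a)) ≤ ∫ v in a..b, g v := by
  have hI : ∫ v in a..b, t / 3 * (4 * Real.cos v - t ^ 3) =
      t / 3 * (4 * (Real.sin b - Real.sin a) - t ^ 3 * (b - a)) := by
    rw [intervalIntegral.integral_const_mul, intervalIntegral.integral_sub
      ((Real.continuous_cos.const_mul 4).intervalIntegrable _ _)
      (continuous_const.intervalIntegrable _ _), intervalIntegral.integral_const_mul, integral_cos,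
      intervalIntegral.integral_const]
    simp only [smul_eq_mul]
    ring
  rw [← hI]
  refine intervalIntegral.integral_mono_on hab
    ((by fun_prop : Continuous fun v => t / 3 * (4 * Real.cos v - t ^ 3)).intervalIntegrable _ _)
    (g_cont.intervalIntegrable _ _) fun v hv => ?_
  have hc : 0 ≤ Real.cos v := Real.cos_nonneg_of_mem_Icc
    ⟨by linarith [hv.1, Real.pi_pos], by linarith [hv.2]⟩
  exact rpow43_ge hc ht

theorem J_eq : J = ∫ v in (0 : ℝ)..(Real.pi / 2), g v := by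
  have h1 : J = (2 : ℝ)⁻¹ • ∫ v in ((2 : ℝ) * (-(Real.pi / 4)))..((2 : ℝ) * (Real.pi / 4)), g v :=
    intervalIntegral.integral_comp_mul_left (a := -(Real.pi / 4)) (b := Real.pi / 4) (c := (2 : ℝ)) g
      (by norm_num)
  have e1 : (2 : ℝ) * (-(Real.pi / 4)) = -(Real.pi / 2) := by ring
  have e2 : (2 : ℝ) * (Real.pi / 4) = Real.pi / 2 := by ring
  rw [e1, e2] at h1
  have h2 : ∫ v in (-(Real.pi / 2))..(Real.pi / 2), g v =
      (∫ v in (-(Real.pi / 2))..0, g v) + ∫ v in (0 : ℝ)..(Real.pi / 2), g v :=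
    (intervalIntegral.integral_add_adjacent_intervals
      (g_cont.intervalIntegrable _ _) (g_cont.intervalIntegrable _ _)).symm
  have h3 : ∫ v in (-(Real.pi / 2))..0, g v = ∫ v in (0 : ℝ)..(Real.pi / 2), g v := by
    have := intervalIntegral.integral_comp_neg (a := 0) (b := Real.pi / 2) g
    simp only [neg_zero, g_neg] at this
    exact this.symm
  rw [h1, h2, h3]
  simp only [smul_eq_mul]
  ring
theorem sl1 : (1157399 / 10000000 : ℝ) ≤ Real.sin (29 / 250 : ℝ) :=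
  le_trans (by norm_num) (p11 (x := (29 / 250 : ℝ)) (by norm_num))

theorem sl2 : (1139887 / 5000000 : ℝ) ≤ Real.sin (23 / 100 : ℝ) :=
  le_trans (by norm_num) (p11 (x := (23 / 100 : ℝ)) (by norm_num))

theorem sl3 : (3334869 / 10000000 : ℝ) ≤ Real.sin (17 / 50 : ℝ) :=
  le_trans (by norm_num) (p11 (x := (17 / 50 : ℝ)) (by norm_num))

theorem sl4 : (4322621 / 10000000 : ℝ) ≤ Real.sin (447 / 1000 : ℝ) :=
  le_trans (by norm_num) (p11 (x := (447 / 1000 : ℝ)) (by norm_num))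

theorem sl5 : (5226871 / 10000000 : ℝ) ≤ Real.sin (11 / 20 : ℝ) :=
  le_trans (by norm_num) (p11 (x := (11 / 20 : ℝ)) (by norm_num))

theorem sl6 : (302991 / 500000 : ℝ) ≤ Real.sin (651 / 1000 : ℝ) :=
  le_trans (by norm_num) (p11 (x := (651 / 1000 : ℝ)) (by norm_num))

theorem sl7 : (1358881 / 2000000 : ℝ) ≤ Real.sin (747 / 1000 : ℝ) :=
  le_trans (by norm_num) (p11 (x := (747 / 1000 : ℝ)) (by norm_num))

theorem sl8 : (744643 / 1000000 : ℝ) ≤ Real.sin (21 / 25 : ℝ) :=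
  le_trans (by norm_num) (p11 (x := (21 / 25 : ℝ)) (by norm_num))

theorem sl9 : (4008099 / 5000000 : ℝ) ≤ Real.sin (93 / 100 : ℝ) :=
  le_trans (by norm_num) (p11 (x := (93 / 100 : ℝ)) (by norm_num))

theorem sl10 : (2123701 / 2500000 : ℝ) ≤ Real.sin (203 / 200 : ℝ) :=
  le_trans (by norm_num) (p11 (x := (203 / 200 : ℝ)) (by norm_num))

theorem sl11 : (8893857 / 10000000 : ℝ) ≤ Real.sin (137 / 125 : ℝ) :=
  le_trans (by norm_num) (p11 (x := (137 / 125 : ℝ)) (by norm_num))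

theorem sl12 : (288099 / 312500 : ℝ) ≤ Real.sin (1173 / 1000 : ℝ) :=
  le_trans (by norm_num) (p11 (x := (1173 / 1000 : ℝ)) (by norm_num))

theorem sl13 : (236849 / 250000 : ℝ) ≤ Real.sin (249 / 200 : ℝ) :=
  le_trans (by norm_num) (p11 (x := (249 / 200 : ℝ)) (by norm_num))

theorem sl14 : (4833493 / 5000000 : ℝ) ≤ Real.sin (164 / 125 : ℝ) :=
  le_trans (by norm_num) (p11 (x := (164 / 125 : ℝ)) (by norm_num))

theorem sl15 : (9806979 / 10000000 : ℝ) ≤ Real.sin (687 / 500 : ℝ) :=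
  le_trans (by norm_num) (p11 (x := (687 / 500 : ℝ)) (by norm_num))

theorem sl16 : (2475261 / 2500000 : ℝ) ≤ Real.sin (143 / 100 : ℝ) :=
  le_trans (by norm_num) (p11 (x := (143 / 100 : ℝ)) (by norm_num))

theorem sl17 : (1991579 / 2000000 : ℝ) ≤ Real.sin (1479 / 1000 : ℝ) :=
  le_trans (by norm_num) (p11 (x := (1479 / 1000 : ℝ)) (by norm_num))

theorem sl18 : (99871 / 100000 : ℝ) ≤ Real.sin (38 / 25 : ℝ) :=
  le_trans (by norm_num) (p11 (x := (38 / 25 : ℝ)) (by norm_num))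

theorem sl19 : (1249779 / 1250000 : ℝ) ≤ Real.sin (194 / 125 : ℝ) :=
  le_trans (by norm_num) (p11 (x := (194 / 125 : ℝ)) (by norm_num))

theorem sl20 : (1999999 / 2000000 : ℝ) ≤ Real.sin (157 / 100 : ℝ) :=
  le_trans (by norm_num) (p11 (x := (157 / 100 : ℝ)) (by norm_num))

theorem ce0 : (3331 / 2500 : ℝ) * Real.sin (29 / 250 : ℝ) - (3331 / 2500 : ℝ) * Real.sin (0 : ℝ) - (96396284067396543 / 2500000000000000000 : ℝ) ≤ ∫ v in (0 : ℝ)..(29 / 250 : ℝ), g v := by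
  have h := cell (a := (0 : ℝ)) (b := (29 / 250 : ℝ)) (t := (9993 / 10000 : ℝ)) (by norm_num) (by norm_num) (by linarith [Real.pi_gt_d4]) (by norm_num)
  have e : (9993 / 10000 : ℝ) / 3 * (4 * (Real.sin (29 / 250 : ℝ) - Real.sin (0 : ℝ)) - (9993 / 10000 : ℝ) ^ 3 * ((29 / 250 : ℝ) - (0 : ℝ))) = (3331 / 2500 : ℝ) * Real.sin (29 / 250 : ℝ) - (3331 / 2500 : ℝ) * Real.sin (0 : ℝ) - (96396284067396543 / 2500000000000000000 : ℝ) := by
    ring
  rw [e] at h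
  exact h

theorem ce1 : (829 / 625 : ℝ) * Real.sin (23 / 100 : ℝ) - (829 / 625 : ℝ) * Real.sin (29 / 250 : ℝ) - (726869995612659 / 19531250000000000 : ℝ) ≤ ∫ v in (29 / 250 : ℝ)..(23 / 100 : ℝ), g v := by
  have h := cell (a := (29 / 250 : ℝ)) (b := (23 / 100 : ℝ)) (t := (2487 / 2500 : ℝ)) (by norm_num) (by norm_num) (by linarith [Real.pi_gt_d4]) (by norm_num)
  have e : (2487 / 2500 : ℝ) / 3 * (4 * (Real.sin (23 / 100 : ℝ) - Real.sin (29 / 250 : ℝ)) - (2487 / 2500 : ℝ) ^ 3 * ((23 / 100 : ℝ) - (29 / 250 : ℝ))) = (829 / 625 : ℝ) * Real.sin (23 / 100 : ℝ) - (829 / 625 : ℝ) * Real.sin (29 / 250 : ℝ) - (726869995612659 / 19531250000000000 : ℝ) := by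
    ring
  rw [e] at h
  exact h

theorem ce2 : (4931 / 3750 : ℝ) * Real.sin (17 / 50 : ℝ) - (4931 / 3750 : ℝ) * Real.sin (23 / 100 : ℝ) - (6503283627358331 / 187500000000000000 : ℝ) ≤ ∫ v in (23 / 100 : ℝ)..(17 / 50 : ℝ), g v := by
  have h := cell (a := (23 / 100 : ℝ)) (b := (17 / 50 : ℝ)) (t := (4931 / 5000 : ℝ)) (by norm_num) (by norm_num) (by linarith [Real.pi_gt_d4]) (by norm_num)
  have e : (4931 / 5000 : ℝ) / 3 * (4 * (Real.sin (17 / 50 : ℝ) - Real.sin (23 / 100 : ℝ)) - (4931 / 5000 : ℝ) ^ 3 * ((17 / 50 : ℝ) - (23 / 100 : ℝ))) = (4931 / 3750 : ℝ) * Real.sin (17 / 50 : ℝ) - (4931 / 3750 : ℝ) * Real.sin (23 / 100 : ℝ) - (6503283627358331 / 187500000000000000 : ℝ) := by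
    ring
  rw [e] at h
  exact h

theorem ce3 : (9737 / 7500 : ℝ) * Real.sin (447 / 1000 : ℝ) - (9737 / 7500 : ℝ) * Real.sin (17 / 50 : ℝ) - (961799302332350027 / 30000000000000000000 : ℝ) ≤ ∫ v in (17 / 50 : ℝ)..(447 / 1000 : ℝ), g v := by
  have h := cell (a := (17 / 50 : ℝ)) (b := (447 / 1000 : ℝ)) (t := (9737 / 10000 : ℝ)) (by norm_num) (by norm_num) (by linarith [Real.pi_gt_d4]) (by norm_num)
  have e : (9737 / 10000 : ℝ) / 3 * (4 * (Real.sin (447 / 1000 : ℝ) - Real.sin (17 / 50 : ℝ)) - (9737 / 10000 : ℝ) ^ 3 * ((447 / 1000 : ℝ) - (17 / 50 : ℝ))) = (9737 / 7500 : ℝ) * Real.sin (447 / 1000 : ℝ) - (9737 / 7500 : ℝ) * Real.sin (17 / 50 : ℝ) - (961799302332350027 / 30000000000000000000 : ℝ) := by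
    ring
  rw [e] at h
  exact h

theorem ce4 : (383 / 300 : ℝ) * Real.sin (11 / 20 : ℝ) - (383 / 300 : ℝ) * Real.sin (447 / 1000 : ℝ) - (2216319260263 / 76800000000000 : ℝ) ≤ ∫ v in (447 / 1000 : ℝ)..(11 / 20 : ℝ), g v := by
  have h := cell (a := (447 / 1000 : ℝ)) (b := (11 / 20 : ℝ)) (t := (383 / 400 : ℝ)) (by norm_num) (by norm_num) (by linarith [Real.pi_gt_d4]) (by norm_num)
  have e : (383 / 400 : ℝ) / 3 * (4 * (Real.sin (11 / 20 : ℝ) - Real.sin (447 / 1000 : ℝ)) - (383 / 400 : ℝ) ^ 3 * ((11 / 20 : ℝ) - (447 / 1000 : ℝ))) = (383 / 300 : ℝ) * Real.sin (11 / 20 : ℝ) - (383 / 300 : ℝ) * Real.sin (447 / 1000 : ℝ) - (2216319260263 / 76800000000000 : ℝ) := by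
    ring
  rw [e] at h
  exact h

theorem ce5 : (1563 / 1250 : ℝ) * Real.sin (651 / 1000 : ℝ) - (1563 / 1250 : ℝ) * Real.sin (11 / 20 : ℝ) - (16275001977838647 / 625000000000000000 : ℝ) ≤ ∫ v in (11 / 20 : ℝ)..(651 / 1000 : ℝ), g v := by
  have h := cell (a := (11 / 20 : ℝ)) (b := (651 / 1000 : ℝ)) (t := (4689 / 5000 : ℝ)) (by norm_num) (by norm_num) (by linarith [Real.pi_gt_d4]) (by norm_num)
  have e : (4689 / 5000 : ℝ) / 3 * (4 * (Real.sin (651 / 1000 : ℝ) - Real.sin (11 / 20 : ℝ)) - (4689 / 5000 : ℝ) ^ 3 * ((651 / 1000 : ℝ) - (11 / 20 : ℝ))) = (1563 / 1250 : ℝ) * Real.sin (651 / 1000 : ℝ) - (1563 / 1250 : ℝ) * Real.sin (11 / 20 : ℝ) - (16275001977838647 / 625000000000000000 : ℝ) := by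
    ring
  rw [e] at h
  exact h

theorem ce6 : (3049 / 2500 : ℝ) * Real.sin (747 / 1000 : ℝ) - (3049 / 2500 : ℝ) * Real.sin (651 / 1000 : ℝ) - (7000268795776881 / 312500000000000000 : ℝ) ≤ ∫ v in (651 / 1000 : ℝ)..(747 / 1000 : ℝ), g v := by
  have h := cell (a := (651 / 1000 : ℝ)) (b := (747 / 1000 : ℝ)) (t := (9147 / 10000 : ℝ)) (by norm_num) (by norm_num) (by linarith [Real.pi_gt_d4]) (by norm_num)
  have e : (9147 / 10000 : ℝ) / 3 * (4 * (Real.sin (747 / 1000 : ℝ) - Real.sin (651 / 1000 : ℝ)) - (9147 / 10000 : ℝ) ^ 3 * ((747 / 1000 : ℝ) - (651 / 1000 : ℝ))) = (3049 / 2500 : ℝ) * Real.sin (747 / 1000 : ℝ) - (3049 / 2500 : ℝ) * Real.sin (651 / 1000 : ℝ) - (7000268795776881 / 312500000000000000 : ℝ) := by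
    ring
  rw [e] at h
  exact h

theorem ce7 : (2221 / 1875 : ℝ) * Real.sin (21 / 25 : ℝ) - (2221 / 1875 : ℝ) * Real.sin (747 / 1000 : ℝ) - (754320530269711 / 39062500000000000 : ℝ) ≤ ∫ v in (747 / 1000 : ℝ)..(21 / 25 : ℝ), g v := by
  have h := cell (a := (747 / 1000 : ℝ)) (b := (21 / 25 : ℝ)) (t := (2221 / 2500 : ℝ)) (by norm_num) (by norm_num) (by linarith [Real.pi_gt_d4]) (by norm_num)
  have e : (2221 / 2500 : ℝ) / 3 * (4 * (Real.sin (21 / 25 : ℝ) - Real.sin (747 / 1000 : ℝ)) - (2221 / 2500 : ℝ) ^ 3 * ((21 / 25 : ℝ) - (747 / 1000 : ℝ))) = (2221 / 1875 : ℝ) * Real.sin (21 / 25 : ℝ) - (2221 / 1875 : ℝ) * Real.sin (747 / 1000 : ℝ) - (754320530269711 / 39062500000000000 : ℝ) := by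
    ring
  rw [e] at h
  exact h

theorem ce8 : (8587 / 7500 : ℝ) * Real.sin (93 / 100 : ℝ) - (8587 / 7500 : ℝ) * Real.sin (21 / 25 : ℝ) - (16311244823675283 / 1000000000000000000 : ℝ) ≤ ∫ v in (21 / 25 : ℝ)..(93 / 100 : ℝ), g v := by
  have h := cell (a := (21 / 25 : ℝ)) (b := (93 / 100 : ℝ)) (t := (8587 / 10000 : ℝ)) (by norm_num) (by norm_num) (by linarith [Real.pi_gt_d4]) (by norm_num)
  have e : (8587 / 10000 : ℝ) / 3 * (4 * (Real.sin (93 / 100 : ℝ) - Real.sin (21 / 25 : ℝ)) - (8587 / 10000 : ℝ) ^ 3 * ((93 / 100 : ℝ) - (21 / 25 : ℝ))) = (8587 / 7500 : ℝ) * Real.sin (93 / 100 : ℝ) - (8587 / 7500 : ℝ) * Real.sin (21 / 25 : ℝ) - (16311244823675283 / 1000000000000000000 : ℝ) := by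
    ring
  rw [e] at h
  exact h

theorem ce9 : (4129 / 3750 : ℝ) * Real.sin (203 / 200 : ℝ) - (4129 / 3750 : ℝ) * Real.sin (93 / 100 : ℝ) - (4941154719096977 / 375000000000000000 : ℝ) ≤ ∫ v in (93 / 100 : ℝ)..(203 / 200 : ℝ), g v := by
  have h := cell (a := (93 / 100 : ℝ)) (b := (203 / 200 : ℝ)) (t := (4129 / 5000 : ℝ)) (by norm_num) (by norm_num) (by linarith [Real.pi_gt_d4]) (by norm_num)
  have e : (4129 / 5000 : ℝ) / 3 * (4 * (Real.sin (203 / 200 : ℝ) - Real.sin (93 / 100 : ℝ)) - (4129 / 5000 : ℝ) ^ 3 * ((203 / 200 : ℝ) - (93 / 100 : ℝ))) = (4129 / 3750 : ℝ) * Real.sin (203 / 200 : ℝ) - (4129 / 3750 : ℝ) * Real.sin (93 / 100 : ℝ) - (4941154719096977 / 375000000000000000 : ℝ) := by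
    ring
  rw [e] at h
  exact h

theorem ce10 : (3949 / 3750 : ℝ) * Real.sin (137 / 125 : ℝ) - (3949 / 3750 : ℝ) * Real.sin (203 / 200 : ℝ) - (6566172669428427 / 625000000000000000 : ℝ) ≤ ∫ v in (203 / 200 : ℝ)..(137 / 125 : ℝ), g v := by
  have h := cell (a := (203 / 200 : ℝ)) (b := (137 / 125 : ℝ)) (t := (3949 / 5000 : ℝ)) (by norm_num) (by norm_num) (by linarith [Real.pi_gt_d4]) (by norm_num)
  have e : (3949 / 5000 : ℝ) / 3 * (4 * (Real.sin (137 / 125 : ℝ) - Real.sin (203 / 200 : ℝ)) - (3949 / 5000 : ℝ) ^ 3 * ((137 / 125 : ℝ) - (203 / 200 : ℝ))) = (3949 / 3750 : ℝ) * Real.sin (137 / 125 : ℝ) - (3949 / 3750 : ℝ) * Real.sin (203 / 200 : ℝ) - (6566172669428427 / 625000000000000000 : ℝ) := by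
    ring
  rw [e] at h
  exact h

theorem ce11 : (1876 / 1875 : ℝ) * Real.sin (1173 / 1000 : ℝ) - (1876 / 1875 : ℝ) * Real.sin (137 / 125 : ℝ) - (3725478797117 / 457763671875000 : ℝ) ≤ ∫ v in (137 / 125 : ℝ)..(1173 / 1000 : ℝ), g v := by
  have h := cell (a := (137 / 125 : ℝ)) (b := (1173 / 1000 : ℝ)) (t := (469 / 625 : ℝ)) (by norm_num) (by norm_num) (by linarith [Real.pi_gt_d4]) (by norm_num)
  have e : (469 / 625 : ℝ) / 3 * (4 * (Real.sin (1173 / 1000 : ℝ) - Real.sin (137 / 125 : ℝ)) - (469 / 625 : ℝ) ^ 3 * ((1173 / 1000 : ℝ) - (137 / 125 : ℝ))) = (1876 / 1875 : ℝ) * Real.sin (1173 / 1000 : ℝ) - (1876 / 1875 : ℝ) * Real.sin (137 / 125 : ℝ) - (3725478797117 / 457763671875000 : ℝ) := by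
    ring
  rw [e] at h
  exact h

theorem ce12 : (7073 / 7500 : ℝ) * Real.sin (249 / 200 : ℝ) - (7073 / 7500 : ℝ) * Real.sin (1173 / 1000 : ℝ) - (7508200940622723 / 1250000000000000000 : ℝ) ≤ ∫ v in (1173 / 1000 : ℝ)..(249 / 200 : ℝ), g v := by
  have h := cell (a := (1173 / 1000 : ℝ)) (b := (249 / 200 : ℝ)) (t := (7073 / 10000 : ℝ)) (by norm_num) (by norm_num) (by linarith [Real.pi_gt_d4]) (by norm_num)
  have e : (7073 / 10000 : ℝ) / 3 * (4 * (Real.sin (249 / 200 : ℝ) - Real.sin (1173 / 1000 : ℝ)) - (7073 / 10000 : ℝ) ^ 3 * ((249 / 200 : ℝ) - (1173 / 1000 : ℝ))) = (7073 / 7500 : ℝ) * Real.sin (249 / 200 : ℝ) - (7073 / 7500 : ℝ) * Real.sin (1173 / 1000 : ℝ) - (7508200940622723 / 1250000000000000000 : ℝ) := by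
    ring
  rw [e] at h
  exact h

theorem ce13 : (1321 / 1500 : ℝ) * Real.sin (164 / 125 : ℝ) - (1321 / 1500 : ℝ) * Real.sin (249 / 200 : ℝ) - (204026262142627 / 48000000000000000 : ℝ) ≤ ∫ v in (249 / 200 : ℝ)..(164 / 125 : ℝ), g v := by
  have h := cell (a := (249 / 200 : ℝ)) (b := (164 / 125 : ℝ)) (t := (1321 / 2000 : ℝ)) (by norm_num) (by norm_num) (by linarith [Real.pi_gt_d4]) (by norm_num)
  have e : (1321 / 2000 : ℝ) / 3 * (4 * (Real.sin (164 / 125 : ℝ) - Real.sin (249 / 200 : ℝ)) - (1321 / 2000 : ℝ) ^ 3 * ((164 / 125 : ℝ) - (249 / 200 : ℝ))) = (1321 / 1500 : ℝ) * Real.sin (164 / 125 : ℝ) - (1321 / 1500 : ℝ) * Real.sin (249 / 200 : ℝ) - (204026262142627 / 48000000000000000 : ℝ) := by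
    ring
  rw [e] at h
  exact h

theorem ce14 : (6089 / 7500 : ℝ) * Real.sin (687 / 500 : ℝ) - (6089 / 7500 : ℝ) * Real.sin (164 / 125 : ℝ) - (42613341457945471 / 15000000000000000000 : ℝ) ≤ ∫ v in (164 / 125 : ℝ)..(687 / 500 : ℝ), g v := by
  have h := cell (a := (164 / 125 : ℝ)) (b := (687 / 500 : ℝ)) (t := (6089 / 10000 : ℝ)) (by norm_num) (by norm_num) (by linarith [Real.pi_gt_d4]) (by norm_num)
  have e : (6089 / 10000 : ℝ) / 3 * (4 * (Real.sin (687 / 500 : ℝ) - Real.sin (164 / 125 : ℝ)) - (6089 / 10000 : ℝ) ^ 3 * ((687 / 500 : ℝ) - (164 / 125 : ℝ))) = (6089 / 7500 : ℝ) * Real.sin (687 / 500 : ℝ) - (6089 / 7500 : ℝ) * Real.sin (164 / 125 : ℝ) - (42613341457945471 / 15000000000000000000 : ℝ) := by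
    ring
  rw [e] at h
  exact h

theorem ce15 : (2759 / 3750 : ℝ) * Real.sin (143 / 100 : ℝ) - (2759 / 3750 : ℝ) * Real.sin (687 / 500 : ℝ) - (405606440053927 / 234375000000000000 : ℝ) ≤ ∫ v in (687 / 500 : ℝ)..(143 / 100 : ℝ), g v := by
  have h := cell (a := (687 / 500 : ℝ)) (b := (143 / 100 : ℝ)) (t := (2759 / 5000 : ℝ)) (by norm_num) (by norm_num) (by linarith [Real.pi_gt_d4]) (by norm_num)
  have e : (2759 / 5000 : ℝ) / 3 * (4 * (Real.sin (143 / 100 : ℝ) - Real.sin (687 / 500 : ℝ)) - (2759 / 5000 : ℝ) ^ 3 * ((143 / 100 : ℝ) - (687 / 500 : ℝ))) = (2759 / 3750 : ℝ) * Real.sin (143 / 100 : ℝ) - (2759 / 3750 : ℝ) * Real.sin (687 / 500 : ℝ) - (405606440053927 / 234375000000000000 : ℝ) := by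
    ring
  rw [e] at h
  exact h

theorem ce16 : (4877 / 7500 : ℝ) * Real.sin (1479 / 1000 : ℝ) - (4877 / 7500 : ℝ) * Real.sin (143 / 100 : ℝ) - (27720885715785409 / 30000000000000000000 : ℝ) ≤ ∫ v in (143 / 100 : ℝ)..(1479 / 1000 : ℝ), g v := by
  have h := cell (a := (143 / 100 : ℝ)) (b := (1479 / 1000 : ℝ)) (t := (4877 / 10000 : ℝ)) (by norm_num) (by norm_num) (by linarith [Real.pi_gt_d4]) (by norm_num)
  have e : (4877 / 10000 : ℝ) / 3 * (4 * (Real.sin (1479 / 1000 : ℝ) - Real.sin (143 / 100 : ℝ)) - (4877 / 10000 : ℝ) ^ 3 * ((1479 / 1000 : ℝ) - (143 / 100 : ℝ))) = (4877 / 7500 : ℝ) * Real.sin (1479 / 1000 : ℝ) - (4877 / 7500 : ℝ) * Real.sin (143 / 100 : ℝ) - (27720885715785409 / 30000000000000000000 : ℝ) := by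
    ring
  rw [e] at h
  exact h

theorem ce17 : (829 / 1500 : ℝ) * Real.sin (38 / 25 : ℝ) - (829 / 1500 : ℝ) * Real.sin (1479 / 1000 : ℝ) - (19364307875321 / 48000000000000000 : ℝ) ≤ ∫ v in (1479 / 1000 : ℝ)..(38 / 25 : ℝ), g v := by
  have h := cell (a := (1479 / 1000 : ℝ)) (b := (38 / 25 : ℝ)) (t := (829 / 2000 : ℝ)) (by norm_num) (by norm_num) (by linarith [Real.pi_gt_d4]) (by norm_num)
  have e : (829 / 2000 : ℝ) / 3 * (4 * (Real.sin (38 / 25 : ℝ) - Real.sin (1479 / 1000 : ℝ)) - (829 / 2000 : ℝ) ^ 3 * ((38 / 25 : ℝ) - (1479 / 1000 : ℝ))) = (829 / 1500 : ℝ) * Real.sin (38 / 25 : ℝ) - (829 / 1500 : ℝ) * Real.sin (1479 / 1000 : ℝ) - (19364307875321 / 48000000000000000 : ℝ) := by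
    ring
  rw [e] at h
  exact h

theorem ce18 : (272 / 625 : ℝ) * Real.sin (194 / 125 : ℝ) - (272 / 625 : ℝ) * Real.sin (38 / 25 : ℝ) - (2309188608 / 19073486328125 : ℝ) ≤ ∫ v in (38 / 25 : ℝ)..(194 / 125 : ℝ), g v := by
  have h := cell (a := (38 / 25 : ℝ)) (b := (194 / 125 : ℝ)) (t := (204 / 625 : ℝ)) (by norm_num) (by norm_num) (by linarith [Real.pi_gt_d4]) (by norm_num)
  have e : (204 / 625 : ℝ) / 3 * (4 * (Real.sin (194 / 125 : ℝ) - Real.sin (38 / 25 : ℝ)) - (204 / 625 : ℝ) ^ 3 * ((194 / 125 : ℝ) - (38 / 25 : ℝ))) = (272 / 625 : ℝ) * Real.sin (194 / 125 : ℝ) - (272 / 625 : ℝ) * Real.sin (38 / 25 : ℝ) - (2309188608 / 19073486328125 : ℝ) := by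
    ring
  rw [e] at h
  exact h

theorem ce19 : (107 / 375 : ℝ) * Real.sin (157 / 100 : ℝ) - (107 / 375 : ℝ) * Real.sin (194 / 125 : ℝ) - (393238803 / 31250000000000 : ℝ) ≤ ∫ v in (194 / 125 : ℝ)..(157 / 100 : ℝ), g v := by
  have h := cell (a := (194 / 125 : ℝ)) (b := (157 / 100 : ℝ)) (t := (107 / 500 : ℝ)) (by norm_num) (by norm_num) (by linarith [Real.pi_gt_d4]) (by norm_num)
  have e : (107 / 500 : ℝ) / 3 * (4 * (Real.sin (157 / 100 : ℝ) - Real.sin (194 / 125 : ℝ)) - (107 / 500 : ℝ) ^ 3 * ((157 / 100 : ℝ) - (194 / 125 : ℝ))) = (107 / 375 : ℝ) * Real.sin (157 / 100 : ℝ) - (107 / 375 : ℝ) * Real.sin (194 / 125 : ℝ) - (393238803 / 31250000000000 : ℝ) := by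
    ring
  rw [e] at h
  exact h

theorem cu1 : (3331 / 2500 : ℝ) * Real.sin (29 / 250 : ℝ) - (19279257 / 500000000 : ℝ) ≤ ∫ v in (0 : ℝ)..(29 / 250 : ℝ), g v := by
  have h := ce0
  have e : (0 : ℝ) = 0 := rfl
  rw [show ((0 : ℝ)) = 0 from rfl] at h
  have h0 := Real.sin_zero
  norm_num only [h0] at h ⊢
  linarith

theorem cu2 : (829 / 625 : ℝ) * Real.sin (23 / 100 : ℝ) - (75079819 / 1000000000 : ℝ) ≤ ∫ v in (0 : ℝ)..(23 / 100 : ℝ), g v := by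
  have a : ∫ v in (0 : ℝ)..(23 / 100 : ℝ), g v = (∫ v in (0 : ℝ)..(29 / 250 : ℝ), g v) + ∫ v in (29 / 250 : ℝ)..(23 / 100 : ℝ), g v :=
    (intervalIntegral.integral_add_adjacent_intervals
      (g_cont.intervalIntegrable _ _) (g_cont.intervalIntegrable _ _)).symm
  have h1 := cu1
  have h2 := ce1
  have h3 := sl1
  rw [a]
  linarith

theorem cu3 : (4931 / 3750 : ℝ) * Real.sin (17 / 50 : ℝ) - (53574929 / 500000000 : ℝ) ≤ ∫ v in (0 : ℝ)..(17 / 50 : ℝ), g v := by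
  have a : ∫ v in (0 : ℝ)..(17 / 50 : ℝ), g v = (∫ v in (0 : ℝ)..(23 / 100 : ℝ), g v) + ∫ v in (23 / 100 : ℝ)..(17 / 50 : ℝ), g v :=
    (intervalIntegral.integral_add_adjacent_intervals
      (g_cont.intervalIntegrable _ _) (g_cont.intervalIntegrable _ _)).symm
  have h1 := cu2
  have h2 := ce2
  have h3 := sl2
  rw [a]
  linarith

theorem cu4 : (9737 / 7500 : ℝ) * Real.sin (447 / 1000 : ℝ) - (3341293 / 25000000 : ℝ) ≤ ∫ v in (0 : ℝ)..(447 / 1000 : ℝ), g v := by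
  have a : ∫ v in (0 : ℝ)..(447 / 1000 : ℝ), g v = (∫ v in (0 : ℝ)..(17 / 50 : ℝ), g v) + ∫ v in (17 / 50 : ℝ)..(447 / 1000 : ℝ), g v :=
    (intervalIntegral.integral_add_adjacent_intervals
      (g_cont.intervalIntegrable _ _) (g_cont.intervalIntegrable _ _)).symm
  have h1 := cu3
  have h2 := ce3
  have h3 := sl3
  rw [a]
  linarith

theorem cu5 : (383 / 300 : ℝ) * Real.sin (11 / 20 : ℝ) - (153173183 / 1000000000 : ℝ) ≤ ∫ v in (0 : ℝ)..(11 / 20 : ℝ), g v := by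
  have a : ∫ v in (0 : ℝ)..(11 / 20 : ℝ), g v = (∫ v in (0 : ℝ)..(447 / 1000 : ℝ), g v) + ∫ v in (447 / 1000 : ℝ)..(11 / 20 : ℝ), g v :=
    (intervalIntegral.integral_add_adjacent_intervals
      (g_cont.intervalIntegrable _ _) (g_cont.intervalIntegrable _ _)).symm
  have h1 := cu4
  have h2 := ce4
  have h3 := sl4
  rw [a]
  linarith

theorem cu6 : (1563 / 1250 : ℝ) * Real.sin (651 / 1000 : ℝ) - (165483939 / 1000000000 : ℝ) ≤ ∫ v in (0 : ℝ)..(651 / 1000 : ℝ), g v := by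
  have a : ∫ v in (0 : ℝ)..(651 / 1000 : ℝ), g v = (∫ v in (0 : ℝ)..(11 / 20 : ℝ), g v) + ∫ v in (11 / 20 : ℝ)..(651 / 1000 : ℝ), g v :=
    (intervalIntegral.integral_add_adjacent_intervals
      (g_cont.intervalIntegrable _ _) (g_cont.intervalIntegrable _ _)).symm
  have h1 := cu5
  have h2 := ce5
  have h3 := sl5
  rw [a]
  linarith

theorem cu7 : (3049 / 2500 : ℝ) * Real.sin (747 / 1000 : ℝ) - (84610277 / 500000000 : ℝ) ≤ ∫ v in (0 : ℝ)..(747 / 1000 : ℝ), g v := by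
  have a : ∫ v in (0 : ℝ)..(747 / 1000 : ℝ), g v = (∫ v in (0 : ℝ)..(651 / 1000 : ℝ), g v) + ∫ v in (651 / 1000 : ℝ)..(747 / 1000 : ℝ), g v :=
    (intervalIntegral.integral_add_adjacent_intervals
      (g_cont.intervalIntegrable _ _) (g_cont.intervalIntegrable _ _)).symm
  have h1 := cu6
  have h2 := ce6
  have h3 := sl6
  rw [a]
  linarith

theorem cu8 : (2221 / 1875 : ℝ) * Real.sin (21 / 25 : ℝ) - (164705447 / 1000000000 : ℝ) ≤ ∫ v in (0 : ℝ)..(21 / 25 : ℝ), g v := by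
  have a : ∫ v in (0 : ℝ)..(21 / 25 : ℝ), g v = (∫ v in (0 : ℝ)..(747 / 1000 : ℝ), g v) + ∫ v in (747 / 1000 : ℝ)..(21 / 25 : ℝ), g v :=
    (intervalIntegral.integral_add_adjacent_intervals
      (g_cont.intervalIntegrable _ _) (g_cont.intervalIntegrable _ _)).symm
  have h1 := cu7
  have h2 := ce7
  have h3 := sl7
  rw [a]
  linarith

theorem cu9 : (8587 / 7500 : ℝ) * Real.sin (93 / 100 : ℝ) - (15152883 / 100000000 : ℝ) ≤ ∫ v in (0 : ℝ)..(93 / 100 : ℝ), g v := by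
  have a : ∫ v in (0 : ℝ)..(93 / 100 : ℝ), g v = (∫ v in (0 : ℝ)..(21 / 25 : ℝ), g v) + ∫ v in (21 / 25 : ℝ)..(93 / 100 : ℝ), g v :=
    (intervalIntegral.integral_add_adjacent_intervals
      (g_cont.intervalIntegrable _ _) (g_cont.intervalIntegrable _ _)).symm
  have h1 := cu8
  have h2 := ce8
  have h3 := sl8
  rw [a]
  linarith

theorem cu10 : (4129 / 3750 : ℝ) * Real.sin (203 / 200 : ℝ) - (25908171 / 200000000 : ℝ) ≤ ∫ v in (0 : ℝ)..(203 / 200 : ℝ), g v := by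
  have a : ∫ v in (0 : ℝ)..(203 / 200 : ℝ), g v = (∫ v in (0 : ℝ)..(93 / 100 : ℝ), g v) + ∫ v in (93 / 100 : ℝ)..(203 / 200 : ℝ), g v :=
    (intervalIntegral.integral_add_adjacent_intervals
      (g_cont.intervalIntegrable _ _) (g_cont.intervalIntegrable _ _)).symm
  have h1 := cu9
  have h2 := ce9
  have h3 := sl9
  rw [a]
  linarith

theorem cu11 : (3949 / 3750 : ℝ) * Real.sin (137 / 125 : ℝ) - (99271673 / 1000000000 : ℝ) ≤ ∫ v in (0 : ℝ)..(137 / 125 : ℝ), g v := by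
  have a : ∫ v in (0 : ℝ)..(137 / 125 : ℝ), g v = (∫ v in (0 : ℝ)..(203 / 200 : ℝ), g v) + ∫ v in (203 / 200 : ℝ)..(137 / 125 : ℝ), g v :=
    (intervalIntegral.integral_add_adjacent_intervals
      (g_cont.intervalIntegrable _ _) (g_cont.intervalIntegrable _ _)).symm
  have h1 := cu10
  have h2 := ce10
  have h3 := sl10
  rw [a]
  linarith

theorem cu12 : (1876 / 1875 : ℝ) * Real.sin (1173 / 1000 : ℝ) - (60687711 / 1000000000 : ℝ) ≤ ∫ v in (0 : ℝ)..(1173 / 1000 : ℝ), g v := by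
  have a : ∫ v in (0 : ℝ)..(1173 / 1000 : ℝ), g v = (∫ v in (0 : ℝ)..(137 / 125 : ℝ), g v) + ∫ v in (137 / 125 : ℝ)..(1173 / 1000 : ℝ), g v :=
    (intervalIntegral.integral_add_adjacent_intervals
      (g_cont.intervalIntegrable _ _) (g_cont.intervalIntegrable _ _)).symm
  have h1 := cu11
  have h2 := ce11
  have h3 := sl11
  rw [a]
  linarith

theorem cu13 : (7073 / 7500 : ℝ) * Real.sin (249 / 200 : ℝ) - (13714787 / 1000000000 : ℝ) ≤ ∫ v in (0 : ℝ)..(249 / 200 : ℝ), g v := by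
  have a : ∫ v in (0 : ℝ)..(249 / 200 : ℝ), g v = (∫ v in (0 : ℝ)..(1173 / 1000 : ℝ), g v) + ∫ v in (1173 / 1000 : ℝ)..(249 / 200 : ℝ), g v :=
    (intervalIntegral.integral_add_adjacent_intervals
      (g_cont.intervalIntegrable _ _) (g_cont.intervalIntegrable _ _)).symm
  have h1 := cu12
  have h2 := ce12
  have h3 := sl12
  rw [a]
  linarith

theorem cu14 : (1321 / 1500 : ℝ) * Real.sin (164 / 125 : ℝ) - (-2572011 / 62500000 : ℝ) ≤ ∫ v in (0 : ℝ)..(164 / 125 : ℝ), g v := by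
  have a : ∫ v in (0 : ℝ)..(164 / 125 : ℝ), g v = (∫ v in (0 : ℝ)..(249 / 200 : ℝ), g v) + ∫ v in (249 / 200 : ℝ)..(164 / 125 : ℝ), g v :=
    (intervalIntegral.integral_add_adjacent_intervals
      (g_cont.intervalIntegrable _ _) (g_cont.intervalIntegrable _ _)).symm
  have h1 := cu13
  have h2 := ce13
  have h3 := sl13
  rw [a]
  linarith

theorem cu15 : (6089 / 7500 : ℝ) * Real.sin (687 / 500 : ℝ) - (-2096403 / 20000000 : ℝ) ≤ ∫ v in (0 : ℝ)..(687 / 500 : ℝ), g v := by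
  have a : ∫ v in (0 : ℝ)..(687 / 500 : ℝ), g v = (∫ v in (0 : ℝ)..(164 / 125 : ℝ), g v) + ∫ v in (164 / 125 : ℝ)..(687 / 500 : ℝ), g v :=
    (intervalIntegral.integral_add_adjacent_intervals
      (g_cont.intervalIntegrable _ _) (g_cont.intervalIntegrable _ _)).symm
  have h1 := cu14
  have h2 := ce14
  have h3 := sl14
  rw [a]
  linarith

theorem cu16 : (2759 / 3750 : ℝ) * Real.sin (143 / 100 : ℝ) - (-88876681 / 500000000 : ℝ) ≤ ∫ v in (0 : ℝ)..(143 / 100 : ℝ), g v := by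
  have a : ∫ v in (0 : ℝ)..(143 / 100 : ℝ), g v = (∫ v in (0 : ℝ)..(687 / 500 : ℝ), g v) + ∫ v in (687 / 500 : ℝ)..(143 / 100 : ℝ), g v :=
    (intervalIntegral.integral_add_adjacent_intervals
      (g_cont.intervalIntegrable _ _) (g_cont.intervalIntegrable _ _)).symm
  have h1 := cu15
  have h2 := ce15
  have h3 := sl15
  rw [a]
  linarith

theorem cu17 : (4877 / 7500 : ℝ) * Real.sin (1479 / 1000 : ℝ) - (-52290051 / 200000000 : ℝ) ≤ ∫ v in (0 : ℝ)..(1479 / 1000 : ℝ), g v := by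
  have a : ∫ v in (0 : ℝ)..(1479 / 1000 : ℝ), g v = (∫ v in (0 : ℝ)..(143 / 100 : ℝ), g v) + ∫ v in (143 / 100 : ℝ)..(1479 / 1000 : ℝ), g v :=
    (intervalIntegral.integral_add_adjacent_intervals
      (g_cont.intervalIntegrable _ _) (g_cont.intervalIntegrable _ _)).symm
  have h1 := cu16
  have h2 := ce16
  have h3 := sl16
  rw [a]
  linarith

theorem cu18 : (829 / 1500 : ℝ) * Real.sin (38 / 25 : ℝ) - (-358235887 / 1000000000 : ℝ) ≤ ∫ v in (0 : ℝ)..(38 / 25 : ℝ), g v := by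
  have a : ∫ v in (0 : ℝ)..(38 / 25 : ℝ), g v = (∫ v in (0 : ℝ)..(1479 / 1000 : ℝ), g v) + ∫ v in (1479 / 1000 : ℝ)..(38 / 25 : ℝ), g v :=
    (intervalIntegral.integral_add_adjacent_intervals
      (g_cont.intervalIntegrable _ _) (g_cont.intervalIntegrable _ _)).symm
  have h1 := cu17
  have h2 := ce17
  have h3 := sl17
  rw [a]
  linarith

theorem cu19 : (272 / 625 : ℝ) * Real.sin (194 / 125 : ℝ) - (-475429953 / 1000000000 : ℝ) ≤ ∫ v in (0 : ℝ)..(194 / 125 : ℝ), g v := by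
  have a : ∫ v in (0 : ℝ)..(194 / 125 : ℝ), g v = (∫ v in (0 : ℝ)..(38 / 25 : ℝ), g v) + ∫ v in (38 / 25 : ℝ)..(194 / 125 : ℝ), g v :=
    (intervalIntegral.integral_add_adjacent_intervals
      (g_cont.intervalIntegrable _ _) (g_cont.intervalIntegrable _ _)).symm
  have h1 := cu18
  have h2 := ce18
  have h3 := sl18
  rw [a]
  linarith

theorem cu20 : (107 / 375 : ℝ) * Real.sin (157 / 100 : ℝ) - (-625257539 / 1000000000 : ℝ) ≤ ∫ v in (0 : ℝ)..(157 / 100 : ℝ), g v := by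
  have a : ∫ v in (0 : ℝ)..(157 / 100 : ℝ), g v = (∫ v in (0 : ℝ)..(194 / 125 : ℝ), g v) + ∫ v in (194 / 125 : ℝ)..(157 / 100 : ℝ), g v :=
    (intervalIntegral.integral_add_adjacent_intervals
      (g_cont.intervalIntegrable _ _) (g_cont.intervalIntegrable _ _)).symm
  have h1 := cu19
  have h2 := ce19
  have h3 := sl19
  rw [a]
  linarith

theorem J_ge : (0.9104 : ℝ) ≤ J := by
  rw [J_eq]
  have hpi : (157 / 100 : ℝ) ≤ Real.pi / 2 := by linarith [Real.pi_gt_d4]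
  have htail : 0 ≤ ∫ v in (157 / 100 : ℝ)..(Real.pi / 2), g v :=
    intervalIntegral.integral_nonneg hpi fun v hv =>
      Real.rpow_nonneg (Real.cos_nonneg_of_mem_Icc ⟨by linarith [hv.1], hv.2⟩) _
  have hsplit : ∫ v in (0 : ℝ)..(Real.pi / 2), g v =
      (∫ v in (0 : ℝ)..(157 / 100 : ℝ), g v) + ∫ v in (157 / 100 : ℝ)..(Real.pi / 2), g v :=
    (intervalIntegral.integral_add_adjacent_intervals
      (g_cont.intervalIntegrable _ _) (g_cont.intervalIntegrable _ _)).symm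
  have h1 := cu20
  have h2 := sl20
  rw [hsplit]
  norm_num at h1 h2 ⊢
  linarith
end Vale.Agent.Lib.P371.S
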