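import Vale.Agent.Lib.P371.S.Vec

/-! Removing positivity, then regularity. -/

open MeasureTheory Set Filter Topology
open scoped ENNReal

namespace Vale.Agent.Lib.P371.S

variable {E : Type*} [NormedAddCommGroup E] [InnerProductSpace ℝ E]

/-- The auxiliary component `η`. -/
noncomputable def etaR (x : ℝ) : ℝ := (1 / 2) * (1 + x ^ 2)⁻¹

/-- The derivative of `η`. -/
noncomputable def etaR' (x : ℝ) : ℝ := -(x * ((1 + x ^ 2)⁻¹) ^ 2)

lemma onePlusSq_pos (x : ℝ) : 0 < 1 + x ^ 2 := by positivity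

lemma etaR_hasDerivAt (x : ℝ) : HasDerivAt etaR (etaR' x) x := by
  have h1 : HasDerivAt (fun x : ℝ => 1 + x ^ 2) (2 * x) x := by
    simpa using ((hasDerivAt_id x).pow 2).const_add 1
  have h2 := (h1.inv (onePlusSq_pos x).ne').const_mul (1 / 2 : ℝ)
  refine h2.congr_deriv ?_
  unfold etaR'
  have := (onePlusSq_pos x).ne'
  field_simp

lemma etaR_pos (x : ℝ) : 0 < etaR x := by
  have := onePlusSq_pos x
  unfold etaR
  positivity

lemma etaR'_continuous : Continuous etaR' := by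
  unfold etaR'
  refine Continuous.neg (continuous_id.mul ?_)
  exact (Continuous.inv₀ (by fun_prop) fun x => (onePlusSq_pos x).ne').pow 2

lemma etaR_continuous : Continuous etaR :=
  continuous_iff_continuousAt.2 fun x => (etaR_hasDerivAt x).continuousAt

lemma etaR_sq_le (x : ℝ) : etaR x ^ 2 ≤ (1 + x ^ 2)⁻¹ := by
  have h := onePlusSq_pos x
  have h1 : (1 + x ^ 2)⁻¹ ≤ 1 := inv_le_one_of_one_le₀ (by nlinarith [sq_nonneg x])
  have h0 : 0 < (1 + x ^ 2)⁻¹ := by positivity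
  unfold etaR
  nlinarith

lemma etaR'_sq_le (x : ℝ) : etaR' x ^ 2 ≤ (1 + x ^ 2)⁻¹ := by
  have h := onePlusSq_pos x
  have h1 : x ^ 2 * (1 + x ^ 2)⁻¹ ≤ 1 := by
    rw [← div_eq_mul_inv, div_le_one h]
    linarith
  have h0 : 0 < (1 + x ^ 2)⁻¹ := by positivity
  have h2 : (1 + x ^ 2)⁻¹ ≤ 1 := inv_le_one_of_one_le₀ (by nlinarith [sq_nonneg x])
  unfold etaR'
  have e : (-(x * ((1 + x ^ 2)⁻¹) ^ 2)) ^ 2
      = (x ^ 2 * (1 + x ^ 2)⁻¹) * ((1 + x ^ 2)⁻¹) ^ 3 := by ring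
  rw [e]
  have h3 : ((1 + x ^ 2)⁻¹) ^ 3 ≤ (1 + x ^ 2)⁻¹ := by
    calc ((1 + x ^ 2)⁻¹) ^ 3 = (1 + x ^ 2)⁻¹ * ((1 + x ^ 2)⁻¹) ^ 2 := by ring
      _ ≤ (1 + x ^ 2)⁻¹ * 1 := by
          apply mul_le_mul_of_nonneg_left _ h0.le
          exact pow_le_one₀ h0.le h2
      _ = _ := mul_one _
  calc (x ^ 2 * (1 + x ^ 2)⁻¹) * ((1 + x ^ 2)⁻¹) ^ 3 ≤ 1 * ((1 + x ^ 2)⁻¹) ^ 3 :=
        mul_le_mul_of_nonneg_right h1 (by positivity)
    _ ≤ _ := by linarith

lemma etaR_sq_integrable : Integrable fun x => etaR x ^ 2 :=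
  integrable_inv_one_add_sq.mono' ((etaR_continuous.pow 2).aestronglyMeasurable)
    (Eventually.of_forall fun x => by
      rw [Real.norm_of_nonneg (sq_nonneg _)]
      exact etaR_sq_le x)

lemma etaR'_sq_integrable : Integrable fun x => etaR' x ^ 2 :=
  integrable_inv_one_add_sq.mono' ((etaR'_continuous.pow 2).aestronglyMeasurable)
    (Eventually.of_forall fun x => by
      rw [Real.norm_of_nonneg (sq_nonneg _)]
      exact etaR'_sq_le x)

lemma integral_etaR_sq_le : ∫ x, etaR x ^ 2 ≤ 1 := by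
  have h1 : ∀ x, etaR x ^ 2 = (1 / 4) * (1 + x ^ 2)⁻¹ ^ 2 := by
    intro x
    unfold etaR
    ring
  have h2 : ∀ x : ℝ, etaR x ^ 2 ≤ (1 / 4) * (1 + x ^ 2)⁻¹ := by
    intro x
    rw [h1]
    have h := onePlusSq_pos x
    have h0 : 0 < (1 + x ^ 2)⁻¹ := by positivity
    have h3 : (1 + x ^ 2)⁻¹ ≤ 1 := inv_le_one_of_one_le₀ (by nlinarith [sq_nonneg x])
    nlinarith
  calc ∫ x, etaR x ^ 2 ≤ ∫ x : ℝ, (1 / 4) * (1 + x ^ 2)⁻¹ :=
        integral_mono etaR_sq_integrable (integrable_inv_one_add_sq.const_mul _) h2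
    _ = (1 / 4) * Real.pi := by
        rw [integral_const_mul, integral_univ_inv_one_add_sq]
    _ ≤ 1 := by
        have := Real.pi_lt_four
        linarith

/-- Bessel for vectors which are not necessarily unit vectors. -/
lemma bessel_general {Φ : ℝ → E}
    (hbessel : ∀ e : E, ‖e‖ = 1 → ∫⁻ x, ENNReal.ofReal ((inner ℝ e (Φ x)) ^ 2) ≤ 1) (e : E) :
    ∫⁻ x, ENNReal.ofReal ((inner ℝ e (Φ x)) ^ 2) ≤ ENNReal.ofReal (‖e‖ ^ 2) := by
  by_cases he : e = 0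
  · subst he
    simp
  · have hn : 0 < ‖e‖ := norm_pos_iff.2 he
    have hu : ‖(‖e‖⁻¹) • e‖ = 1 := by
      rw [norm_smul, norm_inv, norm_norm]
      field_simp
    have e1 : ∀ x, (inner ℝ e (Φ x)) ^ 2 = ‖e‖ ^ 2 * (inner ℝ ((‖e‖⁻¹) • e) (Φ x)) ^ 2 := by
      intro x
      rw [real_inner_smul_left]
      field_simp
    simp_rw [e1, ENNReal.ofReal_mul (sq_nonneg ‖e‖)]
    rw [lintegral_const_mul' _ _ ENNReal.ofReal_ne_top]
    calc _ ≤ ENNReal.ofReal (‖e‖ ^ 2) * 1 := by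
          gcongr
          exact hbessel _ hu
      _ = _ := mul_one _

/-- The perturbed estimate. -/
lemma core_C1_eps {Φ Φ' : ℝ → E} (hΦ : ∀ x, HasDerivAt Φ (Φ' x) x) (hΦ'c : Continuous Φ')
    (hL2 : Integrable fun x => ‖Φ x‖ ^ 2) (hL2' : Integrable fun x => ‖Φ' x‖ ^ 2)
    (hbessel : ∀ e : E, ‖e‖ = 1 → ∫⁻ x, ENNReal.ofReal ((inner ℝ e (Φ x)) ^ 2) ≤ 1)
    {ε : ℝ} (hε0 : 0 < ε) (hε1 : ε ≤ 1) :
    ∫⁻ x, ENNReal.ofReal (‖Φ x‖ ^ 6) ≤ ENNReal.ofReal ((27 / 64) * ((1 + ε) ^ 2 *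
      ((∫ x, ‖Φ' x‖ ^ 2) + ε ^ 2 * ∫ x, etaR' x ^ 2))) := by
  set c : ℝ := (Real.sqrt (1 + ε))⁻¹ with hc
  have h1ε : 0 < 1 + ε := by linarith
  have hs : 0 < Real.sqrt (1 + ε) := Real.sqrt_pos.2 h1ε
  have hc0 : 0 < c := by positivity
  have hc2 : c ^ 2 = (1 + ε)⁻¹ := by
    rw [hc, inv_pow, Real.sq_sqrt h1ε.le]
  let Ψ : ℝ → WithLp 2 (E × ℝ) := fun x => WithLp.toLp 2 (c • Φ x, c * (ε * etaR x))
  let Ψ' : ℝ → WithLp 2 (E × ℝ) := fun x => WithLp.toLp 2 (c • Φ' x, c * (ε * etaR' x))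
  have hd : ∀ x, HasDerivAt Ψ (Ψ' x) x := by
    intro x
    have h1 : HasDerivAt (fun x => (c • Φ x, c * (ε * etaR x))) (c • Φ' x, c * (ε * etaR' x)) x :=
      ((hΦ x).const_smul c).prodMk (((etaR_hasDerivAt x).const_mul ε).const_mul c)
    exact (WithLp.prodContinuousLinearEquiv 2 ℝ E ℝ).symm.toContinuousLinearMap.hasFDerivAt.comp_hasDerivAt
      x h1
  have hc' : Continuous Ψ' :=
    (WithLp.prodContinuousLinearEquiv 2 ℝ E ℝ).symm.continuous.comp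
      ((hΦ'c.const_smul c).prodMk ((etaR'_continuous.const_mul ε).const_mul c))
  have hne : ∀ x, Ψ x ≠ 0 := by
    intro x h
    have h2 : (Ψ x).snd = 0 := by rw [h]; rfl
    have h3 : c * (ε * etaR x) = 0 := h2
    have h4 := etaR_pos x
    have : 0 < c * (ε * etaR x) := by positivity
    linarith
  have hn : ∀ x, ‖Ψ x‖ ^ 2 = c ^ 2 * (‖Φ x‖ ^ 2 + ε ^ 2 * etaR x ^ 2) := by
    intro x
    rw [WithLp.prod_norm_sq_eq_of_L2]
    show ‖c • Φ x‖ ^ 2 + ‖c * (ε * etaR x)‖ ^ 2 = _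
    rw [norm_smul, Real.norm_eq_abs, Real.norm_eq_abs, mul_pow, sq_abs, sq_abs]
    ring
  have hn' : ∀ x, ‖Ψ' x‖ ^ 2 = c ^ 2 * (‖Φ' x‖ ^ 2 + ε ^ 2 * etaR' x ^ 2) := by
    intro x
    rw [WithLp.prod_norm_sq_eq_of_L2]
    show ‖c • Φ' x‖ ^ 2 + ‖c * (ε * etaR' x)‖ ^ 2 = _
    rw [norm_smul, Real.norm_eq_abs, Real.norm_eq_abs, mul_pow, sq_abs, sq_abs]
    ring
  have i1 : Integrable fun x => ‖Ψ x‖ ^ 2 := by
    simp_rw [hn]
    exact (hL2.add (etaR_sq_integrable.const_mul _)).const_mul _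
  have i2' : Integrable fun x => ‖Φ' x‖ ^ 2 + ε ^ 2 * etaR' x ^ 2 :=
    hL2'.add (etaR'_sq_integrable.const_mul _)
  have i2 : Integrable fun x => ‖Ψ' x‖ ^ 2 := by
    simp_rw [hn']
    exact i2'.const_mul _
  have hbes : ∀ e : WithLp 2 (E × ℝ), ‖e‖ = 1 →
      ∫⁻ x, ENNReal.ofReal ((inner ℝ e (Ψ x)) ^ 2) ≤ 1 := by
    intro e he
    have he2 : ‖e.fst‖ ^ 2 + e.snd ^ 2 = 1 := by
      have := WithLp.prod_norm_sq_eq_of_L2 e
      rw [he, Real.norm_eq_abs, sq_abs] at this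
      linarith
    have hpt : ∀ x, (inner ℝ e (Ψ x)) ^ 2
        ≤ (inner ℝ e.fst (Φ x)) ^ 2 + (ε * e.snd ^ 2) * etaR x ^ 2 := by
      intro x
      have e1 : inner ℝ e (Ψ x) = c * (inner ℝ e.fst (Φ x) + e.snd * (ε * etaR x)) := by
        rw [WithLp.prod_inner_apply]
        show inner ℝ e.fst (c • Φ x) + inner ℝ e.snd (c * (ε * etaR x)) = _
        rw [real_inner_smul_right]
        simp only [RCLike.inner_apply, conj_trivial]
        ring
      rw [e1, mul_pow, hc2]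
      set a := inner ℝ e.fst (Φ x)
      set b := e.snd * (ε * etaR x) with hb
      have e2 : (ε * e.snd ^ 2) * etaR x ^ 2 = b ^ 2 / ε := by
        rw [hb]
        field_simp
      rw [e2, inv_mul_le_iff₀ h1ε]
      have e3 : (1 + ε) * (a ^ 2 + b ^ 2 / ε) - (a + b) ^ 2 = (ε * a - b) ^ 2 / ε := by
        field_simp
        ring
      have h5 : 0 ≤ (ε * a - b) ^ 2 / ε := by positivity
      linarith
    have hmeas : AEMeasurable fun x => ENNReal.ofReal ((inner ℝ e.fst (Φ x)) ^ 2) := by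
      have hcont : Continuous Φ := continuous_iff_continuousAt.2 fun x => (hΦ x).continuousAt
      exact (((continuous_const.inner hcont).pow 2).measurable.ennreal_ofReal).aemeasurable
    calc ∫⁻ x, ENNReal.ofReal ((inner ℝ e (Ψ x)) ^ 2)
        ≤ ∫⁻ x, (ENNReal.ofReal ((inner ℝ e.fst (Φ x)) ^ 2)
            + ENNReal.ofReal ((ε * e.snd ^ 2) * etaR x ^ 2)) := by
          refine lintegral_mono fun x => ?_
          rw [← ENNReal.ofReal_add (sq_nonneg _) (by positivity)]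
          exact ENNReal.ofReal_le_ofReal (hpt x)
      _ = (∫⁻ x, ENNReal.ofReal ((inner ℝ e.fst (Φ x)) ^ 2))
            + ∫⁻ x, ENNReal.ofReal ((ε * e.snd ^ 2) * etaR x ^ 2) :=
          lintegral_add_left' hmeas _
      _ ≤ ENNReal.ofReal (‖e.fst‖ ^ 2) + ENNReal.ofReal (e.snd ^ 2) := by
          refine add_le_add (bessel_general hbessel e.fst) ?_
          rw [← ofReal_integral_eq_lintegral_ofReal (etaR_sq_integrable.const_mul _)
            (Eventually.of_forall fun x => by positivity)]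
          apply ENNReal.ofReal_le_ofReal
          rw [integral_const_mul]
          have h0 : 0 ≤ ∫ x, etaR x ^ 2 := integral_nonneg fun x => sq_nonneg _
          have h1 := integral_etaR_sq_le
          have h2 : 0 ≤ e.snd ^ 2 := sq_nonneg _
          have h3 : ε * ∫ x, etaR x ^ 2 ≤ 1 := by nlinarith
          calc ε * e.snd ^ 2 * ∫ x, etaR x ^ 2 = e.snd ^ 2 * (ε * ∫ x, etaR x ^ 2) := by ring
            _ ≤ e.snd ^ 2 * 1 := mul_le_mul_of_nonneg_left h3 h2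
            _ = _ := mul_one _
      _ = 1 := by
          rw [← ENNReal.ofReal_add (sq_nonneg _) (sq_nonneg _), he2, ENNReal.ofReal_one]
  have hcore := core_pos hd hc' hne i1 i2 hbes
  have hint : ∫ x, ‖Ψ' x‖ ^ 2
      = c ^ 2 * ((∫ x, ‖Φ' x‖ ^ 2) + ε ^ 2 * ∫ x, etaR' x ^ 2) := by
    simp_rw [hn']
    rw [integral_const_mul, integral_add hL2' (etaR'_sq_integrable.const_mul _), integral_const_mul]
  rw [hint] at hcore
  have hpt6 : ∀ x, ENNReal.ofReal (‖Φ x‖ ^ 6)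
      ≤ ENNReal.ofReal ((1 + ε) ^ 3) * ENNReal.ofReal (‖Ψ x‖ ^ 6) := by
    intro x
    rw [← ENNReal.ofReal_mul (by positivity)]
    apply ENNReal.ofReal_le_ofReal
    have e1 : ‖Ψ x‖ ^ 6 = (c ^ 2) ^ 3 * (‖Φ x‖ ^ 2 + ε ^ 2 * etaR x ^ 2) ^ 3 := by
      calc ‖Ψ x‖ ^ 6 = (‖Ψ x‖ ^ 2) ^ 3 := by ring
        _ = _ := by rw [hn, mul_pow]
    rw [e1, hc2, ← mul_assoc, ← mul_pow, mul_inv_cancel₀ h1ε.ne', one_pow, one_mul]
    have h2 : ‖Φ x‖ ^ 2 ≤ ‖Φ x‖ ^ 2 + ε ^ 2 * etaR x ^ 2 := by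
      have : 0 ≤ ε ^ 2 * etaR x ^ 2 := by positivity
      linarith
    calc ‖Φ x‖ ^ 6 = (‖Φ x‖ ^ 2) ^ 3 := by ring
      _ ≤ _ := pow_le_pow_left₀ (by positivity) h2 3
  have hT0 : 0 ≤ (∫ x, ‖Φ' x‖ ^ 2) + ε ^ 2 * ∫ x, etaR' x ^ 2 := by
    have h0 : 0 ≤ ∫ x, ‖Φ' x‖ ^ 2 := integral_nonneg fun x => by positivity
    have h1 : 0 ≤ ∫ x, etaR' x ^ 2 := integral_nonneg fun x => sq_nonneg _
    positivity
  calc ∫⁻ x, ENNReal.ofReal (‖Φ x‖ ^ 6)
      ≤ ∫⁻ x, ENNReal.ofReal ((1 + ε) ^ 3) * ENNReal.ofReal (‖Ψ x‖ ^ 6) := lintegral_mono hpt6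
    _ = ENNReal.ofReal ((1 + ε) ^ 3) * ∫⁻ x, ENNReal.ofReal (‖Ψ x‖ ^ 6) :=
        lintegral_const_mul' _ _ ENNReal.ofReal_ne_top
    _ ≤ ENNReal.ofReal ((1 + ε) ^ 3) * ENNReal.ofReal ((27 / 64) * (c ^ 2 *
          ((∫ x, ‖Φ' x‖ ^ 2) + ε ^ 2 * ∫ x, etaR' x ^ 2))) := by
        gcongr
    _ = _ := by
        rw [← ENNReal.ofReal_mul (by positivity)]
        congr 1
        rw [hc2]
        field_simp

/-- The kinetic inequality for `C¹` curves (zeros allowed): add a component `ε η`. -/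
theorem core_C1 {Φ Φ' : ℝ → E} (hΦ : ∀ x, HasDerivAt Φ (Φ' x) x) (hΦ'c : Continuous Φ')
    (hL2 : Integrable fun x => ‖Φ x‖ ^ 2) (hL2' : Integrable fun x => ‖Φ' x‖ ^ 2)
    (hbessel : ∀ e : E, ‖e‖ = 1 → ∫⁻ x, ENNReal.ofReal ((inner ℝ e (Φ x)) ^ 2) ≤ 1) :
    ∫⁻ x, ENNReal.ofReal (‖Φ x‖ ^ 6) ≤ ENNReal.ofReal ((27 / 64) * ∫ x, ‖Φ' x‖ ^ 2) := by
  set T : ℝ := ∫ x, ‖Φ' x‖ ^ 2 with hT
  set Tη : ℝ := ∫ x, etaR' x ^ 2 with hTη
  have hlim : Tendsto (fun ε : ℝ => ENNReal.ofReal ((27 / 64) * ((1 + ε) ^ 2 * (T + ε ^ 2 * Tη))))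
      (𝓝[>] 0) (𝓝 (ENNReal.ofReal ((27 / 64) * T))) := by
    have hc : Continuous fun ε : ℝ =>
        ENNReal.ofReal ((27 / 64) * ((1 + ε) ^ 2 * (T + ε ^ 2 * Tη))) :=
      ENNReal.continuous_ofReal.comp (by fun_prop)
    have := (hc.tendsto 0).mono_left (nhdsWithin_le_nhds (s := Ioi 0))
    simpa using this
  refine ge_of_tendsto hlim ?_
  have hev : ∀ᶠ ε : ℝ in 𝓝[>] 0, ε ∈ Ioc (0 : ℝ) 1 := Ioc_mem_nhdsGT one_pos
  filter_upwards [hev] with ε hε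
  exact core_C1_eps hΦ hΦ'c hL2 hL2' hbessel hε.1 hε.2

/-- Tonelli for box averages. -/
lemma box_lintegral {f : ℝ → ℝ≥0∞} (hf : Measurable f) {d : ℝ} (_hd : 0 < d) :
    ∫⁻ x, ∫⁻ t in Ioc x (x + d), f t = ENNReal.ofReal d * ∫⁻ t, f t := by
  have hset : MeasurableSet {p : ℝ × ℝ | p.2 ∈ Ioc p.1 (p.1 + d)} :=
    (measurableSet_lt measurable_fst measurable_snd).inter
      (measurableSet_le measurable_snd (measurable_fst.add_const d))
  have e1 : ∀ x, ∫⁻ t in Ioc x (x + d), f t = ∫⁻ t, (Ioc x (x + d)).indicator f t :=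
    fun x => (lintegral_indicator measurableSet_Ioc f).symm
  simp_rw [e1]
  have hm : Measurable (Function.uncurry fun x t => (Ioc x (x + d)).indicator f t) := by
    have e2 : (Function.uncurry fun x t => (Ioc x (x + d)).indicator f t)
        = ({p : ℝ × ℝ | p.2 ∈ Ioc p.1 (p.1 + d)}).indicator (fun p => f p.2) := by
      ext ⟨x, t⟩
      by_cases h : t ∈ Ioc x (x + d)
      · rw [Function.uncurry_apply_pair, indicator_of_mem h,
          indicator_of_mem (show (x, t) ∈ {p : ℝ × ℝ | p.2 ∈ Ioc p.1 (p.1 + d)} from h)]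
      · rw [Function.uncurry_apply_pair, indicator_of_notMem h,
          indicator_of_notMem (show (x, t) ∉ {p : ℝ × ℝ | p.2 ∈ Ioc p.1 (p.1 + d)} from h)]
    rw [e2]
    exact (hf.comp measurable_snd).indicator hset
  rw [lintegral_lintegral_swap hm.aemeasurable]
  have e2 : ∀ t, ∫⁻ x, (Ioc x (x + d)).indicator f t = ENNReal.ofReal d * f t := by
    intro t
    have e3 : ∀ x, (Ioc x (x + d)).indicator f t = (Ico (t - d) t).indicator (fun _ => f t) x := by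
      intro x
      by_cases h : x < t ∧ t ≤ x + d
      · rw [indicator_of_mem (show t ∈ Ioc x (x + d) from h),
          indicator_of_mem (show x ∈ Ico (t - d) t from ⟨by linarith [h.2], h.1⟩)]
      · rw [indicator_of_notMem (show t ∉ Ioc x (x + d) from h),
          indicator_of_notMem (show x ∉ Ico (t - d) t from fun h2 => h ⟨h2.2, by linarith [h2.1]⟩)]
    simp_rw [e3]
    rw [lintegral_indicator_const measurableSet_Ico, Real.volume_Ico]
    rw [mul_comm]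
    congr 2
    ring
  simp_rw [e2]
  rw [lintegral_const_mul _ hf]

/-- Jensen for the box average. -/
lemma avg_norm_sq_le {F : Type*} [NormedAddCommGroup F] [NormedSpace ℝ F] {f : ℝ → F} {x d : ℝ}
    (hd : 0 < d) (hfi : IntervalIntegrable f volume x (x + d))
    (hf2 : IntervalIntegrable (fun t => ‖f t‖ ^ 2) volume x (x + d)) :
    ‖d⁻¹ • ∫ t in x..x + d, f t‖ ^ 2 ≤ d⁻¹ * ∫ t in x..x + d, ‖f t‖ ^ 2 := by
  have hle : x ≤ x + d := by linarith
  set I₁ : ℝ := ∫ t in x..x + d, ‖f t‖ with hI₁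
  have hI₁0 : 0 ≤ I₁ := intervalIntegral.integral_nonneg hle fun _ _ => norm_nonneg _
  set A : ℝ := d⁻¹ * I₁ with hA
  have hA0 : 0 ≤ A := by positivity
  have h1 : ‖d⁻¹ • ∫ t in x..x + d, f t‖ ≤ A := by
    rw [norm_smul, Real.norm_of_nonneg (by positivity)]
    exact mul_le_mul_of_nonneg_left (intervalIntegral.norm_integral_le_integral_norm hle)
      (by positivity)
  have h0 : 0 ≤ ∫ t in x..x + d, (‖f t‖ - A) ^ 2 :=
    intervalIntegral.integral_nonneg hle fun _ _ => sq_nonneg _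
  have e : ∫ t in x..x + d, (‖f t‖ - A) ^ 2
      = (∫ t in x..x + d, ‖f t‖ ^ 2) - 2 * A * I₁ + A ^ 2 * d := by
    have e1 : ∀ t, (‖f t‖ - A) ^ 2 = ‖f t‖ ^ 2 - 2 * A * ‖f t‖ + A ^ 2 := fun t => by ring
    simp_rw [e1]
    rw [intervalIntegral.integral_add (hf2.sub (hfi.norm.const_mul _)) intervalIntegrable_const,
      intervalIntegral.integral_sub hf2 (hfi.norm.const_mul _),
      intervalIntegral.integral_const_mul, intervalIntegral.integral_const]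
    simp only [add_sub_cancel_left, smul_eq_mul]
    ring
  rw [e] at h0
  have hI : I₁ = A * d := by
    rw [hA]
    field_simp
  have h2 : A ^ 2 * d ≤ ∫ t in x..x + d, ‖f t‖ ^ 2 := by
    rw [hI] at h0
    nlinarith
  have h3 : A ^ 2 ≤ d⁻¹ * ∫ t in x..x + d, ‖f t‖ ^ 2 := by
    rw [← div_eq_inv_mul, le_div_iff₀ hd]
    exact h2
  calc ‖d⁻¹ • ∫ t in x..x + d, f t‖ ^ 2 ≤ A ^ 2 := pow_le_pow_left₀ (norm_nonneg _) h1 2
    _ ≤ _ := h3

/-- Box averages do not increase the `L²` norm. -/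
lemma avg_sq_lint {F : Type*} [NormedAddCommGroup F] [NormedSpace ℝ F] {f : ℝ → F}
    (hfi : ∀ a b, IntervalIntegrable f volume a b) (hf2 : Integrable fun x => ‖f x‖ ^ 2)
    {d : ℝ} (hd : 0 < d) :
    ∫⁻ x, ENNReal.ofReal (‖d⁻¹ • ∫ t in x..x + d, f t‖ ^ 2)
      ≤ ∫⁻ x, ENNReal.ofReal (‖f x‖ ^ 2) := by
  have hmeas : AEMeasurable fun x => ENNReal.ofReal (‖f x‖ ^ 2) :=
    hf2.aestronglyMeasurable.aemeasurable.ennreal_ofReal
  set g := hmeas.mk _ with hg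
  have hgm : Measurable g := hmeas.measurable_mk
  have hge : (fun x => ENNReal.ofReal (‖f x‖ ^ 2)) =ᵐ[volume] g := hmeas.ae_eq_mk
  have hpt : ∀ x, ENNReal.ofReal (‖d⁻¹ • ∫ t in x..x + d, f t‖ ^ 2)
      ≤ ENNReal.ofReal d⁻¹ * ∫⁻ t in Ioc x (x + d), g t := by
    intro x
    have hle : x ≤ x + d := by linarith
    have h1 := avg_norm_sq_le hd (hfi x (x + d)) (hf2.intervalIntegrable (a := x) (b := x + d))
    refine (ENNReal.ofReal_le_ofReal h1).trans ?_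
    rw [ENNReal.ofReal_mul (by positivity), intervalIntegral.integral_of_le hle,
      ofReal_integral_eq_lintegral_ofReal (hf2.integrableOn (s := Ioc x (x + d)))
        (Eventually.of_forall fun t => by positivity)]
    refine le_of_eq ?_
    congr 1
    exact lintegral_congr_ae (ae_restrict_of_ae hge)
  calc ∫⁻ x, ENNReal.ofReal (‖d⁻¹ • ∫ t in x..x + d, f t‖ ^ 2)
      ≤ ∫⁻ x, ENNReal.ofReal d⁻¹ * ∫⁻ t in Ioc x (x + d), g t := lintegral_mono hpt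
    _ = ENNReal.ofReal d⁻¹ * ∫⁻ x, ∫⁻ t in Ioc x (x + d), g t :=
        lintegral_const_mul' _ _ ENNReal.ofReal_ne_top
    _ = ∫⁻ t, g t := by
        rw [box_lintegral hgm hd, ← mul_assoc, ← ENNReal.ofReal_mul (by positivity),
          inv_mul_cancel₀ hd.ne', ENNReal.ofReal_one, one_mul]
    _ = _ := (lintegral_congr_ae hge).symm

/-- The box mollifier. -/
noncomputable def boxAvg (Φ : ℝ → E) (d x : ℝ) : E := d⁻¹ • ∫ t in x..x + d, Φ t

lemma boxAvg_hasDerivAt [CompleteSpace E] {Φ : ℝ → E} (hΦc : Continuous Φ) (d x : ℝ) :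
    HasDerivAt (boxAvg Φ d) (d⁻¹ • (Φ (x + d) - Φ x)) x := by
  have hG : ∀ u, HasDerivAt (fun u => ∫ t in (0 : ℝ)..u, Φ t) (Φ u) u :=
    fun u => (hΦc.integral_hasStrictDerivAt 0 u).hasDerivAt
  have h1 : HasDerivAt (fun x => ∫ t in (0 : ℝ)..x + d, Φ t) (Φ (x + d)) x :=
    (hG (x + d)).comp_add_const x d
  have h2 := (h1.sub (hG x)).const_smul d⁻¹
  refine h2.congr_of_eventuallyEq (Eventually.of_forall fun y => ?_)
  simp only [boxAvg, Pi.smul_apply, Pi.sub_apply]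
  congr 1
  exact (intervalIntegral.integral_interval_sub_left (hΦc.intervalIntegrable _ _)
    (hΦc.intervalIntegrable _ _)).symm

lemma boxAvg_tendsto [CompleteSpace E] {Φ : ℝ → E} (hΦc : Continuous Φ) (x : ℝ) :
    Tendsto (fun k : ℕ => boxAvg Φ (1 / ((k : ℝ) + 1)) x) atTop (𝓝 (Φ x)) := by
  have h1 : HasDerivAt (fun u => ∫ t in x..u, Φ t) (Φ x) x :=
    (hΦc.integral_hasStrictDerivAt x x).hasDerivAt
  have h2 := h1.tendsto_slope_zero_right
  have h3 : Tendsto (fun k : ℕ => 1 / ((k : ℝ) + 1)) atTop (𝓝[>] 0) := by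
    refine tendsto_nhdsWithin_iff.2 ⟨tendsto_one_div_add_atTop_nhds_zero_nat, ?_⟩
    exact Eventually.of_forall fun k => by
      simp only [mem_Ioi]
      positivity
  have h4 := h2.comp h3
  refine h4.congr fun k => ?_
  simp only [Function.comp, boxAvg, intervalIntegral.integral_same, sub_zero]

/-- The kinetic inequality in `H¹`: box mollifier. -/
theorem core_H1 [CompleteSpace E] {Φ Φ' : ℝ → E} (hΦc : Continuous Φ)
    (hftc : ∀ a b : ℝ, IntervalIntegrable Φ' volume a b ∧ ∫ t in a..b, Φ' t = Φ b - Φ a)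
    (hL2 : Integrable fun x => ‖Φ x‖ ^ 2) (hL2' : Integrable fun x => ‖Φ' x‖ ^ 2)
    (hbessel : ∀ e : E, ‖e‖ = 1 → ∫⁻ x, ENNReal.ofReal ((inner ℝ e (Φ x)) ^ 2) ≤ 1) :
    ∫⁻ x, ENNReal.ofReal (‖Φ x‖ ^ 6) ≤ ENNReal.ofReal ((27 / 64) * ∫ x, ‖Φ' x‖ ^ 2) := by
  have hT0 : 0 ≤ ∫ x, ‖Φ' x‖ ^ 2 := integral_nonneg fun x => by positivity
  have hstep : ∀ d : ℝ, 0 < d → ∫⁻ x, ENNReal.ofReal (‖boxAvg Φ d x‖ ^ 6)
      ≤ ENNReal.ofReal ((27 / 64) * ∫ x, ‖Φ' x‖ ^ 2) := by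
    intro d hd
    have hderiv := boxAvg_hasDerivAt hΦc d
    have hcΨ : Continuous (boxAvg Φ d) :=
      continuous_iff_continuousAt.2 fun x => (hderiv x).continuousAt
    have hcΨ' : Continuous fun x => d⁻¹ • (Φ (x + d) - Φ x) :=
      ((hΦc.comp (continuous_id.add continuous_const)).sub hΦc).const_smul _
    have e' : ∀ x, d⁻¹ • (Φ (x + d) - Φ x) = d⁻¹ • ∫ t in x..x + d, Φ' t := by
      intro x
      rw [(hftc x (x + d)).2]
    have hb1 : ∫⁻ x, ENNReal.ofReal (‖boxAvg Φ d x‖ ^ 2) ≤ ∫⁻ x, ENNReal.ofReal (‖Φ x‖ ^ 2) :=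
      avg_sq_lint (fun a b => hΦc.intervalIntegrable a b) hL2 hd
    have hb2 : ∫⁻ x, ENNReal.ofReal (‖d⁻¹ • (Φ (x + d) - Φ x)‖ ^ 2)
        ≤ ∫⁻ x, ENNReal.ofReal (‖Φ' x‖ ^ 2) := by
      simp_rw [e']
      exact avg_sq_lint (fun a b => (hftc a b).1) hL2' hd
    have hint : ∀ {g : ℝ → ℝ}, Continuous g → (∀ x, 0 ≤ g x) → ∀ {h : ℝ → ℝ}, Integrable h →
        (∀ x, 0 ≤ h x) → ∫⁻ x, ENNReal.ofReal (g x) ≤ ∫⁻ x, ENNReal.ofReal (h x) →
        Integrable g := by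
      intro g hgc hg0 h hh hh0 hle
      refine ⟨hgc.aestronglyMeasurable, ?_⟩
      rw [hasFiniteIntegral_iff_ofReal (Eventually.of_forall hg0)]
      refine lt_of_le_of_lt hle ?_
      rw [← ofReal_integral_eq_lintegral_ofReal hh (Eventually.of_forall hh0)]
      exact ENNReal.ofReal_lt_top
    have i1 : Integrable fun x => ‖boxAvg Φ d x‖ ^ 2 :=
      hint (hcΨ.norm.pow 2) (fun x => by positivity) hL2 (fun x => by positivity) hb1
    have i2 : Integrable fun x => ‖d⁻¹ • (Φ (x + d) - Φ x)‖ ^ 2 :=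
      hint (hcΨ'.norm.pow 2) (fun x => by positivity) hL2' (fun x => by positivity) hb2
    have hbes : ∀ e : E, ‖e‖ = 1 →
        ∫⁻ x, ENNReal.ofReal ((inner ℝ e (boxAvg Φ d x)) ^ 2) ≤ 1 := by
      intro e he
      have hfc : Continuous fun x => inner ℝ e (Φ x) := continuous_const.inner hΦc
      have hsq : ∀ x, ‖inner ℝ e (Φ x)‖ ^ 2 = (inner ℝ e (Φ x)) ^ 2 := fun x => by
        rw [Real.norm_eq_abs, sq_abs]
      have hdom : Integrable fun x => ‖inner ℝ e (Φ x)‖ ^ 2 := by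
        refine hL2.mono' ((hfc.norm.pow 2).aestronglyMeasurable)
          (Eventually.of_forall fun x => ?_)
        rw [Real.norm_of_nonneg (by positivity)]
        have h1 : ‖inner ℝ e (Φ x)‖ ≤ ‖Φ x‖ := by
          have := norm_inner_le_norm (𝕜 := ℝ) e (Φ x)
          rwa [he, one_mul] at this
        exact pow_le_pow_left₀ (norm_nonneg _) h1 2
      have h2 := avg_sq_lint (fun a b => hfc.intervalIntegrable a b) hdom hd
      have e3 : ∀ x, inner ℝ e (boxAvg Φ d x) = d⁻¹ • ∫ t in x..x + d, inner ℝ e (Φ t) := by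
        intro x
        rw [boxAvg, real_inner_smul_right, smul_eq_mul]
        congr 1
        exact (ContinuousLinearMap.intervalIntegral_comp_comm (innerSL ℝ e)
          (hΦc.intervalIntegrable _ _)).symm
      have e4 : ∀ x, (inner ℝ e (boxAvg Φ d x)) ^ 2
          = ‖d⁻¹ • ∫ t in x..x + d, inner ℝ e (Φ t)‖ ^ 2 := by
        intro x
        rw [e3, Real.norm_eq_abs, sq_abs]
      simp_rw [e4]
      refine h2.trans ?_
      simp_rw [hsq]
      exact hbessel e he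
    have hcore := core_C1 hderiv hcΨ' i1 i2 hbes
    refine hcore.trans (ENNReal.ofReal_le_ofReal ?_)
    apply mul_le_mul_of_nonneg_left _ (by norm_num)
    have h1 : ENNReal.ofReal (∫ x, ‖d⁻¹ • (Φ (x + d) - Φ x)‖ ^ 2)
        ≤ ENNReal.ofReal (∫ x, ‖Φ' x‖ ^ 2) := by
      rw [ofReal_integral_eq_lintegral_ofReal i2 (Eventually.of_forall fun x => by positivity),
        ofReal_integral_eq_lintegral_ofReal hL2' (Eventually.of_forall fun x => by positivity)]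
      exact hb2
    exact (ENNReal.ofReal_le_ofReal_iff hT0).1 h1
  have hlim : ∀ x, Tendsto (fun k : ℕ => ENNReal.ofReal (‖boxAvg Φ (1 / ((k : ℝ) + 1)) x‖ ^ 6))
      atTop (𝓝 (ENNReal.ofReal (‖Φ x‖ ^ 6))) := fun x =>
    ENNReal.tendsto_ofReal (((boxAvg_tendsto hΦc x).norm).pow 6)
  have hmeas : ∀ k : ℕ, Measurable fun x =>
      ENNReal.ofReal (‖boxAvg Φ (1 / ((k : ℝ) + 1)) x‖ ^ 6) := by
    intro k
    have hc : Continuous (boxAvg Φ (1 / ((k : ℝ) + 1))) :=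
      continuous_iff_continuousAt.2 fun x => (boxAvg_hasDerivAt hΦc _ x).continuousAt
    exact ((hc.norm.pow 6).measurable).ennreal_ofReal
  calc ∫⁻ x, ENNReal.ofReal (‖Φ x‖ ^ 6)
      = ∫⁻ x, liminf (fun k : ℕ => ENNReal.ofReal (‖boxAvg Φ (1 / ((k : ℝ) + 1)) x‖ ^ 6)) atTop := by
        refine lintegral_congr fun x => ?_
        exact (hlim x).liminf_eq.symm
    _ ≤ liminf (fun k : ℕ => ∫⁻ x, ENNReal.ofReal (‖boxAvg Φ (1 / ((k : ℝ) + 1)) x‖ ^ 6)) atTop :=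
        lintegral_liminf_le hmeas
    _ ≤ _ := by
        refine Filter.liminf_le_of_frequently_le' (Frequently.of_forall fun k => ?_)
        exact hstep _ (by positivity)

end Vale.Agent.Lib.P371.S
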