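import Vale.Agent.Lib.P371.S.Fub
import Vale.Agent.Lib.P371.S.Geom

/-! From vector valued `C¹` curves without zeros to scalar data. -/

open MeasureTheory Set Filter Topology
open scoped ENNReal

namespace Vale.Agent.Lib.P371.S

variable {E : Type*} [NormedAddCommGroup E] [InnerProductSpace ℝ E]

section Curve

variable {Φ Φ' : ℝ → E}

/-- Derivative of the norm of a curve without zeros. -/
lemma hasDerivAt_norm_curve (hΦ : ∀ x, HasDerivAt Φ (Φ' x) x) (hne : ∀ x, Φ x ≠ 0) (x : ℝ) :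
    HasDerivAt (fun y => ‖Φ y‖) (inner ℝ (Φ x) (Φ' x) / ‖Φ x‖) x := by
  have h1 : HasDerivAt (fun y => ‖Φ y‖ ^ 2) (2 * inner ℝ (Φ x) (Φ' x)) x := (hΦ x).norm_sq
  have hr : 0 < ‖Φ x‖ := norm_pos_iff.2 (hne x)
  have h2 := h1.sqrt (by positivity)
  have e : (fun y => Real.sqrt (‖Φ y‖ ^ 2)) = fun y => ‖Φ y‖ := by
    funext y
    exact Real.sqrt_sq (norm_nonneg _)
  rw [e] at h2
  convert h2 using 1
  rw [Real.sqrt_sq (norm_nonneg _)]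
  field_simp

/-- The derivative of the unit vector. -/
noncomputable def nD (Φ Φ' : ℝ → E) (x : ℝ) : E :=
  ‖Φ x‖⁻¹ • Φ' x - (inner ℝ (Φ x) (Φ' x) / ‖Φ x‖ ^ 3) • Φ x

lemma hasDerivAt_unit (hΦ : ∀ x, HasDerivAt Φ (Φ' x) x) (hne : ∀ x, Φ x ≠ 0) (x : ℝ) :
    HasDerivAt (fun y => ‖Φ y‖⁻¹ • Φ y) (nD Φ Φ' x) x := by
  have hr : ‖Φ x‖ ≠ 0 := norm_ne_zero_iff.2 (hne x)
  have h1 := (hasDerivAt_norm_curve hΦ hne x).inv hr
  have h2 : HasDerivAt (fun y => ‖Φ y‖⁻¹ • Φ y) _ x := h1.smul (hΦ x)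
  convert h2 using 1
  unfold nD
  rw [sub_eq_add_neg, ← neg_smul]
  congr 2
  field_simp

lemma norm_nD_sq (hne : ∀ x, Φ x ≠ 0) (x : ℝ) :
    ‖Φ x‖ ^ 2 * ‖nD Φ Φ' x‖ ^ 2 = ‖Φ' x‖ ^ 2 - inner ℝ (Φ x) (Φ' x) ^ 2 / ‖Φ x‖ ^ 2 := by
  set r := ‖Φ x‖ with hr
  set u := inner ℝ (Φ x) (Φ' x) with hu
  have hr0 : r ≠ 0 := norm_ne_zero_iff.2 (hne x)
  unfold nD
  rw [norm_sub_sq_real, inner_smul_left, inner_smul_right, norm_smul, norm_smul, real_inner_comm (Φ x) (Φ' x)]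
  simp only [norm_inv, Real.norm_eq_abs, abs_norm, map_inv₀, conj_trivial]
  rw [← hr, ← hu, mul_pow, mul_pow, inv_pow, sq_abs]
  field_simp
  ring

lemma continuous_curve (hΦ : ∀ x, HasDerivAt Φ (Φ' x) x) : Continuous Φ :=
  continuous_iff_continuousAt.2 fun x => (hΦ x).continuousAt

lemma continuous_nD (hΦ : ∀ x, HasDerivAt Φ (Φ' x) x) (hΦ'c : Continuous Φ') (hne : ∀ x, Φ x ≠ 0) :
    Continuous (nD Φ Φ') := by
  have hc := continuous_curve hΦ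
  have hn : Continuous fun x => ‖Φ x‖ := hc.norm
  have hn0 : ∀ x, ‖Φ x‖ ≠ 0 := fun x => norm_ne_zero_iff.2 (hne x)
  unfold nD
  refine ((hn.inv₀ hn0).smul hΦ'c).sub (Continuous.smul ?_ hc)
  exact ((hc.inner hΦ'c).div (hn.pow 3) fun x => pow_ne_zero 3 (hn0 x))

lemma norm_unit (hne : ∀ x, Φ x ≠ 0) (x : ℝ) : ‖‖Φ x‖⁻¹ • Φ x‖ = 1 := by
  rw [norm_smul, norm_inv, norm_norm]
  exact inv_mul_cancel₀ (norm_ne_zero_iff.2 (hne x))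

/-- The arclength. -/
noncomputable def arcS (Φ Φ' : ℝ → E) (x : ℝ) : ℝ := ∫ t in (0 : ℝ)..x, ‖nD Φ Φ' t‖

lemma hasDerivAt_arcS (hΦ : ∀ x, HasDerivAt Φ (Φ' x) x) (hΦ'c : Continuous Φ') (hne : ∀ x, Φ x ≠ 0)
    (x : ℝ) : HasDerivAt (arcS Φ Φ') ‖nD Φ Φ' x‖ x := by
  have hc : Continuous fun t => ‖nD Φ Φ' t‖ := (continuous_nD hΦ hΦ'c hne).norm
  exact intervalIntegral.integral_hasDerivAt_right (hc.intervalIntegrable _ _)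
    (hc.stronglyMeasurableAtFilter _ _) hc.continuousAt

/-- The scalar data of a curve. -/
theorem scalarData_of_curve (hΦ : ∀ x, HasDerivAt Φ (Φ' x) x) (hΦ'c : Continuous Φ')
    (hne : ∀ x, Φ x ≠ 0)
    (hL2 : Integrable fun x => ‖Φ x‖ ^ 2) (hL2' : Integrable fun x => ‖Φ' x‖ ^ 2)
    (hbessel : ∀ e : E, ‖e‖ = 1 → ∫⁻ x, ENNReal.ofReal ((inner ℝ e (Φ x)) ^ 2) ≤ 1) :
    ScalarData (fun x => ‖Φ x‖ ^ 2) (fun x => 2 * inner ℝ (Φ x) (Φ' x))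
      (fun x => ‖nD Φ Φ' x‖) (arcS Φ Φ') ∧
    (fun x => (2 * inner ℝ (Φ x) (Φ' x)) ^ 2 / (4 * ‖Φ x‖ ^ 2) + ‖Φ x‖ ^ 2 * ‖nD Φ Φ' x‖ ^ 2)
      = fun x => ‖Φ' x‖ ^ 2 := by
  have hc := continuous_curve hΦ
  have hid : (fun x => (2 * inner ℝ (Φ x) (Φ' x)) ^ 2 / (4 * ‖Φ x‖ ^ 2) +
      ‖Φ x‖ ^ 2 * ‖nD Φ Φ' x‖ ^ 2) = fun x => ‖Φ' x‖ ^ 2 := by
    funext x
    have hr : ‖Φ x‖ ≠ 0 := norm_ne_zero_iff.2 (hne x)
    rw [norm_nD_sq hne x]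
    field_simp
    ring
  have hd : ∀ x, HasDerivAt (fun y => ‖Φ y‖ ^ 2) (2 * inner ℝ (Φ x) (Φ' x)) x :=
    fun x => (hΦ x).norm_sq
  have hρ'c : Continuous fun x => 2 * inner ℝ (Φ x) (Φ' x) := continuous_const.mul (hc.inner hΦ'c)
  have hρ'i : Integrable fun x => 2 * inner ℝ (Φ x) (Φ' x) := by
    refine (hL2.add hL2').mono' hρ'c.aestronglyMeasurable (Filter.Eventually.of_forall fun x => ?_)
    rw [Real.norm_eq_abs, abs_mul, abs_of_pos (by norm_num : (0 : ℝ) < 2)]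
    have h1 := abs_real_inner_le_norm (Φ x) (Φ' x)
    show 2 * |inner ℝ (Φ x) (Φ' x)| ≤ ‖Φ x‖ ^ 2 + ‖Φ' x‖ ^ 2
    nlinarith [sq_nonneg (‖Φ x‖ - ‖Φ' x‖)]
  refine ⟨⟨hd, hρ'c, fun x => by
      have := norm_pos_iff.2 (hne x)
      positivity, (continuous_nD hΦ hΦ'c hne).norm, fun x => norm_nonneg _,
      hasDerivAt_arcS hΦ hΦ'c hne, hL2, ?_, ?_, ?_, ?_⟩, hid⟩
  · exact tendsto_zero_of_hasDerivAt_of_integrableOn_Ioi (a := 0) (fun x _ => hd x)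
      hρ'i.integrableOn hL2.integrableOn
  · exact tendsto_zero_of_hasDerivAt_of_integrableOn_Iic (a := 0) (fun x _ => hd x)
      hρ'i.integrableOn hL2.integrableOn
  · rw [hid]
    exact hL2'
  · intro x
    refine le_trans (lintegral_mono fun y => ENNReal.ofReal_le_ofReal ?_)
      (hbessel _ (norm_unit hne x))
    -- pointwise
    have hry : ‖Φ y‖ ≠ 0 := norm_ne_zero_iff.2 (hne y)
    have hunit : inner ℝ (‖Φ x‖⁻¹ • Φ x) (Φ y) =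
        ‖Φ y‖ * inner ℝ (‖Φ x‖⁻¹ • Φ x) (‖Φ y‖⁻¹ • Φ y) := by
      rw [inner_smul_right (𝕜 := ℝ) _ _ ‖Φ y‖⁻¹]
      field_simp
    rw [hunit, mul_pow]
    show ‖Φ y‖ ^ 2 * C (arcS Φ Φ' y - arcS Φ Φ' x) ≤ _
    refine mul_le_mul_of_nonneg_left ?_ (sq_nonneg _)
    unfold C
    split_ifs with hcase
    · have hcos := cos_le_inner_of_arclength (n := fun y => ‖Φ y‖⁻¹ • Φ y) (n' := nD Φ Φ')
        (s := arcS Φ Φ') (hasDerivAt_unit hΦ hne) (norm_unit hne)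
        (hasDerivAt_arcS hΦ hΦ'c hne) hcase
      have h0 : 0 ≤ Real.cos (arcS Φ Φ' y - arcS Φ Φ' x) :=
        Real.cos_nonneg_of_neg_pi_div_two_le_of_le (by linarith [(abs_lt.1 hcase).1])
          (by linarith [(abs_lt.1 hcase).2])
      exact pow_le_pow_left₀ h0 hcos 2
    · exact sq_nonneg _

end Curve

/-- The kinetic inequality for `C¹` curves without zeros. -/
theorem core_pos {Φ Φ' : ℝ → E} (hΦ : ∀ x, HasDerivAt Φ (Φ' x) x) (hΦ'c : Continuous Φ')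
    (hne : ∀ x, Φ x ≠ 0)
    (hL2 : Integrable fun x => ‖Φ x‖ ^ 2) (hL2' : Integrable fun x => ‖Φ' x‖ ^ 2)
    (hbessel : ∀ e : E, ‖e‖ = 1 → ∫⁻ x, ENNReal.ofReal ((inner ℝ e (Φ x)) ^ 2) ≤ 1) :
    ∫⁻ x, ENNReal.ofReal (‖Φ x‖ ^ 6) ≤ ENNReal.ofReal ((27 / 64) * ∫ x, ‖Φ' x‖ ^ 2) := by
  obtain ⟨hS, hid⟩ := scalarData_of_curve hΦ hΦ'c hne hL2 hL2' hbessel
  have h1 := scalar_core hS
  have h2 := hS.integrable_cube
  rw [hid] at h1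
  have e : ∀ x, ‖Φ x‖ ^ 6 = (‖Φ x‖ ^ 2) ^ 3 := fun x => by ring
  simp only [e]
  rw [← ofReal_integral_eq_lintegral_ofReal h2
    (Filter.Eventually.of_forall fun x => by positivity)]
  refine ENNReal.ofReal_le_ofReal ?_
  linarith

end Vale.Agent.Lib.P371.S
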